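import Vale.Agent.P037.I2Arith

/-!
# P037: the polynomial removal bound for the `2 × 2` identity pattern
-/

namespace Vale.Agent.P037

open Finset

theorem one_le_numCopies_of_far {k n : ℕ} (H : Fin k → Fin k → Bool) (A : Fin n → Fin n → Bool) (ε : ℝ)
    (hε : 0 < ε) (hn : 0 < n) (hfar : IsFar H A ε) : 1 ≤ numCopies H A := by
  classical
  have hnotfree : ¬ IsFree H A := by
    intro hfree
    have h1 := hfar A hfree
    have h2 : numDiff A A = 0 := by simp [numDiff]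
    rw [h2] at h1
    have hnR : (0 : ℝ) < n := by exact_mod_cast hn
    have : 0 < ε * (n : ℝ) ^ 2 := by positivity
    simp at h1
    linarith
  unfold IsFree at hnotfree
  push Not at hnotfree
  obtain ⟨p, q, hp, hq, hpq⟩ := hnotfree
  have hmem : (p, q) ∈ copies H A := by
    simp only [copies, Finset.mem_filter, Finset.mem_univ, true_and]
    exact ⟨hp, hq, hpq⟩
  exact Finset.card_pos.mpr ⟨_, hmem⟩

theorem I2_removal (n : ℕ) (ε : ℝ) (A : Fin n → Fin n → Bool) (hε0 : 0 < ε) (hε1 : ε < 1)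
    (hfar : IsFar I2 A ε) :
    (ε / 41) ^ 52 / 288 ^ 4 * (n : ℝ) ^ 4 ≤ (numCopies I2 A : ℝ) := by
  rcases Nat.eq_zero_or_pos n with hn | hn
  · subst hn
    simp
  have hnR : (0 : ℝ) < n := by exact_mod_cast hn
  obtain ⟨M, hMdef⟩ : ∃ M, M = ⌈40 / ε⌉₊ := ⟨_, rfl⟩
  have hM1 : 40 / ε ≤ (M : ℝ) := by rw [hMdef]; exact Nat.le_ceil _
  have hM2 : (M : ℝ) < 40 / ε + 1 := by rw [hMdef]; exact Nat.ceil_lt_add_one (by positivity)
  have hM3 : (M : ℝ) ≤ 41 / ε := by
    have h1 : 1 ≤ 1 / ε := by rw [le_div_iff₀ hε0]; linarith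
    have h2 : 41 / ε = 40 / ε + 1 / ε := by ring
    linarith
  have hM40 : (40 : ℝ) < M := by
    have : 40 < 40 / ε := by rw [lt_div_iff₀ hε0]; nlinarith
    linarith
  have hMnat : 2 ≤ M := by
    have : (2 : ℝ) ≤ M := by linarith
    exact_mod_cast this
  have hMpos : (0 : ℝ) < M := by linarith
  have hMε : 40 ≤ (M : ℝ) * ε := (div_le_iff₀ hε0).mp hM1
  have hεM : ε / 41 ≤ 1 / M := by
    rw [div_le_div_iff₀ (by norm_num) hMpos]
    have := (le_div_iff₀ hε0).mp hM3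
    linarith
  have hpow : (ε / 41) ^ 52 ≤ 1 / (M : ℝ) ^ 52 := by
    calc (ε / 41) ^ 52 ≤ (1 / (M : ℝ)) ^ 52 := pow_le_pow_left₀ (by positivity) hεM 52
      _ = 1 / (M : ℝ) ^ 52 := by rw [div_pow, one_pow]
  have hLHS : (ε / 41) ^ 52 / 288 ^ 4 * (n : ℝ) ^ 4 ≤ (n : ℝ) ^ 4 / (288 ^ 4 * (M : ℝ) ^ 52) := by
    calc (ε / 41) ^ 52 / 288 ^ 4 * (n : ℝ) ^ 4
        ≤ 1 / (M : ℝ) ^ 52 / 288 ^ 4 * (n : ℝ) ^ 4 := by gcongr
      _ = (n : ℝ) ^ 4 / (288 ^ 4 * (M : ℝ) ^ 52) := by field_simp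
  refine le_trans hLHS ?_
  rw [div_le_iff₀ (by positivity)]
  have hcop1 : 1 ≤ numCopies I2 A := one_le_numCopies_of_far I2 A ε hε0 hn hfar
  have hM0 : 0 < M := by omega
  have key : n ^ 4 ≤ numCopies I2 A * (288 ^ 4 * M ^ 52) := by
    by_cases hsmall : n < 288 * M ^ 13
    · calc n ^ 4 ≤ (288 * M ^ 13) ^ 4 := Nat.pow_le_pow_left hsmall.le 4
        _ = 1 * (288 ^ 4 * M ^ 52) := by ring
        _ ≤ numCopies I2 A * (288 ^ 4 * M ^ 52) := Nat.mul_le_mul_right _ hcop1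
    · have hk : 0 < 288 * M ^ 13 := by positivity
      obtain ⟨u, hudef⟩ : ∃ u, u = n / (288 * M ^ 13) := ⟨_, rfl⟩
      have hu1 : 1 ≤ u := by
        rw [hudef]
        exact (Nat.one_le_div_iff hk).mpr (not_lt.mp hsmall)
      have hn1 : u * 288 * M ^ 13 ≤ n := by
        have := Nat.div_mul_le_self n (288 * M ^ 13)
        rw [← hudef] at this
        calc u * 288 * M ^ 13 = u * (288 * M ^ 13) := by ring
          _ ≤ n := this
      have hn2 : n < 2 * (u * 288 * M ^ 13) := by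
        have := Nat.lt_mul_div_succ n hk
        rw [← hudef] at this
        calc n < 288 * M ^ 13 * (u + 1) := this
          _ ≤ 288 * M ^ 13 * (2 * u) := Nat.mul_le_mul_left _ (by omega)
          _ = 2 * (u * 288 * M ^ 13) := by ring
      rcases I2_nat A M u hMnat hu1 hn1 hn2 with h | ⟨B, hB, hBd⟩
      · calc n ^ 4 ≤ 16 * 288 ^ 2 * M ^ 46 * (quads A).card := h
          _ ≤ 288 ^ 4 * M ^ 52 * numCopies I2 A := by
              apply Nat.mul_le_mul _ (quads_card_le A)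
              exact Nat.mul_le_mul (by norm_num) (Nat.pow_le_pow_right hM0 (by norm_num))
          _ = numCopies I2 A * (288 ^ 4 * M ^ 52) := by ring
      · exfalso
        have h1 := hfar B hB
        have h2 : (M : ℝ) * (numDiff A B : ℝ) ≤ 20 * (n : ℝ) ^ 2 := by exact_mod_cast hBd
        have h3 : (M : ℝ) * (ε * (n : ℝ) ^ 2) ≤ (M : ℝ) * (numDiff A B : ℝ) :=
          mul_le_mul_of_nonneg_left h1 hMpos.le
        have h4 : 40 * (n : ℝ) ^ 2 ≤ (M : ℝ) * ε * (n : ℝ) ^ 2 :=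
          mul_le_mul_of_nonneg_right hMε (by positivity)
        have h5 : 0 < (n : ℝ) ^ 2 := by positivity
        nlinarith
  exact_mod_cast key

end Vale.Agent.P037
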