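import Vale.Agent.P037.EqualRowsFix
import Vale.Agent.P037.I2Final

/-!
# P037: reduction of all `2 × 2` patterns to four base patterns
-/

namespace Vale.Agent.P037

open Finset

/-- the pattern `[[0,1],[1,1]]` -/
def G2 : Fin 2 → Fin 2 → Bool := fun i j => !(decide (i = 0 ∧ j = 0))

theorem polyRemoval_I2 : PolyRemoval I2 := by
  refine ⟨(1 / 41) ^ 52 / 288 ^ 4, by positivity, 52, ?_⟩
  intro n ε A h0 h1 hfar
  have h := I2_removal n ε A h0 h1 hfar
  have e : (1 / 41 : ℝ) ^ 52 / 288 ^ 4 * ε ^ 52 * (n : ℝ) ^ (2 * 2)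
      = (ε / 41) ^ 52 / 288 ^ 4 * (n : ℝ) ^ 4 := by
    rw [div_pow ε, div_pow (1 : ℝ), one_pow, show 2 * 2 = 4 from rfl]
    ring
  rw [e]
  exact h

/-- a `2 × 2` pattern is determined by its four entries -/
theorem ext2 {H K : Fin 2 → Fin 2 → Bool} (h00 : H 0 0 = K 0 0) (h01 : H 0 1 = K 0 1)
    (h10 : H 1 0 = K 1 0) (h11 : H 1 1 = K 1 1) : H = K := by
  funext i j
  fin_cases i <;> fin_cases j <;> assumption

/-- every `2 × 2` pattern with an even number of ones -/
theorem all2_even (H : Fin 2 → Fin 2 → Bool) (hH : (H 0 0 ^^ H 0 1 ^^ H 1 0 ^^ H 1 1) = false) :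
    PolyRemoval H := by
  rcases h00 : H 0 0 with _ | _ <;> rcases h01 : H 0 1 with _ | _ <;>
    rcases h10 : H 1 0 with _ | _ <;> rcases h11 : H 1 1 with _ | _ <;>
    simp only [h00, h01, h10, h11] at hH <;> try (exact absurd hH (by decide))
  · -- 0 0 / 0 0
    have : H = mcompl (rowsPat (true, true)) := ext2 (by rw [h00]; rfl) (by rw [h01]; rfl)
      (by rw [h10]; rfl) (by rw [h11]; rfl)
    rw [this]; exact polyRemoval_11.compl
  · -- 0 0 / 1 1
    have : H = mcompl (mtransp (rowsPat (true, false))) := ext2 (by rw [h00]; rfl)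
      (by rw [h01]; rfl) (by rw [h10]; rfl) (by rw [h11]; rfl)
    rw [this]; exact polyRemoval_10.transp.compl
  · -- 0 1 / 0 1
    have : H = mcompl (rowsPat (true, false)) := ext2 (by rw [h00]; rfl) (by rw [h01]; rfl)
      (by rw [h10]; rfl) (by rw [h11]; rfl)
    rw [this]; exact polyRemoval_10.compl
  · -- 0 1 / 1 0
    have : H = mcompl I2 := ext2 (by rw [h00]; rfl) (by rw [h01]; rfl)
      (by rw [h10]; rfl) (by rw [h11]; rfl)
    rw [this]; exact polyRemoval_I2.compl
  · -- 1 0 / 0 1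
    have : H = I2 := ext2 (by rw [h00]; rfl) (by rw [h01]; rfl)
      (by rw [h10]; rfl) (by rw [h11]; rfl)
    rw [this]; exact polyRemoval_I2
  · -- 1 0 / 1 0
    have : H = rowsPat (true, false) := ext2 (by rw [h00]; rfl) (by rw [h01]; rfl)
      (by rw [h10]; rfl) (by rw [h11]; rfl)
    rw [this]; exact polyRemoval_10
  · -- 1 1 / 0 0
    have : H = mtransp (rowsPat (true, false)) := ext2 (by rw [h00]; rfl) (by rw [h01]; rfl)
      (by rw [h10]; rfl) (by rw [h11]; rfl)
    rw [this]; exact polyRemoval_10.transp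
  · -- 1 1 / 1 1
    have : H = rowsPat (true, true) := ext2 (by rw [h00]; rfl) (by rw [h01]; rfl)
      (by rw [h10]; rfl) (by rw [h11]; rfl)
    rw [this]; exact polyRemoval_11

/-- every `2 × 2` pattern with an odd number of ones is a symmetric image of `G2` -/
theorem all2_odd (hG : PolyRemoval G2) (H : Fin 2 → Fin 2 → Bool)
    (hH : (H 0 0 ^^ H 0 1 ^^ H 1 0 ^^ H 1 1) = true) : PolyRemoval H := by
  rcases h00 : H 0 0 with _ | _ <;> rcases h01 : H 0 1 with _ | _ <;>
    rcases h10 : H 1 0 with _ | _ <;> rcases h11 : H 1 1 with _ | _ <;>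
    simp only [h00, h01, h10, h11] at hH <;> try (exact absurd hH (by decide))
  · -- 0 0 / 0 1
    have : H = mcompl (mrevR (mrevC G2)) := ext2 (by rw [h00]; rfl) (by rw [h01]; rfl)
      (by rw [h10]; rfl) (by rw [h11]; rfl)
    rw [this]; exact hG.revC.revR.compl
  · -- 0 0 / 1 0
    have : H = mcompl (mrevR G2) := ext2 (by rw [h00]; rfl) (by rw [h01]; rfl)
      (by rw [h10]; rfl) (by rw [h11]; rfl)
    rw [this]; exact hG.revR.compl
  · -- 0 1 / 0 0
    have : H = mcompl (mrevC G2) := ext2 (by rw [h00]; rfl) (by rw [h01]; rfl)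
      (by rw [h10]; rfl) (by rw [h11]; rfl)
    rw [this]; exact hG.revC.compl
  · -- 0 1 / 1 1
    have : H = G2 := ext2 (by rw [h00]; rfl) (by rw [h01]; rfl)
      (by rw [h10]; rfl) (by rw [h11]; rfl)
    rw [this]; exact hG
  · -- 1 0 / 0 0
    have : H = mcompl G2 := ext2 (by rw [h00]; rfl) (by rw [h01]; rfl)
      (by rw [h10]; rfl) (by rw [h11]; rfl)
    rw [this]; exact hG.compl
  · -- 1 0 / 1 1
    have : H = mrevC G2 := ext2 (by rw [h00]; rfl) (by rw [h01]; rfl)
      (by rw [h10]; rfl) (by rw [h11]; rfl)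
    rw [this]; exact hG.revC
  · -- 1 1 / 0 1
    have : H = mrevR G2 := ext2 (by rw [h00]; rfl) (by rw [h01]; rfl)
      (by rw [h10]; rfl) (by rw [h11]; rfl)
    rw [this]; exact hG.revR
  · -- 1 1 / 1 0
    have : H = mrevR (mrevC G2) := ext2 (by rw [h00]; rfl) (by rw [h01]; rfl)
      (by rw [h10]; rfl) (by rw [h11]; rfl)
    rw [this]; exact hG.revC.revR

theorem all2_of_gamma (hG : PolyRemoval G2) (H : Fin 2 → Fin 2 → Bool) : PolyRemoval H := by
  rcases hH : (H 0 0 ^^ H 0 1 ^^ H 1 0 ^^ H 1 1) with _ | _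
  · exact all2_even H hH
  · exact all2_odd hG H hH

end Vale.Agent.P037
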