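import Mathlib

/-!
# P037: a monotone retraction of `Fin n` onto the complement of a small set
-/

namespace Vale.Agent.P037

/-- For a proper subset `D` of `Fin n` there is a monotone map `Fin n → Fin n` avoiding `D`
and fixing every point outside `D`. -/
theorem exists_fill {n : ℕ} (D : Finset (Fin n)) (hD : D.card < n) :
    ∃ f : Fin n → Fin n, Monotone f ∧ (∀ x, f x ∉ D) ∧ (∀ x, x ∉ D → f x = x) := by
  classical
  have hne : (Dᶜ : Finset (Fin n)).Nonempty := by
    rw [← Finset.card_pos, Finset.card_compl, Fintype.card_fin]
    omega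
  set s0 := (Dᶜ : Finset (Fin n)).min' hne with hs0
  have hs0mem : s0 ∈ (Dᶜ : Finset (Fin n)) := Finset.min'_mem _ _
  let T : Fin n → Finset (Fin n) := fun x => (Dᶜ : Finset (Fin n)).filter (fun y => y ≤ x) ∪ {s0}
  have hT : ∀ x, (T x).Nonempty := fun x => ⟨s0, by simp [T]⟩
  have hTsub : ∀ x, T x ⊆ (Dᶜ : Finset (Fin n)) := by
    intro x y hy
    simp only [T, Finset.mem_union, Finset.mem_filter, Finset.mem_singleton] at hy
    rcases hy with hy | hy
    · exact hy.1
    · rw [hy]; exact hs0mem
  refine ⟨fun x => (T x).max' (hT x), ?_, ?_, ?_⟩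
  · intro x y hxy
    apply Finset.max'_subset
    intro w hw
    simp only [T, Finset.mem_union, Finset.mem_filter, Finset.mem_singleton] at hw ⊢
    rcases hw with hw | hw
    · left; exact ⟨hw.1, le_trans hw.2 hxy⟩
    · right; exact hw
  · intro x
    have := hTsub x (Finset.max'_mem (T x) (hT x))
    simpa using this
  · intro x hx
    apply le_antisymm
    · apply Finset.max'_le
      intro y hy
      simp only [T, Finset.mem_union, Finset.mem_filter, Finset.mem_singleton] at hy
      rcases hy with hy | hy
      · exact hy.2
      · rw [hy]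
        exact Finset.min'_le _ _ (by simpa using hx)
    · apply Finset.le_max'
      simp only [T, Finset.mem_union, Finset.mem_filter, Finset.mem_singleton]
      left
      exact ⟨by simpa using hx, le_refl _⟩

end Vale.Agent.P037
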