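import Mathlib

/-!
# P037: a robust subsequence dichotomy for words
-/

namespace Vale.Agent.P037

variable {α : Type*} [DecidableEq α]

/-- The word `u` embeds robustly in `τ` beyond position `z`: there are position sets
`R 0 < R 1 < ...`, each of size at least `g`, with `R i` carrying the letter `u i`. -/
def Robust {n k : ℕ} (g : ℕ) (τ : Fin n → α) (u : Fin k → α) (z : ℕ) : Prop :=
  ∃ R : Fin k → Finset (Fin n), (∀ i, g ≤ (R i).card) ∧ (∀ i, ∀ x ∈ R i, τ x = u i) ∧
    (∀ i, ∀ x ∈ R i, z ≤ (x : ℕ)) ∧ (∀ i j, i < j → ∀ x ∈ R i, ∀ y ∈ R j, x < y)

/-- All weakly increasing occurrences of `u` in `τ` beyond `z` meet a set of at most `k g` positions. -/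
def Killed {n k : ℕ} (g : ℕ) (τ : Fin n → α) (u : Fin k → α) (z : ℕ) : Prop :=
  ∃ D : Finset (Fin n), D.card ≤ k * g ∧ ∀ y : Fin k → Fin n, Monotone y → (∀ i, z ≤ (y i : ℕ)) →
    (∀ i, y i ∉ D) → ¬ ∀ i, τ (y i) = u i

/-- occurrences of the letter `a` at positions in `[z, w)` -/
def occ {n : ℕ} (τ : Fin n → α) (a : α) (z w : ℕ) : Finset (Fin n) :=
  Finset.univ.filter (fun x : Fin n => z ≤ (x : ℕ) ∧ (x : ℕ) < w ∧ τ x = a)

theorem occ_succ_card {n : ℕ} (τ : Fin n → α) (a : α) (z w : ℕ) :
    (occ τ a z (w + 1)).card ≤ (occ τ a z w).card + 1 := by
  classical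
  have hsub : occ τ a z (w + 1) ⊆ occ τ a z w ∪ Finset.univ.filter (fun x : Fin n => (x : ℕ) = w) := by
    intro x hx
    simp only [occ, Finset.mem_filter, Finset.mem_univ, true_and, Finset.mem_union] at hx ⊢
    by_cases h : (x : ℕ) = w
    · right; exact h
    · left; exact ⟨hx.1, by omega, hx.2.2⟩
  have h1 : (Finset.univ.filter (fun x : Fin n => (x : ℕ) = w)).card ≤ 1 := by
    rw [Finset.card_le_one]
    intro x hx y hy
    simp only [Finset.mem_filter, Finset.mem_univ, true_and] at hx hy
    exact Fin.ext (hx.trans hy.symm)
  calc (occ τ a z (w + 1)).card ≤ (occ τ a z w ∪ Finset.univ.filter (fun x : Fin n => (x : ℕ) = w)).card :=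
        Finset.card_le_card hsub
    _ ≤ (occ τ a z w).card + (Finset.univ.filter (fun x : Fin n => (x : ℕ) = w)).card :=
        Finset.card_union_le _ _
    _ ≤ (occ τ a z w).card + 1 := by omega

theorem robust_or_killed {n : ℕ} (g : ℕ) (τ : Fin n → α) :
    ∀ (k : ℕ) (u : Fin k → α) (z : ℕ), Robust g τ u z ∨ Killed g τ u z := by
  intro k
  induction k with
  | zero =>
    intro u z
    left
    exact ⟨fun i => i.elim0, fun i => i.elim0, fun i => i.elim0, fun i => i.elim0, fun i => i.elim0⟩
  | succ k ih =>
    intro u z
    by_cases h : ∃ w, g ≤ (occ τ (u 0) z w).card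
    · classical
      set w := Nat.find h with hw
      have hwg : g ≤ (occ τ (u 0) z w).card := Nat.find_spec h
      have hwle : (occ τ (u 0) z w).card ≤ g := by
        rcases Nat.eq_zero_or_pos w with h0 | hpos
        · have : occ τ (u 0) z w = ∅ := by
            rw [h0]
            ext x
            simp [occ]
          rw [this]; simp
        · obtain ⟨v, hv⟩ : ∃ v, w = v + 1 := ⟨w - 1, by omega⟩
          have hlt : ¬ g ≤ (occ τ (u 0) z v).card := Nat.find_min h (by omega)
          have := occ_succ_card τ (u 0) z v
          rw [hv]; omega
      rcases ih (fun i => u i.succ) (max z w) with hR | hK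
      · left
        obtain ⟨R, hc, hl, hz, ho⟩ := hR
        refine ⟨Fin.cons (occ τ (u 0) z w) R, ?_, ?_, ?_, ?_⟩
        · intro i
          refine Fin.cases ?_ (fun i => ?_) i
          · simpa using hwg
          · simpa using hc i
        · intro i
          refine Fin.cases ?_ (fun i => ?_) i
          · intro x hx
            simp only [Fin.cons_zero, occ, Finset.mem_filter, Finset.mem_univ, true_and] at hx
            exact hx.2.2
          · intro x hx
            simp only [Fin.cons_succ] at hx
            exact hl i x hx
        · intro i
          refine Fin.cases ?_ (fun i => ?_) i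
          · intro x hx
            simp only [Fin.cons_zero, occ, Finset.mem_filter, Finset.mem_univ, true_and] at hx
            exact hx.1
          · intro x hx
            simp only [Fin.cons_succ] at hx
            exact le_trans (le_max_left _ _) (hz i x hx)
        · intro i j
          refine Fin.cases ?_ (fun i => ?_) i
          · refine Fin.cases ?_ (fun j => ?_) j
            · intro hij; exact absurd hij (lt_irrefl _)
            · intro _ x hx y hy
              simp only [Fin.cons_zero, occ, Finset.mem_filter, Finset.mem_univ, true_and] at hx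
              simp only [Fin.cons_succ] at hy
              have := hz j y hy
              have h2 : w ≤ (y : ℕ) := le_trans (le_max_right _ _) this
              exact Fin.lt_def.mpr (by omega)
          · refine Fin.cases ?_ (fun j => ?_) j
            · intro hij; exact absurd hij (by simp)
            · intro hij x hx y hy
              simp only [Fin.cons_succ] at hx hy
              exact ho i j (by simpa using hij) x hx y hy
      · right
        obtain ⟨D, hD, hkill⟩ := hK
        refine ⟨D ∪ occ τ (u 0) z w, ?_, ?_⟩
        · calc (D ∪ occ τ (u 0) z w).card ≤ D.card + (occ τ (u 0) z w).card := Finset.card_union_le _ _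
            _ ≤ k * g + g := by omega
            _ = (k + 1) * g := by ring
        · intro y hy hyz hyD hyu
          have h0 : w ≤ (y 0 : ℕ) := by
            by_contra hlt
            apply hyD 0
            apply Finset.mem_union_right
            simp only [occ, Finset.mem_filter, Finset.mem_univ, true_and]
            exact ⟨hyz 0, by omega, hyu 0⟩
          apply hkill (fun i => y i.succ)
          · intro i j hij
            exact hy (by simpa using hij)
          · intro i
            have h1 : (y 0 : ℕ) ≤ (y i.succ : ℕ) := by
              have := hy (Fin.zero_le i.succ)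
              exact this
            exact max_le (hyz _) (le_trans h0 h1)
          · intro i hi
            exact hyD i.succ (Finset.mem_union_left _ hi)
          · intro i
            exact hyu i.succ
    · right
      push Not at h
      refine ⟨occ τ (u 0) z n, ?_, ?_⟩
      · have := h n
        have h2 : g ≤ (k + 1) * g := Nat.le_mul_of_pos_left g (Nat.succ_pos k)
        omega
      · intro y _ hyz hyD hyu
        apply hyD 0
        simp only [occ, Finset.mem_filter, Finset.mem_univ, true_and]
        exact ⟨hyz 0, (y 0).isLt, hyu 0⟩

end Vale.Agent.P037
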