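import Vale.Agent.P037.Defs
import Vale.Agent.P037.Word
import Vale.Agent.P037.Fill

/-!
# P037: hosts with a bounded number of row and column types
-/

namespace Vale.Agent.P037

open Finset

/-- A small set of positions meeting every weakly increasing occurrence of every non-robust word. -/
theorem exists_kill_set {n m k : ℕ} (g : ℕ) (τ : Fin n → Fin m) :
    ∃ D : Finset (Fin n), D.card ≤ m ^ k * (k * g) ∧
      ∀ y : Fin k → Fin n, Monotone y → (∀ i, y i ∉ D) → Robust g τ (fun i => τ (y i)) 0 := by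
  classical
  have hch : ∀ u : Fin k → Fin m, ∃ D : Finset (Fin n), D.card ≤ k * g ∧
      (Robust g τ u 0 ∨ ∀ y : Fin k → Fin n, Monotone y → (∀ i, y i ∉ D) → ¬ ∀ i, τ (y i) = u i) := by
    intro u
    rcases robust_or_killed g τ k u 0 with h | ⟨D, hD, hk⟩
    · exact ⟨∅, by simp, Or.inl h⟩
    · exact ⟨D, hD, Or.inr (fun y hy hyD => hk y hy (fun i => Nat.zero_le _) hyD)⟩
  choose Du hDu hDu' using hch
  refine ⟨Finset.univ.biUnion Du, ?_, ?_⟩
  · calc (Finset.univ.biUnion Du).card ≤ ∑ u : Fin k → Fin m, (Du u).card := Finset.card_biUnion_le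
      _ ≤ ∑ _u : Fin k → Fin m, k * g := Finset.sum_le_sum (fun u _ => hDu u)
      _ = m ^ k * (k * g) := by simp
  · intro y hy hyD
    rcases hDu' (fun i => τ (y i)) with h | h
    · exact h
    · exfalso
      apply h y hy
      · intro i hi
        exact hyD i (Finset.mem_biUnion.mpr ⟨_, Finset.mem_univ _, hi⟩)
      · intro i; rfl

theorem numDiff_comp_le {n : ℕ} (A : Fin n → Fin n → Bool) (f f' : Fin n → Fin n)
    (D D' : Finset (Fin n)) (hf : ∀ x, x ∉ D → f x = x) (hf' : ∀ x, x ∉ D' → f' x = x) :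
    numDiff A (fun r c => A (f r) (f' c)) ≤ D.card * n + n * D'.card := by
  classical
  unfold numDiff
  have hsub : (Finset.univ.filter (fun x : Fin n × Fin n => A x.1 x.2 ≠ A (f x.1) (f' x.2))) ⊆
      (D ×ˢ (Finset.univ : Finset (Fin n))) ∪ ((Finset.univ : Finset (Fin n)) ×ˢ D') := by
    intro x hx
    simp only [Finset.mem_filter, Finset.mem_univ, true_and] at hx
    simp only [Finset.mem_union, Finset.mem_product, Finset.mem_univ, and_true, true_and]
    by_contra hcon
    push Not at hcon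
    apply hx
    rw [hf x.1 hcon.1, hf' x.2 hcon.2]
  calc _ ≤ ((D ×ˢ (Finset.univ : Finset (Fin n))) ∪ ((Finset.univ : Finset (Fin n)) ×ˢ D')).card :=
        Finset.card_le_card hsub
    _ ≤ (D ×ˢ (Finset.univ : Finset (Fin n))).card + ((Finset.univ : Finset (Fin n)) ×ˢ D').card :=
        Finset.card_union_le _ _
    _ = D.card * n + n * D'.card := by simp

/-- Key counting lemma: in a far blow-up host there are at least `g ^ (2k)` copies as soon as
`2 m^k k g < ε n`. -/
theorem key_lemma {k m n : ℕ} (H : Fin k → Fin k → Bool) (M : Fin m → Fin m → Bool)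
    (τ σ : Fin n → Fin m) (ε : ℝ) (hε1 : ε < 1)
    (hfar : IsFar H (fun r c => M (τ r) (σ c)) ε) (g : ℕ)
    (hg : 2 * ((m : ℝ) ^ k * (k * g)) < ε * n) :
    g ^ (2 * k) ≤ numCopies H (fun r c => M (τ r) (σ c)) := by
  classical
  obtain ⟨D, hDc, hD⟩ := exists_kill_set (k := k) g τ
  obtain ⟨D', hDc', hD'⟩ := exists_kill_set (k := k) g σ
  have hDcR : (D.card : ℝ) ≤ (m : ℝ) ^ k * (k * g) := by exact_mod_cast hDc
  have hDcR' : (D'.card : ℝ) ≤ (m : ℝ) ^ k * (k * g) := by exact_mod_cast hDc'
  have hnonneg : (0 : ℝ) ≤ (m : ℝ) ^ k * (k * g) := by positivity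
  have hn0 : (0 : ℝ) ≤ (n : ℝ) := Nat.cast_nonneg n
  have hnpos : (0 : ℝ) < (n : ℝ) := by
    rcases hn0.lt_or_eq with h | h
    · exact h
    · rw [← h] at hg; simp at hg; linarith
  have hεn : ε * n < n := by nlinarith
  have hDn : D.card < n := by
    have : (D.card : ℝ) < n := by linarith
    exact_mod_cast this
  have hDn' : D'.card < n := by
    have : (D'.card : ℝ) < n := by linarith
    exact_mod_cast this
  obtain ⟨f, hfm, hfD, hfx⟩ := exists_fill D hDn
  obtain ⟨f', hfm', hfD', hfx'⟩ := exists_fill D' hDn'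
  set A : Fin n → Fin n → Bool := fun r c => M (τ r) (σ c) with hA
  have hdiff := numDiff_comp_le A f f' D D' hfx hfx'
  have hnotfree : ¬ IsFree H (fun r c => A (f r) (f' c)) := by
    intro hfree
    have h1 := hfar _ hfree
    have h2 : (numDiff A (fun r c => A (f r) (f' c)) : ℝ) ≤ (D.card : ℝ) * n + n * (D'.card : ℝ) := by
      exact_mod_cast hdiff
    have h3 : (D.card : ℝ) * n + n * (D'.card : ℝ) ≤ 2 * ((m : ℝ) ^ k * (k * g)) * n := by nlinarith
    have h4 : 2 * ((m : ℝ) ^ k * (k * g)) * n < ε * n * n := by nlinarith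
    nlinarith
  unfold IsFree at hnotfree
  push Not at hnotfree
  obtain ⟨p, q, hp, hq, hpq⟩ := hnotfree
  obtain ⟨R, hRc, hRl, -, hRo⟩ := hD (fun i => f (p i)) (fun i j hij => hfm (hp.monotone hij))
    (fun i => hfD _)
  obtain ⟨C, hCc, hCl, -, hCo⟩ := hD' (fun i => f' (q i)) (fun i j hij => hfm' (hq.monotone hij))
    (fun i => hfD' _)
  have hsub : (Fintype.piFinset R) ×ˢ (Fintype.piFinset C) ⊆ copies H A := by
    intro x hx
    simp only [Finset.mem_product, Fintype.mem_piFinset] at hx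
    simp only [copies, Finset.mem_filter, Finset.mem_univ, true_and]
    refine ⟨?_, ?_, ?_⟩
    · intro i j hij
      exact hRo i j hij _ (hx.1 i) _ (hx.1 j)
    · intro i j hij
      exact hCo i j hij _ (hx.2 i) _ (hx.2 j)
    · intro i j
      have h1 := hRl i _ (hx.1 i)
      have h2 := hCl j _ (hx.2 j)
      have h3 := hpq i j
      simp only [hA] at h3 ⊢
      rw [h1, h2]
      exact h3
  have hcard : g ^ (2 * k) ≤ ((Fintype.piFinset R) ×ˢ (Fintype.piFinset C)).card := by
    rw [Finset.card_product, Fintype.card_piFinset, Fintype.card_piFinset, two_mul, pow_add]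
    apply Nat.mul_le_mul
    · calc g ^ k = ∏ _i : Fin k, g := by simp
        _ ≤ ∏ i : Fin k, (R i).card := Finset.prod_le_prod' (fun i _ => hRc i)
    · calc g ^ k = ∏ _i : Fin k, g := by simp
        _ ≤ ∏ i : Fin k, (C i).card := Finset.prod_le_prod' (fun i _ => hCc i)
  exact le_trans hcard (Finset.card_le_card hsub)

end Vale.Agent.P037
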