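import Mathlib

/-!
# P037: rows of a short strip are close to level sets of the column degrees
-/

namespace Vale.Agent.P037

open Finset

variable {n : ℕ}

/-- number of ones of column `c` inside strip `l` (rows `r` with `r / s = l`) -/
def deg (A : Fin n → Fin n → Bool) (s l : ℕ) (c : Fin n) : ℕ :=
  (Finset.univ.filter (fun r : Fin n => r.val / s = l ∧ A r c = true)).card

/-- number of ones of row `r` -/
def rowSize (A : Fin n → Fin n → Bool) (r : Fin n) : ℕ :=
  (Finset.univ.filter (fun c : Fin n => A r c = true)).card

/-- a key that orders rows by size, ties broken by index -/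
def key (A : Fin n → Fin n → Bool) (r : Fin n) : ℕ := rowSize A r * (n + 1) + r.val

/-- rank of a row inside its strip: one plus the number of rows of the strip with a larger key -/
def rnk (A : Fin n → Fin n → Bool) (s : ℕ) (r : Fin n) : ℕ :=
  1 + (Finset.univ.filter (fun r' : Fin n => r'.val / s = r.val / s ∧ key A r < key A r')).card

theorem strip_card_le {s : ℕ} (hs : 0 < s) (l : ℕ) :
    (Finset.univ.filter (fun r : Fin n => r.val / s = l)).card ≤ s := by
  have h : (Finset.univ.filter (fun r : Fin n => r.val / s = l)).card ≤ (Finset.Ico (l * s) (l * s + s)).card := by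
    apply Finset.card_le_card_of_injOn (fun r => r.val)
    · intro r hr
      simp only [Finset.coe_filter, Finset.mem_univ, true_and] at hr
      have hr' : r.val / s = l := hr
      simp only [Finset.coe_Ico, Set.mem_Ico]
      have h1 := Nat.div_add_mod r.val s
      have h2 := Nat.mod_lt r.val hs
      rw [hr'] at h1
      have h3 : s * l = l * s := Nat.mul_comm _ _
      constructor
      · omega
      · omega
    · intro a _ b _ hab
      exact Fin.ext hab
  simpa using h

theorem strip_lt {s : ℕ} (r : Fin n) : r.val / s < n / s + 1 := by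
  have : r.val / s ≤ n / s := Nat.div_le_div_right r.isLt.le
  omega

theorem key_inj (A : Fin n → Fin n → Bool) {r r' : Fin n} (h : key A r = key A r') : r = r' := by
  unfold key at h
  have h1 : (rowSize A r * (n + 1) + r.val) % (n + 1) = r.val := by
    rw [Nat.mul_add_mod_of_lt (by omega)] 
  have h2 : (rowSize A r' * (n + 1) + r'.val) % (n + 1) = r'.val := by
    rw [Nat.mul_add_mod_of_lt (by omega)]
  rw [h] at h1
  exact Fin.ext (h1.symm.trans h2)

theorem rowSize_le_of_key_lt (A : Fin n → Fin n → Bool) {r r' : Fin n} (h : key A r < key A r') :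
    rowSize A r ≤ rowSize A r' := by
  by_contra hcon
  push Not at hcon
  unfold key at h
  have h1 : (rowSize A r' + 1) * (n + 1) ≤ rowSize A r * (n + 1) := Nat.mul_le_mul_right _ hcon
  have h2 := r'.isLt
  nlinarith

theorem rnk_inj (A : Fin n → Fin n → Bool) (s : ℕ) {r r' : Fin n} (hs : r.val / s = r'.val / s)
    (h : rnk A s r = rnk A s r') : r = r' := by
  by_contra hne
  have hk : key A r ≠ key A r' := fun hk => hne (key_inj A hk)
  -- general strictness claim
  have claim : ∀ a b : Fin n, a.val / s = b.val / s → key A a < key A b → rnk A s b < rnk A s a := by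
    intro a b hab hlt
    unfold rnk
    have : (Finset.univ.filter (fun r' : Fin n => r'.val / s = b.val / s ∧ key A b < key A r')) ⊂
        (Finset.univ.filter (fun r' : Fin n => r'.val / s = a.val / s ∧ key A a < key A r')) := by
      rw [Finset.ssubset_iff_of_subset]
      · refine ⟨b, ?_, ?_⟩
        · simp only [Finset.mem_filter, Finset.mem_univ, true_and]
          exact ⟨hab.symm, hlt⟩
        · simp
      · intro x hx
        simp only [Finset.mem_filter, Finset.mem_univ, true_and] at hx ⊢
        exact ⟨hx.1.trans hab.symm, lt_trans hlt hx.2⟩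
    have := Finset.card_lt_card this
    omega
  rcases Nat.lt_or_gt_of_ne hk with hlt | hlt
  · have := claim r r' hs hlt
    omega
  · have := claim r' r hs.symm hlt
    omega

/-- entries whose column degree lies in the band `[rnk, rnk + G)` -/
theorem band_card_le (A : Fin n → Fin n → Bool) (s G : ℕ) :
    (Finset.univ.filter (fun x : Fin n × Fin n =>
      rnk A s x.1 ≤ deg A s (x.1.val / s) x.2 ∧ deg A s (x.1.val / s) x.2 < rnk A s x.1 + G)).card
      ≤ n * (n / s + 1) * G := by
  have h : (Finset.univ.filter (fun x : Fin n × Fin n =>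
      rnk A s x.1 ≤ deg A s (x.1.val / s) x.2 ∧ deg A s (x.1.val / s) x.2 < rnk A s x.1 + G)).card
      ≤ (((Finset.univ : Finset (Fin n)) ×ˢ Finset.range (n / s + 1)) ×ˢ Finset.range G).card := by
    apply Finset.card_le_card_of_injOn
      (fun x => ((x.2, x.1.val / s), deg A s (x.1.val / s) x.2 - rnk A s x.1))
    · intro x hx
      simp only [Finset.coe_filter, Finset.mem_univ, true_and] at hx
      have hx' : rnk A s x.1 ≤ deg A s (x.1.val / s) x.2 ∧ deg A s (x.1.val / s) x.2 < rnk A s x.1 + G := hx
      simp only [Finset.coe_product, Set.mem_prod, Finset.mem_coe, Finset.mem_univ, Finset.mem_range, true_and]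
      exact ⟨strip_lt x.1, by omega⟩
    · intro x hx y hy hxy
      simp only [Finset.coe_filter, Finset.mem_univ, true_and] at hx hy
      have hx' : rnk A s x.1 ≤ deg A s (x.1.val / s) x.2 ∧ deg A s (x.1.val / s) x.2 < rnk A s x.1 + G := hx
      have hy' : rnk A s y.1 ≤ deg A s (y.1.val / s) y.2 ∧ deg A s (y.1.val / s) y.2 < rnk A s y.1 + G := hy
      simp only [Prod.mk.injEq] at hxy
      obtain ⟨⟨h2, hst⟩, hd⟩ := hxy
      rw [← hst, ← h2] at hd hy'
      have hr : rnk A s x.1 = rnk A s y.1 := by omega
      have := rnk_inj A s hst hr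
      exact Prod.ext this h2
  simpa using h

/-- entries whose rank lies in the band `(deg, deg + G]` -/
theorem band_card_le' (A : Fin n → Fin n → Bool) (s G : ℕ) :
    (Finset.univ.filter (fun x : Fin n × Fin n =>
      deg A s (x.1.val / s) x.2 < rnk A s x.1 ∧ rnk A s x.1 ≤ deg A s (x.1.val / s) x.2 + G)).card
      ≤ n * (n / s + 1) * G := by
  have h : (Finset.univ.filter (fun x : Fin n × Fin n =>
      deg A s (x.1.val / s) x.2 < rnk A s x.1 ∧ rnk A s x.1 ≤ deg A s (x.1.val / s) x.2 + G)).card
      ≤ (((Finset.univ : Finset (Fin n)) ×ˢ Finset.range (n / s + 1)) ×ˢ Finset.range G).card := by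
    apply Finset.card_le_card_of_injOn
      (fun x => ((x.2, x.1.val / s), rnk A s x.1 - deg A s (x.1.val / s) x.2 - 1))
    · intro x hx
      simp only [Finset.coe_filter, Finset.mem_univ, true_and] at hx
      have hx' : deg A s (x.1.val / s) x.2 < rnk A s x.1 ∧ rnk A s x.1 ≤ deg A s (x.1.val / s) x.2 + G := hx
      simp only [Finset.coe_product, Set.mem_prod, Finset.mem_coe, Finset.mem_univ, Finset.mem_range, true_and]
      exact ⟨strip_lt x.1, by omega⟩
    · intro x hx y hy hxy
      simp only [Finset.coe_filter, Finset.mem_univ, true_and] at hx hy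
      have hx' : deg A s (x.1.val / s) x.2 < rnk A s x.1 ∧ rnk A s x.1 ≤ deg A s (x.1.val / s) x.2 + G := hx
      have hy' : deg A s (y.1.val / s) y.2 < rnk A s y.1 ∧ rnk A s y.1 ≤ deg A s (y.1.val / s) y.2 + G := hy
      simp only [Prod.mk.injEq] at hxy
      obtain ⟨⟨h2, hst⟩, hd⟩ := hxy
      rw [← hst, ← h2] at hd hy'
      have hr : rnk A s x.1 = rnk A s y.1 := by omega
      have := rnk_inj A s hst hr
      exact Prod.ext this h2
  simpa using h

end Vale.Agent.P037
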