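import Mathlib

/-!
# P037: two generic counting helpers
-/

namespace Vale.Agent.P037

open Finset

/-- The number of pairs satisfying `p` is the sum of the fibre sizes. -/
theorem card_filter_prod {α β : Type*} [Fintype α] [Fintype β] [DecidableEq α] [DecidableEq β]
    (p : α × β → Prop) [DecidablePred p] :
    (Finset.univ.filter p).card = ∑ a : α, (Finset.univ.filter (fun b : β => p (a, b))).card := by
  classical
  rw [Finset.card_eq_sum_card_fiberwise (f := Prod.fst) (t := Finset.univ) (fun x _ => Finset.mem_coe.mpr (Finset.mem_univ _))]
  apply Finset.sum_congr rfl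
  intro a _
  apply Finset.card_bij (fun x _ => x.2)
  · intro x hx
    simp only [Finset.mem_filter, Finset.mem_univ, true_and] at hx ⊢
    obtain ⟨h1, h2⟩ := hx
    have : x = (a, x.2) := Prod.ext h2 rfl
    rw [this] at h1
    exact h1
  · intro x hx y hy hxy
    simp only [Finset.mem_filter, Finset.mem_univ, true_and] at hx hy
    exact Prod.ext (hx.2.trans hy.2.symm) hxy
  · intro b hb
    simp only [Finset.mem_filter, Finset.mem_univ, true_and] at hb
    exact ⟨(a, b), by simp [hb], rfl⟩

/-- If every `a` satisfying `P` has at least `m` partners `b` with `p (a, b)`, then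
`#P * m ≤ #p`. -/
theorem card_mul_le_of_fibres {α β : Type*} [Fintype α] [Fintype β] [DecidableEq α] [DecidableEq β]
    (P : α → Prop) [DecidablePred P] (p : α × β → Prop) [DecidablePred p] (m : ℕ)
    (h : ∀ a, P a → m ≤ (Finset.univ.filter (fun b : β => p (a, b))).card) :
    (Finset.univ.filter P).card * m ≤ (Finset.univ.filter p).card := by
  classical
  rw [card_filter_prod p]
  calc (Finset.univ.filter P).card * m = ∑ _a ∈ Finset.univ.filter P, m := by simp
    _ ≤ ∑ a ∈ Finset.univ.filter P, (Finset.univ.filter (fun b : β => p (a, b))).card := by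
        apply Finset.sum_le_sum
        intro a ha
        exact h a (Finset.mem_filter.mp ha).2
    _ ≤ ∑ a : α, (Finset.univ.filter (fun b : β => p (a, b))).card := by
        apply Finset.sum_le_sum_of_subset
        exact Finset.filter_subset _ _

end Vale.Agent.P037
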