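import Vale.Agent.P037.Chain
import Vale.Agent.P037.Count

/-!
# P037: rounding the column degrees with a good offset
-/

namespace Vale.Agent.P037

open Finset

variable {n : ℕ}

theorem offset_fibre_le (d L w : ℕ) :
    ((Finset.range L).filter (fun o => (d + o) % L < w)).card ≤ w := by
  have h : ((Finset.range L).filter (fun o => (d + o) % L < w)).card ≤ (Finset.range w).card := by
    apply Finset.card_le_card_of_injOn (fun o => (d + o) % L)
    · intro o ho
      simp only [Finset.coe_filter, Finset.mem_range, Set.mem_ofPred_eq] at ho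
      simpa using ho.2
    · intro a ha b hb hab
      simp only [Finset.coe_filter, Finset.mem_range, Set.mem_ofPred_eq] at ha hb
      have h1 : d + a ≡ d + b [MOD L] := hab
      have h2 : a ≡ b [MOD L] := Nat.ModEq.add_left_cancel' d h1
      have h3 : a % L = b % L := h2
      rwa [Nat.mod_eq_of_lt ha.1, Nat.mod_eq_of_lt hb.1] at h3
  simpa using h

/-- Some offset leaves few residues below `w`. -/
theorem exists_offset (d : Fin n → ℕ) (L w : ℕ) (hL : 0 < L) (hw : w ≤ L) :
    ∃ o, o < L ∧ L * (Finset.univ.filter (fun c : Fin n => (d c + o) % L < w)).card ≤ w * n := by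
  classical
  have hne : (Finset.range L).Nonempty := ⟨0, by simpa using hL⟩
  have hsum : ∑ o ∈ Finset.range L, (Finset.univ.filter (fun c : Fin n => (d c + o) % L < w)).card
      ≤ n * w := by
    have h1 : ∀ o, (Finset.univ.filter (fun c : Fin n => (d c + o) % L < w)).card
        = ∑ c : Fin n, if (d c + o) % L < w then 1 else 0 := by
      intro o
      rw [Finset.card_filter]
    simp only [h1]
    rw [Finset.sum_comm]
    calc ∑ c : Fin n, ∑ o ∈ Finset.range L, (if (d c + o) % L < w then 1 else 0)
        = ∑ c : Fin n, ((Finset.range L).filter (fun o => (d c + o) % L < w)).card := by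
          apply Finset.sum_congr rfl
          intro c _
          rw [Finset.card_filter]
      _ ≤ ∑ _c : Fin n, w := Finset.sum_le_sum (fun c _ => offset_fibre_le (d c) L w)
      _ = n * w := by simp
  have hle : ∑ o ∈ Finset.range L,
      L * (Finset.univ.filter (fun c : Fin n => (d c + o) % L < w)).card
      ≤ ∑ _o ∈ Finset.range L, w * n := by
    rw [← Finset.mul_sum]
    simp only [Finset.sum_const, Finset.card_range, smul_eq_mul]
    calc L * _ ≤ L * (n * w) := Nat.mul_le_mul_left _ hsum
      _ = L * (w * n) := by ring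
  obtain ⟨o, ho, hoo⟩ := Finset.exists_le_of_sum_le hne hle
  exact ⟨o, by simpa using ho, hoo⟩

theorem gap (d1 d2 o L w : ℕ) (hL : 0 < L) (h1 : w ≤ (d1 + o) % L)
    (hq : (d2 + o) / L < (d1 + o) / L) : d2 + (w + 1) ≤ d1 := by
  have e1 := Nat.div_add_mod (d1 + o) L
  have e2 := Nat.div_add_mod (d2 + o) L
  have r2 := Nat.mod_lt (d2 + o) hL
  have h3 : L * ((d2 + o) / L + 1) ≤ L * ((d1 + o) / L) := Nat.mul_le_mul_left _ hq
  rw [Nat.mul_add, Nat.mul_one] at h3
  omega

/-- a degree surplus gives rows reading `1 0` -/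
theorem desc_rows (A : Fin n → Fin n → Bool) (s l : ℕ) (c1 c2 : Fin n) (m : ℕ)
    (h : deg A s l c2 + m ≤ deg A s l c1) :
    m ≤ (Finset.univ.filter (fun r : Fin n => r.val / s = l ∧ A r c1 = true ∧ A r c2 = false)).card := by
  classical
  unfold deg at h
  have hsplit := Finset.card_filter_add_card_filter_not
    (s := Finset.univ.filter (fun r : Fin n => r.val / s = l ∧ A r c1 = true))
    (fun r => A r c2 = true)
  have h1 : ((Finset.univ.filter (fun r : Fin n => r.val / s = l ∧ A r c1 = true)).filter
      (fun r => A r c2 = true)).card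
      ≤ (Finset.univ.filter (fun r : Fin n => r.val / s = l ∧ A r c2 = true)).card := by
    apply Finset.card_le_card
    intro x hx
    simp only [Finset.mem_filter, Finset.mem_univ, true_and] at hx ⊢
    exact ⟨hx.1.1, hx.2⟩
  have h2 : ((Finset.univ.filter (fun r : Fin n => r.val / s = l ∧ A r c1 = true)).filter
      (fun r => ¬ A r c2 = true)).card
      ≤ (Finset.univ.filter
        (fun r : Fin n => r.val / s = l ∧ A r c1 = true ∧ A r c2 = false)).card := by
    apply Finset.card_le_card
    intro x hx
    simp only [Finset.mem_filter, Finset.mem_univ, true_and] at hx ⊢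
    exact ⟨hx.1.1, hx.1.2, by simpa using hx.2⟩
  omega

theorem deg_le (A : Fin n → Fin n → Bool) (s l : ℕ) (hs : 0 < s) (c : Fin n) : deg A s l c ≤ s := by
  classical
  unfold deg
  refine le_trans (Finset.card_le_card ?_) (strip_card_le (n := n) hs l)
  intro x hx
  simp only [Finset.mem_filter, Finset.mem_univ, true_and] at hx ⊢
  exact hx.1

/-- `⌈(a + o) / L⌉ ≤ ⌊(b + o) / L⌋` forces `a ≤ b`. -/
theorem le_of_round (a b o L : ℕ) (hL : 0 < L) (h : (a + o + L - 1) / L ≤ (b + o) / L) : a ≤ b := by
  have e2 := Nat.div_add_mod (b + o) L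
  have e1 := Nat.div_add_mod (a + o + L - 1) L
  have r1 := Nat.mod_lt (a + o + L - 1) hL
  have h3 : L * ((a + o + L - 1) / L) ≤ L * ((b + o) / L) := Nat.mul_le_mul_left _ h
  omega

/-- failure of `⌈(a + o) / L⌉ ≤ ⌊(b + o) / L⌋` forces `b < a + L`. -/
theorem lt_of_not_round (a b o L : ℕ) (hL : 0 < L) (h : ¬ (a + o + L - 1) / L ≤ (b + o) / L) :
    b < a + L := by
  have h' : (b + o) / L + 1 ≤ (a + o + L - 1) / L := by omega
  have e2 := Nat.div_add_mod (b + o) L
  have e1 := Nat.div_add_mod (a + o + L - 1) L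
  have r2 := Nat.mod_lt (b + o) hL
  have h3 : L * ((b + o) / L + 1) ≤ L * ((a + o + L - 1) / L) := Nat.mul_le_mul_left _ h'
  rw [Nat.mul_add, Nat.mul_one] at h3
  omega

end Vale.Agent.P037
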