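import Vale.Agent.P037.I2Defs
import Vale.Agent.P037.Word
import Vale.Agent.P037.Round

/-!
# P037: conflicts between two strips are either robust or can be removed by deleting few columns
-/

namespace Vale.Agent.P037

open Finset

variable {n : ℕ}

theorem conflict_dichotomy (T mq g : ℕ) (Q : ℕ → Fin n → ℕ) (hQ : ∀ l c, Q l c < mq)
    (D0 : Finset (Fin n)) :
    (∃ l1 l2, l1 < l2 ∧ l2 < T ∧ ∃ C1 C2 : Finset (Fin n), g ≤ C1.card ∧ g ≤ C2.card ∧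
      (∀ c1 ∈ C1, ∀ c2 ∈ C2, c1 < c2 ∧ c1 ∉ D0 ∧ c2 ∉ D0 ∧ Q l1 c2 < Q l1 c1 ∧ Q l2 c1 < Q l2 c2)) ∨
    (∃ D1 : Finset (Fin n), D1.card ≤ T ^ 2 * mq ^ 4 * (2 * g) ∧
      ∀ c1 c2 : Fin n, c1 ≤ c2 → c1 ∉ D0 → c2 ∉ D0 → c1 ∉ D1 → c2 ∉ D1 →
        ∀ l1 l2, l1 < l2 → l2 < T → ¬ (Q l1 c2 < Q l1 c1 ∧ Q l2 c1 < Q l2 c2)) := by
  classical
  -- the word attached to a pair of strips
  let τ : ℕ → ℕ → Fin n → Option (ℕ × ℕ) :=
    fun l1 l2 c => if c ∈ D0 then none else some (Q l1 c, Q l2 c)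
  let u : (ℕ × ℕ) → (ℕ × ℕ) → Fin 2 → Option (ℕ × ℕ) := fun a b => ![some a, some b]
  have hch : ∀ i : (ℕ × ℕ) × ((ℕ × ℕ) × (ℕ × ℕ)), ∃ D : Finset (Fin n), D.card ≤ 2 * g ∧
      (Robust g (τ i.1.1 i.1.2) (u i.2.1 i.2.2) 0 ∨
        ∀ y : Fin 2 → Fin n, Monotone y → (∀ j, y j ∉ D) →
          ¬ ∀ j, τ i.1.1 i.1.2 (y j) = u i.2.1 i.2.2 j) := by
    intro i
    rcases robust_or_killed g (τ i.1.1 i.1.2) 2 (u i.2.1 i.2.2) 0 with h | ⟨D, hD, hk⟩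
    · exact ⟨∅, by simp, Or.inl h⟩
    · exact ⟨D, hD, Or.inr (fun y hy hyD => hk y hy (fun j => Nat.zero_le _) hyD)⟩
  choose Du hDu hDu' using hch
  by_cases hex : ∃ i : (ℕ × ℕ) × ((ℕ × ℕ) × (ℕ × ℕ)), i.1.1 < i.1.2 ∧ i.1.2 < T ∧
      i.2.2.1 < i.2.1.1 ∧ i.2.1.2 < i.2.2.2 ∧ Robust g (τ i.1.1 i.1.2) (u i.2.1 i.2.2) 0
  · left
    obtain ⟨⟨⟨l1, l2⟩, ⟨a, b⟩⟩, h12, h2T, hba, hab, R, hc, hl, -, ho⟩ := hex
    simp only at h12 h2T hba hab hl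
    refine ⟨l1, l2, h12, h2T, R 0, R 1, hc 0, hc 1, ?_⟩
    intro c1 hc1 c2 hc2
    have h1 := hl 0 c1 hc1
    have h2 := hl 1 c2 hc2
    simp only [τ, u, Matrix.cons_val_zero, Matrix.cons_val_one] at h1 h2
    have hlt : c1 < c2 := ho 0 1 (by decide) c1 hc1 c2 hc2
    by_cases hd1 : c1 ∈ D0
    · rw [if_pos hd1] at h1; exact absurd h1 (by simp)
    by_cases hd2 : c2 ∈ D0
    · rw [if_pos hd2] at h2; exact absurd h2 (by simp)
    rw [if_neg hd1] at h1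
    rw [if_neg hd2] at h2
    have e1 : (Q l1 c1, Q l2 c1) = a := Option.some.inj h1
    have e2 : (Q l1 c2, Q l2 c2) = b := Option.some.inj h2
    refine ⟨hlt, hd1, hd2, ?_, ?_⟩
    · rw [← e1, ← e2] at hba; exact hba
    · rw [← e1, ← e2] at hab; exact hab
  · right
    let Idx : Finset ((ℕ × ℕ) × ((ℕ × ℕ) × (ℕ × ℕ))) :=
      (range T ×ˢ range T) ×ˢ ((range mq ×ˢ range mq) ×ˢ (range mq ×ˢ range mq))
    refine ⟨Idx.biUnion Du, ?_, ?_⟩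
    · calc (Idx.biUnion Du).card ≤ ∑ i ∈ Idx, (Du i).card := Finset.card_biUnion_le
        _ ≤ ∑ _i ∈ Idx, 2 * g := Finset.sum_le_sum (fun i _ => hDu i)
        _ = T ^ 2 * mq ^ 4 * (2 * g) := by
            simp only [Idx, Finset.sum_const, Finset.card_product, Finset.card_range, smul_eq_mul]
            ring
    · intro c1 c2 hle hd1 hd2 hD1 hD2 l1 l2 h12 h2T hconf
      set i : (ℕ × ℕ) × ((ℕ × ℕ) × (ℕ × ℕ)) :=
        ((l1, l2), ((Q l1 c1, Q l2 c1), (Q l1 c2, Q l2 c2))) with hi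
      have hmem : i ∈ Idx := by
        simp only [Idx, hi, Finset.mem_product, Finset.mem_range]
        exact ⟨⟨lt_trans h12 h2T, h2T⟩, ⟨hQ _ _, hQ _ _⟩, ⟨hQ _ _, hQ _ _⟩⟩
      rcases hDu' i with h | h
      · exact hex ⟨i, h12, h2T, hconf.1, hconf.2, h⟩
      · apply h ![c1, c2]
        · intro j k hjk
          fin_cases j <;> fin_cases k <;> simp_all
        · intro j hj
          have hj' : ![c1, c2] j ∈ Idx.biUnion Du := Finset.mem_biUnion.2 ⟨i, hmem, hj⟩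
          fin_cases j
          · exact hD1 hj'
          · exact hD2 hj'
        · intro j
          fin_cases j
          · simp [τ, u, hi, hd1]
          · simp [τ, u, hi, hd2]

theorem quads_of_conflict (A : Fin n → Fin n → Bool) (s l1 l2 : ℕ) (C1 C2 : Finset (Fin n)) (g m : ℕ)
    (hl : l1 < l2) (hC1 : g ≤ C1.card) (hC2 : g ≤ C2.card)
    (h : ∀ c1 ∈ C1, ∀ c2 ∈ C2, c1 < c2 ∧ deg A s l1 c2 + m ≤ deg A s l1 c1 ∧
      deg A s l2 c1 + m ≤ deg A s l2 c2) :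
    g ^ 2 * m ^ 2 ≤ (quads A).card := by
  classical
  unfold quads
  rw [card_filter_prod]
  have hpt : ∀ q ∈ C1 ×ˢ C2, m ^ 2 ≤
      (Finset.univ.filter (fun b : Fin n × Fin n => q.1 < q.2 ∧ b.1 < b.2 ∧ A b.1 q.1 = true ∧
        A b.1 q.2 = false ∧ A b.2 q.1 = false ∧ A b.2 q.2 = true)).card := by
    intro q hq
    obtain ⟨hq1, hq2⟩ := Finset.mem_product.1 hq
    obtain ⟨hlt, hd1, hd2⟩ := h q.1 hq1 q.2 hq2
    set R1 : Finset (Fin n) := Finset.univ.filter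
      (fun r : Fin n => r.val / s = l1 ∧ A r q.1 = true ∧ A r q.2 = false) with hR1
    set R2 : Finset (Fin n) := Finset.univ.filter
      (fun r : Fin n => r.val / s = l2 ∧ A r q.2 = true ∧ A r q.1 = false) with hR2
    have h1 : m ≤ R1.card := desc_rows A s l1 q.1 q.2 m hd1
    have h2 : m ≤ R2.card := desc_rows A s l2 q.2 q.1 m hd2
    have hsub : R1 ×ˢ R2 ⊆ (Finset.univ.filter (fun b : Fin n × Fin n => q.1 < q.2 ∧ b.1 < b.2 ∧
        A b.1 q.1 = true ∧ A b.1 q.2 = false ∧ A b.2 q.1 = false ∧ A b.2 q.2 = true)) := by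
      intro b hb
      obtain ⟨hb1, hb2⟩ := Finset.mem_product.1 hb
      simp only [hR1, hR2, Finset.mem_filter, Finset.mem_univ, true_and] at hb1 hb2
      simp only [Finset.mem_filter, Finset.mem_univ, true_and]
      refine ⟨hlt, ?_, hb1.2.1, hb1.2.2, hb2.2.2, hb2.2.1⟩
      by_contra hcon
      push Not at hcon
      have : b.2.val / s ≤ b.1.val / s := Nat.div_le_div_right hcon
      omega
    calc m ^ 2 = m * m := by ring
      _ ≤ R1.card * R2.card := Nat.mul_le_mul h1 h2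
      _ = (R1 ×ˢ R2).card := (Finset.card_product _ _).symm
      _ ≤ _ := Finset.card_le_card hsub
  calc g ^ 2 * m ^ 2 = (g * g) * m ^ 2 := by ring
    _ ≤ (C1.card * C2.card) * m ^ 2 := Nat.mul_le_mul_right _ (Nat.mul_le_mul hC1 hC2)
    _ = ∑ _q ∈ C1 ×ˢ C2, m ^ 2 := by simp
    _ ≤ ∑ q ∈ C1 ×ˢ C2, _ := Finset.sum_le_sum hpt
    _ ≤ ∑ q : Fin n × Fin n, _ := Finset.sum_le_sum_of_subset (Finset.subset_univ _)

end Vale.Agent.P037
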