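import Mathlib

/-!
# P037: ordered binary matrix removal, basic definitions

Binary matrices are functions `Fin n → Fin n → Bool`; rows and columns carry the natural order of `Fin n`.
-/

namespace Vale.Agent.P037

open Classical in
/-- The set of ordered copies of the `k × k` pattern `H` in the `n × n` matrix `A`:
pairs `(p, q)` of strictly increasing maps `Fin k → Fin n` (the chosen rows and the chosen columns)
with `A (p i) (q j) = H i j` for all `i, j`. -/
noncomputable def copies {k n : ℕ} (H : Fin k → Fin k → Bool) (A : Fin n → Fin n → Bool) :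
    Finset ((Fin k → Fin n) × (Fin k → Fin n)) :=
  Finset.univ.filter (fun p => StrictMono p.1 ∧ StrictMono p.2 ∧ ∀ i j, A (p.1 i) (p.2 j) = H i j)

/-- `N_H(A)`: the number of ordered copies of `H` in `A`. -/
noncomputable def numCopies {k n : ℕ} (H : Fin k → Fin k → Bool) (A : Fin n → Fin n → Bool) : ℕ :=
  (copies H A).card

/-- `B` is `H`-free: it has no ordered copy of `H`. -/
def IsFree {k n : ℕ} (H : Fin k → Fin k → Bool) (B : Fin n → Fin n → Bool) : Prop :=
  ∀ p q : Fin k → Fin n, StrictMono p → StrictMono q → ¬ ∀ i j, B (p i) (q j) = H i j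

/-- The number of entries in which `A` and `B` differ. -/
def numDiff {n : ℕ} (A B : Fin n → Fin n → Bool) : ℕ :=
  (Finset.univ.filter (fun x : Fin n × Fin n => A x.1 x.2 ≠ B x.1 x.2)).card

/-- `A` is `ε`-far from `H`-free, i.e. `dist_H(A) ≥ ε`: every `H`-free `n × n` matrix differs from `A`
in at least `ε n²` entries. -/
def IsFar {k n : ℕ} (H : Fin k → Fin k → Bool) (A : Fin n → Fin n → Bool) (ε : ℝ) : Prop :=
  ∀ B : Fin n → Fin n → Bool, IsFree H B → ε * (n : ℝ) ^ 2 ≤ (numDiff A B : ℝ)

end Vale.Agent.P037
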