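import Vale.Agent.P037.Witness

/-!
# P037: witnesses are controlled by incomparable pairs of rows inside a strip
-/

namespace Vale.Agent.P037

open Finset

variable {n : ℕ}

/-- quadruples `((c1, c2), (x, y))`: columns `c1 < c2`, rows `x, y` of one strip, row `x` reads `1 0`
and row `y` reads `0 1` on the two columns (no order between `x` and `y` is required) -/
def Pset (A : Fin n → Fin n → Bool) (s : ℕ) : Finset ((Fin n × Fin n) × (Fin n × Fin n)) :=
  Finset.univ.filter (fun x => x.1.1 < x.1.2 ∧ x.2.1.val / s = x.2.2.val / s ∧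
    A x.2.1 x.1.1 = true ∧ A x.2.1 x.1.2 = false ∧ A x.2.2 x.1.1 = false ∧ A x.2.2 x.1.2 = true)

/-- number of columns where row `r` has a one and row `r'` has a zero -/
def aCnt (A : Fin n → Fin n → Bool) (r r' : Fin n) : ℕ :=
  (Finset.univ.filter (fun c : Fin n => A r c = true ∧ A r' c = false)).card

theorem rowSize_eq (A : Fin n → Fin n → Bool) (r r' : Fin n) :
    rowSize A r = (Finset.univ.filter (fun c : Fin n => A r c = true ∧ A r' c = true)).card
      + aCnt A r r' := by
  unfold rowSize aCnt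
  have h := Finset.card_filter_add_card_filter_not
    (s := Finset.univ.filter (fun c : Fin n => A r c = true)) (fun c : Fin n => A r' c = true)
  rw [Finset.filter_filter, Finset.filter_filter] at h
  rw [← h]
  congr 2
  ext c
  simp

theorem aCnt_le_of_key_lt (A : Fin n → Fin n → Bool) {r r' : Fin n} (h : key A r < key A r') :
    aCnt A r r' ≤ aCnt A r' r := by
  have h1 := rowSize_le_of_key_lt A h
  rw [rowSize_eq A r r', rowSize_eq A r' r] at h1
  have h2 : (Finset.univ.filter (fun c : Fin n => A r c = true ∧ A r' c = true)).card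
      = (Finset.univ.filter (fun c : Fin n => A r' c = true ∧ A r c = true)).card := by
    congr 1
    ext c
    simp [and_comm]
  omega

/-- ordered pairs of rows of one strip, the first with the smaller key -/
def Gset (A : Fin n → Fin n → Bool) (s : ℕ) : Finset (Fin n × Fin n) :=
  Finset.univ.filter (fun p => p.1.val / s = p.2.val / s ∧ key A p.1 < key A p.2)

theorem Gset_card_le (A : Fin n → Fin n → Bool) {s : ℕ} (hs : 0 < s) :
    (Gset A s).card ≤ n * s := by
  unfold Gset
  rw [card_filter_prod]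
  calc _ ≤ ∑ _a : Fin n, s := by
        apply Finset.sum_le_sum
        intro a _
        refine le_trans (Finset.card_le_card ?_) (strip_card_le hs (a.val / s))
        intro b hb
        simp only [Finset.mem_filter, Finset.mem_univ, true_and] at hb ⊢
        exact hb.1.symm
    _ = n * s := by simp

theorem Wset_card (A : Fin n → Fin n → Bool) (s : ℕ) :
    (Wset A s).card = ∑ p ∈ Gset A s, aCnt A p.1 p.2 := by
  have h1 : (Wset A s).card = (Finset.univ.filter (fun x : (Fin n × Fin n) × Fin n =>
      (x.1.1.val / s = x.1.2.val / s ∧ key A x.1.1 < key A x.1.2) ∧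
        A x.1.1 x.2 = true ∧ A x.1.2 x.2 = false)).card := by
    apply Finset.card_bij (fun x _ => ((x.1.1, x.2), x.1.2))
    · intro x hx
      simp only [Wset, Finset.mem_filter, Finset.mem_univ, true_and] at hx ⊢
      exact ⟨⟨hx.1, hx.2.1⟩, hx.2.2.1, hx.2.2.2⟩
    · intro x _ y _ hxy
      simp only [Prod.mk.injEq] at hxy
      exact Prod.ext (Prod.ext hxy.1.1 hxy.2) hxy.1.2
    · intro y hy
      simp only [Finset.mem_filter, Finset.mem_univ, true_and] at hy
      refine ⟨((y.1.1, y.2), y.1.2), ?_, rfl⟩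
      simp only [Wset, Finset.mem_filter, Finset.mem_univ, true_and]
      exact ⟨hy.1.1, hy.1.2, hy.2.1, hy.2.2⟩
  rw [h1, card_filter_prod]
  unfold Gset
  rw [Finset.sum_filter]
  apply Finset.sum_congr rfl
  intro p _
  split_ifs with h
  · unfold aCnt
    congr 1
    ext c
    simp only [Finset.mem_filter, Finset.mem_univ, true_and]
    exact ⟨fun hc => hc.2, fun hc => ⟨h, hc⟩⟩
  · rw [Finset.card_eq_zero, Finset.filter_eq_empty_iff]
    intro c _ hc
    exact h hc.1

/-- quadruples `((r, r'), (c, c'))`: `(r, r')` in `Gset`, column `c` reads `1 0`, column `c'`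
reads `0 1` on the rows `r, r'` -/
def Kset (A : Fin n → Fin n → Bool) (s : ℕ) : Finset ((Fin n × Fin n) × (Fin n × Fin n)) :=
  Finset.univ.filter (fun x => (x.1.1.val / s = x.1.2.val / s ∧ key A x.1.1 < key A x.1.2) ∧
    (A x.1.1 x.2.1 = true ∧ A x.1.2 x.2.1 = false) ∧
    (A x.1.2 x.2.2 = true ∧ A x.1.1 x.2.2 = false))

theorem Kset_card (A : Fin n → Fin n → Bool) (s : ℕ) :
    (Kset A s).card = ∑ p ∈ Gset A s, aCnt A p.1 p.2 * aCnt A p.2 p.1 := by
  unfold Kset
  rw [card_filter_prod]
  unfold Gset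
  rw [Finset.sum_filter]
  apply Finset.sum_congr rfl
  intro p _
  split_ifs with h
  · unfold aCnt
    rw [← Finset.card_product]
    congr 1
    ext c
    simp only [Finset.mem_filter, Finset.mem_univ, true_and, Finset.mem_product]
    exact ⟨fun hc => hc.2, fun hc => ⟨h, hc⟩⟩
  · rw [Finset.card_eq_zero, Finset.filter_eq_empty_iff]
    intro c _ hc
    exact h hc.1

theorem Kset_card_le (A : Fin n → Fin n → Bool) (s : ℕ) :
    (Kset A s).card ≤ (Pset A s).card := by
  apply Finset.card_le_card_of_injOn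
    (fun x => if x.2.1 < x.2.2 then ((x.2.1, x.2.2), (x.1.1, x.1.2))
      else ((x.2.2, x.2.1), (x.1.2, x.1.1)))
  · intro x hx
    have hx' : (x.1.1.val / s = x.1.2.val / s ∧ key A x.1.1 < key A x.1.2) ∧
        (A x.1.1 x.2.1 = true ∧ A x.1.2 x.2.1 = false) ∧
        (A x.1.2 x.2.2 = true ∧ A x.1.1 x.2.2 = false) := by
      simpa [Kset] using hx
    obtain ⟨⟨h1, _⟩, ⟨h3, h4⟩, h5, h6⟩ := hx'
    have hne : x.2.1 ≠ x.2.2 := by
      intro he
      rw [he, h6] at h3
      exact Bool.false_ne_true h3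
    simp only [Finset.mem_coe]
    split_ifs with hlt
    · simp only [Pset, Finset.mem_filter, Finset.mem_univ, true_and]
      exact ⟨hlt, h1, h3, h6, h4, h5⟩
    · simp only [Pset, Finset.mem_filter, Finset.mem_univ, true_and]
      exact ⟨lt_of_le_of_ne (not_lt.mp hlt) (Ne.symm hne), h1.symm, h5, h4, h6, h3⟩
  · intro x hx y hy hxy
    have hx' : (x.1.1.val / s = x.1.2.val / s ∧ key A x.1.1 < key A x.1.2) ∧
        (A x.1.1 x.2.1 = true ∧ A x.1.2 x.2.1 = false) ∧
        (A x.1.2 x.2.2 = true ∧ A x.1.1 x.2.2 = false) := by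
      simpa [Kset] using hx
    have hy' : (y.1.1.val / s = y.1.2.val / s ∧ key A y.1.1 < key A y.1.2) ∧
        (A y.1.1 y.2.1 = true ∧ A y.1.2 y.2.1 = false) ∧
        (A y.1.2 y.2.2 = true ∧ A y.1.1 y.2.2 = false) := by
      simpa [Kset] using hy
    have kx := hx'.1.2
    have ky := hy'.1.2
    simp only at hxy
    split_ifs at hxy with h1 h2 h2
    · simp only [Prod.mk.injEq] at hxy
      exact Prod.ext (Prod.ext hxy.2.1 hxy.2.2) (Prod.ext hxy.1.1 hxy.1.2)
    · simp only [Prod.mk.injEq] at hxy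
      rw [hxy.2.1, hxy.2.2] at kx
      omega
    · simp only [Prod.mk.injEq] at hxy
      rw [hxy.2.1, hxy.2.2] at kx
      omega
    · simp only [Prod.mk.injEq] at hxy
      exact Prod.ext (Prod.ext hxy.2.2 hxy.2.1) (Prod.ext hxy.1.2 hxy.1.1)

theorem W_le (A : Fin n → Fin n → Bool) (s ga : ℕ) (hs : 0 < s) :
    (Wset A s).card * ga ≤ n * s * ga ^ 2 + (Pset A s).card := by
  calc (Wset A s).card * ga = ∑ p ∈ Gset A s, aCnt A p.1 p.2 * ga := by
        rw [Wset_card, Finset.sum_mul]
    _ ≤ ∑ p ∈ Gset A s, (ga ^ 2 + aCnt A p.1 p.2 * aCnt A p.2 p.1) := by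
        apply Finset.sum_le_sum
        intro p hp
        have hk : key A p.1 < key A p.2 := by
          have := (Finset.mem_filter.mp hp).2
          exact this.2
        have hab := aCnt_le_of_key_lt A hk
        have h1 : aCnt A p.1 p.2 * aCnt A p.1 p.2 ≤ aCnt A p.1 p.2 * aCnt A p.2 p.1 :=
          Nat.mul_le_mul_left _ hab
        rcases le_total (aCnt A p.1 p.2) ga with h | h
        · have : aCnt A p.1 p.2 * ga ≤ ga * ga := Nat.mul_le_mul_right _ h
          nlinarith
        · have : aCnt A p.1 p.2 * ga ≤ aCnt A p.1 p.2 * aCnt A p.1 p.2 := Nat.mul_le_mul_left _ h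
          nlinarith
    _ = (Gset A s).card * ga ^ 2 + (Kset A s).card := by
        rw [Finset.sum_add_distrib, Kset_card]
        simp
    _ ≤ n * s * ga ^ 2 + (Pset A s).card := by
        exact Nat.add_le_add (Nat.mul_le_mul_right _ (Gset_card_le A hs)) (Kset_card_le A s)

end Vale.Agent.P037
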