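import Vale.Agent.P037.I2Defs
import Vale.Agent.P037.Pairs

/-!
# P037: for a fixed pair of columns only boundedly many strips can be mixed
-/

namespace Vale.Agent.P037

open Finset

variable {n : ℕ}

theorem card_filter_product_right {α β : Type*} (D : Finset α) (U : Finset β)
    (p : α × β → Prop) [DecidablePred p] :
    ((D ×ˢ U).filter p).card = ∑ y ∈ U, (D.filter fun x => p (x, y)).card := by
  simp only [Finset.card_filter, Finset.sum_product_right]

theorem card_filter_product_left {α β : Type*} (D : Finset α) (U : Finset β)
    (p : α × β → Prop) [DecidablePred p] :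
    ((D ×ˢ U).filter p).card = ∑ x ∈ D, (U.filter fun y => p (x, y)).card := by
  simp only [Finset.card_filter, Finset.sum_product]

theorem filter_strip_card_le {s : ℕ} (hs : 0 < s) (D : Finset (Fin n)) (l : ℕ) :
    (D.filter (fun r : Fin n => r.val / s = l)).card ≤ s :=
  le_trans (Finset.card_le_card (Finset.filter_subset_filter _ (Finset.subset_univ D)))
    (strip_card_le hs l)

/-- One pair of columns: `D` the rows reading `1 0`, `U` the rows reading `0 1`. -/
theorem drift_one (s : ℕ) (hs : 0 < s) (D U : Finset (Fin n)) :
    ((D ×ˢ U).filter (fun x => x.1.val / s = x.2.val / s)).card ≤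
      2 * s ^ 2 + ((D ×ˢ U).filter (fun x => x.1 < x.2)).card := by
  classical
  -- the rows of `D` with few rows of `D` in earlier strips
  set D0 : Finset (Fin n) :=
    D.filter (fun x => (D.filter (fun x' : Fin n => x'.val / s < x.val / s)).card < s) with hD0
  have hD0card : D0.card ≤ 2 * s := by
    rcases D0.eq_empty_or_nonempty with h | h
    · rw [h]; simp
    · obtain ⟨m, hm, hmax⟩ := Finset.exists_max_image D0 (fun x : Fin n => x.val / s) h
      have hsub : D0 ⊆ (D.filter (fun x' : Fin n => x'.val / s < m.val / s)) ∪
          (D.filter (fun x' : Fin n => x'.val / s = m.val / s)) := by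
        intro x hx
        have h1 := hmax x hx
        have hxD : x ∈ D := (Finset.mem_filter.1 hx).1
        rcases lt_or_eq_of_le h1 with h2 | h2
        · exact Finset.mem_union_left _ (Finset.mem_filter.2 ⟨hxD, h2⟩)
        · exact Finset.mem_union_right _ (Finset.mem_filter.2 ⟨hxD, h2⟩)
      have h3 : (D.filter (fun x' : Fin n => x'.val / s < m.val / s)).card < s :=
        (Finset.mem_filter.1 hm).2
      have h4 := filter_strip_card_le hs D (m.val / s)
      have h5 := Finset.card_le_card hsub
      have h6 := Finset.card_union_le (D.filter (fun x' : Fin n => x'.val / s < m.val / s))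
        (D.filter (fun x' : Fin n => x'.val / s = m.val / s))
      omega
  have hpt : ∀ y ∈ U, (D.filter (fun x : Fin n => x.val / s = y.val / s)).card ≤
      (D0.filter (fun x : Fin n => x.val / s = y.val / s)).card +
        (D.filter (fun x : Fin n => x < y)).card := by
    intro y _
    by_cases hc : (D.filter (fun x' : Fin n => x'.val / s < y.val / s)).card < s
    · have hsub : D.filter (fun x : Fin n => x.val / s = y.val / s) ⊆
          D0.filter (fun x : Fin n => x.val / s = y.val / s) := by
        intro x hx
        obtain ⟨hxD, hxy⟩ := Finset.mem_filter.1 hx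
        refine Finset.mem_filter.2 ⟨Finset.mem_filter.2 ⟨hxD, ?_⟩, hxy⟩
        rw [hxy]; exact hc
      exact le_trans (Finset.card_le_card hsub) (Nat.le_add_right _ _)
    · push Not at hc
      have h1 := filter_strip_card_le hs D (y.val / s)
      have hsub : D.filter (fun x' : Fin n => x'.val / s < y.val / s) ⊆
          D.filter (fun x : Fin n => x < y) := by
        intro x hx
        obtain ⟨hxD, hxy⟩ := Finset.mem_filter.1 hx
        refine Finset.mem_filter.2 ⟨hxD, ?_⟩
        by_contra hcon
        push Not at hcon
        have : y.val / s ≤ x.val / s := Nat.div_le_div_right hcon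
        omega
      have h2 := Finset.card_le_card hsub
      omega
  have h0 : ((D0 ×ˢ U).filter (fun x => x.1.val / s = x.2.val / s)).card ≤ 2 * s ^ 2 := by
    rw [card_filter_product_left]
    calc ∑ x ∈ D0, (U.filter fun y : Fin n => x.val / s = y.val / s).card
        ≤ ∑ _x ∈ D0, s := by
          apply Finset.sum_le_sum
          intro x _
          have := filter_strip_card_le hs U (x.val / s)
          have heq : (U.filter fun y : Fin n => x.val / s = y.val / s) =
              U.filter (fun r : Fin n => r.val / s = x.val / s) := by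
            apply Finset.filter_congr
            intro y _
            exact eq_comm
          rw [heq]; exact this
      _ = D0.card * s := by simp
      _ ≤ 2 * s * s := Nat.mul_le_mul_right _ hD0card
      _ = 2 * s ^ 2 := by ring
  rw [card_filter_product_right, card_filter_product_right]
  rw [card_filter_product_right] at h0
  calc ∑ y ∈ U, (D.filter fun x : Fin n => x.val / s = y.val / s).card
      ≤ ∑ y ∈ U, ((D0.filter (fun x : Fin n => x.val / s = y.val / s)).card +
        (D.filter (fun x : Fin n => x < y)).card) := Finset.sum_le_sum hpt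
    _ = ∑ y ∈ U, (D0.filter (fun x : Fin n => x.val / s = y.val / s)).card +
        ∑ y ∈ U, (D.filter (fun x : Fin n => x < y)).card := Finset.sum_add_distrib
    _ ≤ 2 * s ^ 2 + ∑ y ∈ U, (D.filter (fun x : Fin n => x < y)).card :=
        Nat.add_le_add_right h0 _

theorem P_le (A : Fin n → Fin n → Bool) (s : ℕ) (hs : 0 < s) :
    (Pset A s).card ≤ 2 * s ^ 2 * n ^ 2 + (quads A).card := by
  classical
  unfold Pset quads
  rw [card_filter_prod, card_filter_prod]
  have hpt : ∀ q : Fin n × Fin n,
      (Finset.univ.filter (fun b : Fin n × Fin n => q.1 < q.2 ∧ b.1.val / s = b.2.val / s ∧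
        A b.1 q.1 = true ∧ A b.1 q.2 = false ∧ A b.2 q.1 = false ∧ A b.2 q.2 = true)).card ≤
      2 * s ^ 2 + (Finset.univ.filter (fun b : Fin n × Fin n => q.1 < q.2 ∧ b.1 < b.2 ∧
        A b.1 q.1 = true ∧ A b.1 q.2 = false ∧ A b.2 q.1 = false ∧ A b.2 q.2 = true)).card := by
    intro q
    by_cases hq : q.1 < q.2
    · set D : Finset (Fin n) :=
        Finset.univ.filter (fun r => A r q.1 = true ∧ A r q.2 = false) with hD
      set U : Finset (Fin n) :=
        Finset.univ.filter (fun r => A r q.1 = false ∧ A r q.2 = true) with hU
      have h := drift_one s hs D U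
      have e1 : (Finset.univ.filter (fun b : Fin n × Fin n => q.1 < q.2 ∧
          b.1.val / s = b.2.val / s ∧
          A b.1 q.1 = true ∧ A b.1 q.2 = false ∧ A b.2 q.1 = false ∧ A b.2 q.2 = true)) =
          (D ×ˢ U).filter (fun x => x.1.val / s = x.2.val / s) := by
        ext b
        simp only [hD, hU, Finset.mem_filter, Finset.mem_univ, true_and, Finset.mem_product]
        tauto
      have e2 : (Finset.univ.filter (fun b : Fin n × Fin n => q.1 < q.2 ∧ b.1 < b.2 ∧
          A b.1 q.1 = true ∧ A b.1 q.2 = false ∧ A b.2 q.1 = false ∧ A b.2 q.2 = true)) =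
          (D ×ˢ U).filter (fun x => x.1 < x.2) := by
        ext b
        simp only [hD, hU, Finset.mem_filter, Finset.mem_univ, true_and, Finset.mem_product]
        tauto
      rw [e1, e2]
      exact h
    · have e1 : (Finset.univ.filter (fun b : Fin n × Fin n => q.1 < q.2 ∧
          b.1.val / s = b.2.val / s ∧
          A b.1 q.1 = true ∧ A b.1 q.2 = false ∧ A b.2 q.1 = false ∧ A b.2 q.2 = true)) = ∅ := by
        apply Finset.filter_eq_empty_iff.2
        intro b _ hb
        exact hq hb.1
      rw [e1]
      simp
  calc ∑ q : Fin n × Fin n, _ ≤ ∑ q : Fin n × Fin n, (2 * s ^ 2 + _) :=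
        Finset.sum_le_sum fun q _ => hpt q
    _ = 2 * s ^ 2 * n ^ 2 + _ := by
        rw [Finset.sum_add_distrib]
        simp only [Finset.sum_const, Finset.card_univ, Fintype.card_prod, Fintype.card_fin,
          smul_eq_mul]
        ring

end Vale.Agent.P037
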