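import Vale.Agent.P037.Sym
import Vale.Agent.P037.Count

/-!
# P037: `2 × 2` patterns with two equal rows
-/

namespace Vale.Agent.P037

open Finset

/-- the `2 × 2` pattern both of whose rows read `x.1 x.2` -/
def rowsPat (x : Bool × Bool) : Fin 2 → Fin 2 → Bool := fun _ j => if j = 0 then x.1 else x.2

theorem isFree_rowsPat_of {n : ℕ} (x : Bool × Bool) (B : Fin n → Fin n → Bool)
    (h : ∀ r c1 c2, c1 < c2 → ¬ (B r c1 = x.1 ∧ B r c2 = x.2)) : IsFree (rowsPat x) B := by
  intro p q _ hq hpq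
  have h01 : (0 : Fin 2) < 1 := by decide
  apply h (p 0) (q 0) (q 1) (hq h01)
  constructor
  · simpa [rowsPat] using hpq 0 0
  · simpa [rowsPat] using hpq 0 1

private theorem strictMono_pair_aux {n : ℕ} {a b : Fin n} (h : a < b) : StrictMono ![a, b] := by
  intro i j hij
  fin_cases i <;> fin_cases j <;> simp_all

/-- a set of size `t` in a linear order: `t ^ 2 ≤ t + 2 * #(increasing pairs)` -/
theorem sq_le_pairs {β : Type*} [LinearOrder β] (T : Finset β) (U : Finset (β × β))
    (hU : ∀ y, y ∈ U ↔ y.1 < y.2 ∧ y.1 ∈ T ∧ y.2 ∈ T) : T.card ^ 2 ≤ T.card + 2 * U.card := by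
  classical
  have hsub : T ×ˢ T ⊆ (T.image (fun r => (r, r)) ∪ U) ∪ U.image Prod.swap := by
    intro y hy
    rw [Finset.mem_product] at hy
    rcases lt_trichotomy y.1 y.2 with h | h | h
    · exact Finset.mem_union_left _ (Finset.mem_union_right _ ((hU y).2 ⟨h, hy.1, hy.2⟩))
    · refine Finset.mem_union_left _ (Finset.mem_union_left _ ?_)
      exact Finset.mem_image.mpr ⟨y.1, hy.1, Prod.ext rfl h⟩
    · refine Finset.mem_union_right _ ?_
      exact Finset.mem_image.mpr ⟨(y.2, y.1), (hU _).2 ⟨h, hy.2, hy.1⟩, rfl⟩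
  have h1 := Finset.card_le_card hsub
  rw [Finset.card_product] at h1
  have h2 := Finset.card_union_le (T.image (fun r => (r, r)) ∪ U) (U.image Prod.swap)
  have h3 := Finset.card_union_le (T.image (fun r => ((r, r) : β × β))) U
  have h4 : (T.image (fun r => ((r, r) : β × β))).card ≤ T.card := Finset.card_image_le
  have h5 : (U.image Prod.swap).card ≤ U.card := Finset.card_image_le
  nlinarith

theorem double_count {α β : Type*} [Fintype α] [Fintype β] (g : α → β → Prop)
    [∀ a b, Decidable (g a b)] :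
    ∑ b : β, (Finset.univ.filter (fun a : α => g a b)).card =
      ∑ a : α, (Finset.univ.filter (fun b : β => g a b)).card := by
  simp only [Finset.card_filter]
  exact Finset.sum_comm

theorem count_abs {α β : Type*} [Fintype α] [Fintype β] [DecidableEq α] [LinearOrder β]
    (g : α → β → Prop) [∀ a b, Decidable (g a b)] :
    (∑ a : α, (Finset.univ.filter (fun b : β => g a b)).card) ^ 2 ≤
      Fintype.card α * (∑ a : α, (Finset.univ.filter (fun b : β => g a b)).card +
        2 * (Finset.univ.filter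
          (fun y : α × (β × β) => y.2.1 < y.2.2 ∧ g y.1 y.2.1 ∧ g y.1 y.2.2)).card) := by
  classical
  rw [card_filter_prod, Finset.mul_sum, ← Finset.sum_add_distrib]
  calc (∑ a : α, (Finset.univ.filter (fun b : β => g a b)).card) ^ 2
      ≤ (Finset.univ : Finset α).card *
          ∑ a : α, (Finset.univ.filter (fun b : β => g a b)).card ^ 2 :=
        sq_sum_le_card_mul_sum_sq
    _ ≤ _ := by
        rw [Finset.card_univ]
        apply Nat.mul_le_mul_left
        apply Finset.sum_le_sum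
        intro a _
        apply sq_le_pairs
        intro y
        simp

theorem pairs_card_le {n : ℕ} (x : Bool × Bool) (A : Fin n → Fin n → Bool) :
    (Finset.univ.filter (fun y : (Fin n × Fin n) × (Fin n × Fin n) => y.2.1 < y.2.2 ∧
      (y.1.1 < y.1.2 ∧ A y.2.1 y.1.1 = x.1 ∧ A y.2.1 y.1.2 = x.2) ∧
      (y.1.1 < y.1.2 ∧ A y.2.2 y.1.1 = x.1 ∧ A y.2.2 y.1.2 = x.2))).card ≤
      numCopies (rowsPat x) A := by
  classical
  unfold numCopies
  apply Finset.card_le_card_of_injOn (fun y => (![y.2.1, y.2.2], ![y.1.1, y.1.2]))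
  · intro y hy
    simp only [Finset.coe_filter, Finset.mem_univ, true_and, Set.mem_ofPred_eq] at hy
    simp only [copies, Finset.coe_filter, Finset.mem_univ, true_and, Set.mem_ofPred_eq]
    refine ⟨strictMono_pair_aux hy.1, strictMono_pair_aux hy.2.1.1, ?_⟩
    intro i j
    fin_cases i <;> fin_cases j <;>
      simp [rowsPat, hy.2.1.2.1, hy.2.1.2.2, hy.2.2.2.1, hy.2.2.2.2]
  · intro y _ z _ hyz
    simp only [Prod.mk.injEq] at hyz
    have h1 := congrFun hyz.1 0
    have h2 := congrFun hyz.1 1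
    have h3 := congrFun hyz.2 0
    have h4 := congrFun hyz.2 1
    simp at h1 h2 h3 h4
    ext <;> simp [h1, h2, h3, h4]

private theorem one_le_numCopies_aux {k n : ℕ} (H : Fin k → Fin k → Bool)
    (A : Fin n → Fin n → Bool) (ε : ℝ)
    (hε : 0 < ε) (hn : 0 < n) (hfar : IsFar H A ε) : 1 ≤ numCopies H A := by
  classical
  have hnotfree : ¬ IsFree H A := by
    intro hfree
    have h1 := hfar A hfree
    have h2 : numDiff A A = 0 := by simp [numDiff]
    rw [h2] at h1
    have hnR : (0 : ℝ) < n := by exact_mod_cast hn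
    have : 0 < ε * (n : ℝ) ^ 2 := by positivity
    simp at h1
    linarith
  unfold IsFree at hnotfree
  push Not at hnotfree
  obtain ⟨p, q, hp, hq, hpq⟩ := hnotfree
  have hmem : (p, q) ∈ copies H A := by
    simp only [copies, Finset.mem_filter, Finset.mem_univ, true_and]
    exact ⟨hp, hq, hpq⟩
  exact Finset.card_pos.mpr ⟨_, hmem⟩

theorem eqrows_arith (n D S N ε : ℝ) (hn : 1 ≤ n) (hε0 : 0 < ε) (hε1 : ε < 1)
    (h1 : ε * n ^ 2 ≤ D) (h2 : D ^ 2 ≤ 4 * n * S) (h3 : S ^ 2 ≤ n ^ 2 * (S + 2 * N))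
    (h4 : 1 ≤ N) : 1 / 4096 * ε ^ 8 * n ^ 4 ≤ N := by
  have hn0 : 0 < n := by linarith
  have e0 : (ε * n ^ 2) ^ 2 ≤ D ^ 2 := pow_le_pow_left₀ (by positivity) h1 2
  have e1 : ε ^ 2 * n ^ 3 ≤ 4 * S := by
    have : n * (ε ^ 2 * n ^ 3) ≤ n * (4 * S) := by nlinarith
    exact le_of_mul_le_mul_left this hn0
  have hS0 : 0 ≤ S := by
    have : 0 ≤ ε ^ 2 * n ^ 3 := by positivity
    linarith
  rcases le_or_gt (2 * n ^ 2) S with hc | hc
  · have f1 : S ^ 2 ≤ 4 * n ^ 2 * N := by nlinarith
    have f2 : (ε ^ 2 * n ^ 3) ^ 2 ≤ (4 * S) ^ 2 := pow_le_pow_left₀ (by positivity) e1 2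
    have f3 : n ^ 2 * (ε ^ 4 * n ^ 4) ≤ n ^ 2 * (64 * N) := by nlinarith
    have f4 : ε ^ 4 * n ^ 4 ≤ 64 * N := le_of_mul_le_mul_left f3 (by positivity)
    have f5 : ε ^ 8 ≤ ε ^ 4 := pow_le_pow_of_le_one hε0.le hε1.le (by norm_num)
    have f6 : ε ^ 8 * n ^ 4 ≤ ε ^ 4 * n ^ 4 := mul_le_mul_of_nonneg_right f5 (by positivity)
    nlinarith
  · have g1 : n ^ 2 * (ε ^ 2 * n) < n ^ 2 * 8 := by nlinarith
    have g2 : ε ^ 2 * n < 8 := lt_of_mul_lt_mul_left g1 (by positivity)
    have g3 : (ε ^ 2 * n) ^ 4 ≤ 8 ^ 4 := pow_le_pow_left₀ (by positivity) g2.le 4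
    have g4 : (ε ^ 2 * n) ^ 4 = ε ^ 8 * n ^ 4 := by ring
    rw [g4] at g3
    nlinarith

/-- If every `0/1` word can be repaired to a word without the ordered pair `x`, at a cost whose square
is at most four times the number of occurrences of `x`, then the pattern with both rows `x`
has the polynomial removal property. -/
theorem eqrows_main (x : Bool × Bool)
    (hfix : ∀ (n : ℕ) (a : Fin n → Bool), ∃ b : Fin n → Bool,
      (∀ c1 c2, c1 < c2 → ¬ (b c1 = x.1 ∧ b c2 = x.2)) ∧
      (Finset.univ.filter (fun c => a c ≠ b c)).card ^ 2 ≤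
        4 * (Finset.univ.filter (fun q : Fin n × Fin n => q.1 < q.2 ∧ a q.1 = x.1 ∧ a q.2 = x.2)).card) :
    PolyRemoval (rowsPat x) := by
  refine ⟨1 / 4096, by norm_num, 8, ?_⟩
  intro n ε A hε0 hε1 hfar
  rcases Nat.eq_zero_or_pos n with hn | hn
  · subst hn
    simp
  choose b hb1 hb2 using fun r => hfix n (A r)
  have hfree : IsFree (rowsPat x) (fun r c => b r c) := isFree_rowsPat_of x _ hb1
  have h1 := hfar _ hfree
  have hD : numDiff A (fun r c => b r c) =
      ∑ r, (Finset.univ.filter (fun c => A r c ≠ b r c)).card := by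
    unfold numDiff
    rw [card_filter_prod]
  rw [hD] at h1
  have hS := double_count
    (fun (q : Fin n × Fin n) (r : Fin n) => q.1 < q.2 ∧ A r q.1 = x.1 ∧ A r q.2 = x.2)
  have h2 : (∑ r, (Finset.univ.filter (fun c => A r c ≠ b r c)).card) ^ 2 ≤
      4 * n * ∑ r, (Finset.univ.filter
        (fun q : Fin n × Fin n => q.1 < q.2 ∧ A r q.1 = x.1 ∧ A r q.2 = x.2)).card := by
    calc (∑ r, (Finset.univ.filter (fun c => A r c ≠ b r c)).card) ^ 2
        ≤ (Finset.univ : Finset (Fin n)).card *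
            ∑ r, (Finset.univ.filter (fun c => A r c ≠ b r c)).card ^ 2 :=
          sq_sum_le_card_mul_sum_sq
      _ ≤ n * ∑ r, 4 * (Finset.univ.filter
            (fun q : Fin n × Fin n => q.1 < q.2 ∧ A r q.1 = x.1 ∧ A r q.2 = x.2)).card := by
          rw [Finset.card_univ, Fintype.card_fin]
          apply Nat.mul_le_mul_left
          exact Finset.sum_le_sum (fun r _ => hb2 r)
      _ = _ := by
          rw [← Finset.mul_sum]
          ring
  have h3 := count_abs
    (fun (q : Fin n × Fin n) (r : Fin n) => q.1 < q.2 ∧ A r q.1 = x.1 ∧ A r q.2 = x.2)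
  rw [← hS] at h3
  have h4 := pairs_card_le x A
  have h5 := one_le_numCopies_aux (rowsPat x) A ε hε0 hn hfar
  set D : ℕ := ∑ r, (Finset.univ.filter (fun c => A r c ≠ b r c)).card with hDdef
  set S : ℕ := ∑ r, (Finset.univ.filter
        (fun q : Fin n × Fin n => q.1 < q.2 ∧ A r q.1 = x.1 ∧ A r q.2 = x.2)).card with hSdef
  have h3' : S ^ 2 ≤ n ^ 2 * (S + 2 * numCopies (rowsPat x) A) := by
    refine h3.trans ?_
    rw [Fintype.card_prod, Fintype.card_fin, ← sq]
    apply Nat.mul_le_mul_left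
    omega
  have := eqrows_arith n D S (numCopies (rowsPat x) A) ε (by exact_mod_cast hn) hε0 hε1 h1
    (by exact_mod_cast h2) (by exact_mod_cast h3') (by exact_mod_cast h5)
  simpa using this

end Vale.Agent.P037
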