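import Vale.Agent.P037.EqualRows

/-!
# P037: repairing a single row
-/

namespace Vale.Agent.P037

open Finset

theorem fix11 (n : ℕ) (a : Fin n → Bool) : ∃ b : Fin n → Bool,
    (∀ c1 c2, c1 < c2 → ¬ (b c1 = true ∧ b c2 = true)) ∧
    (Finset.univ.filter (fun c => a c ≠ b c)).card ^ 2 ≤
      4 * (Finset.univ.filter (fun q : Fin n × Fin n => q.1 < q.2 ∧ a q.1 = true ∧ a q.2 = true)).card := by
  set O : Finset (Fin n) := Finset.univ.filter (fun c => a c = true) with hO
  set P : Finset (Fin n × Fin n) :=
    Finset.univ.filter (fun q : Fin n × Fin n => q.1 < q.2 ∧ a q.1 = true ∧ a q.2 = true) with hP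
  by_cases hd : O.card ≤ 1
  · refine ⟨a, ?_, ?_⟩
    · rintro c1 c2 hlt ⟨h1, h2⟩
      have h := Finset.card_le_one.mp hd c1 (by simp [hO, h1]) c2 (by simp [hO, h2])
      exact absurd h (ne_of_lt hlt)
    · simp
  · refine ⟨fun _ => false, ?_, ?_⟩
    · rintro c1 c2 _ ⟨h1, _⟩
      simp at h1
    · have hcost : (Finset.univ.filter (fun c => a c ≠ (fun _ => false : Fin n → Bool) c)) = O := by
        ext c
        simp [hO]
      rw [hcost]
      have hsub : O.offDiag ⊆ P ∪ P.image Prod.swap := by
        intro q hq
        rw [Finset.mem_offDiag] at hq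
        obtain ⟨h1, h2, h3⟩ := hq
        have h1' : a q.1 = true := by simpa [hO] using h1
        have h2' : a q.2 = true := by simpa [hO] using h2
        rcases lt_or_gt_of_ne h3 with h | h
        · exact Finset.mem_union_left _ (by simp [hP, h, h1', h2'])
        · refine Finset.mem_union_right _ ?_
          rw [Finset.mem_image]
          exact ⟨(q.2, q.1), by simp [hP, h, h1', h2'], by simp⟩
      have hcard : O.offDiag.card ≤ P.card + P.card := by
        calc O.offDiag.card ≤ (P ∪ P.image Prod.swap).card := Finset.card_le_card hsub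
          _ ≤ P.card + (P.image Prod.swap).card := Finset.card_union_le _ _
          _ ≤ P.card + P.card := by
              have := Finset.card_image_le (s := P) (f := Prod.swap)
              omega
      rw [Finset.offDiag_card] at hcard
      have hd2 : 2 ≤ O.card := by omega
      have hmul : 2 * O.card ≤ O.card * O.card := Nat.mul_le_mul_right _ hd2
      have : O.card ^ 2 = O.card * O.card := by ring
      rw [this]
      omega

theorem fix10 (n : ℕ) (a : Fin n → Bool) : ∃ b : Fin n → Bool,
    (∀ c1 c2, c1 < c2 → ¬ (b c1 = true ∧ b c2 = false)) ∧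
    (Finset.univ.filter (fun c => a c ≠ b c)).card ^ 2 ≤
      4 * (Finset.univ.filter (fun q : Fin n × Fin n => q.1 < q.2 ∧ a q.1 = true ∧ a q.2 = false)).card := by
  set Zs : Finset (Fin n) := Finset.univ.filter (fun c => a c = false) with hZs
  set Z : ℕ := Zs.card with hZ
  have hZn : Z ≤ n := by
    have := Finset.card_le_univ Zs
    simpa using this
  set F : Finset (Fin n) := Finset.univ.filter (fun c => c.val < Z ∧ a c = true) with hF
  set G : Finset (Fin n) := Finset.univ.filter (fun c => Z ≤ c.val ∧ a c = false) with hG
  set F' : Finset (Fin n) := Finset.univ.filter (fun c => c.val < Z ∧ a c = false) with hF'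
  have h1 : F.card + F'.card = Z := by
    have hdis : Disjoint F F' := by
      rw [Finset.disjoint_left]
      intro c hc hc'
      simp only [hF, hF', Finset.mem_filter, Finset.mem_univ, true_and] at hc hc'
      rw [hc.2] at hc'
      exact absurd hc'.2 (by simp)
    rw [← Finset.card_union_of_disjoint hdis]
    have : F ∪ F' = Finset.univ.filter (fun c : Fin n => c.val < Z) := by
      ext c
      simp only [hF, hF', Finset.mem_union, Finset.mem_filter, Finset.mem_univ, true_and]
      cases a c <;> simp
    rw [this, Fin.card_filter_val_lt]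
    omega
  have h2 : F'.card + G.card = Z := by
    have hdis : Disjoint F' G := by
      rw [Finset.disjoint_left]
      intro c hc hc'
      simp only [hG, hF', Finset.mem_filter, Finset.mem_univ, true_and] at hc hc'
      omega
    rw [← Finset.card_union_of_disjoint hdis]
    have : F' ∪ G = Zs := by
      ext c
      simp only [hG, hF', hZs, Finset.mem_union, Finset.mem_filter, Finset.mem_univ, true_and]
      constructor
      · rintro (h | h) <;> exact h.2
      · intro h
        rcases lt_or_ge c.val Z with h' | h'
        · exact Or.inl ⟨h', h⟩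
        · exact Or.inr ⟨h', h⟩
    rw [this]
  have hFG : F.card = G.card := by omega
  refine ⟨fun c => decide (Z ≤ c.val), ?_, ?_⟩
  · rintro c1 c2 hlt ⟨h1, h2⟩
    simp only [decide_eq_true_eq, decide_eq_false_iff_not] at h1 h2
    have : c1.val < c2.val := hlt
    omega
  · have hcost : (Finset.univ.filter (fun c => a c ≠ (fun c : Fin n => decide (Z ≤ c.val)) c)) = F ∪ G := by
      ext c
      simp only [hF, hG, Finset.mem_union, Finset.mem_filter, Finset.mem_univ, true_and]
      by_cases hc : Z ≤ c.val
      · cases hac : a c <;> simp [hc]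
      · have hc' : c.val < Z := by omega
        cases hac : a c <;> simp [hc, hc']
    rw [hcost]
    have hle : (F ∪ G).card ≤ F.card + G.card := Finset.card_union_le _ _
    have hprod : (F ×ˢ G) ⊆
        Finset.univ.filter (fun q : Fin n × Fin n => q.1 < q.2 ∧ a q.1 = true ∧ a q.2 = false) := by
      intro q hq
      rw [Finset.mem_product] at hq
      obtain ⟨hq1, hq2⟩ := hq
      simp only [hF, hG, Finset.mem_filter, Finset.mem_univ, true_and] at hq1 hq2
      simp only [Finset.mem_filter, Finset.mem_univ, true_and]
      refine ⟨?_, hq1.2, hq2.2⟩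
      show q.1.val < q.2.val
      omega
    have hcard := Finset.card_le_card hprod
    rw [Finset.card_product] at hcard
    calc (F ∪ G).card ^ 2 ≤ (F.card + G.card) ^ 2 := Nat.pow_le_pow_left hle 2
      _ = 4 * (F.card * G.card) := by rw [hFG]; ring
      _ ≤ _ := Nat.mul_le_mul_left 4 hcard

theorem polyRemoval_11 : PolyRemoval (rowsPat (true, true)) := eqrows_main _ fix11

theorem polyRemoval_10 : PolyRemoval (rowsPat (true, false)) := eqrows_main _ fix10

end Vale.Agent.P037
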