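import Vale.Agent.P037.Sym
import Vale.Agent.P037.Word
import Vale.Agent.P037.Count

/-!
# P037: repeating rows and columns of a pattern

If the polynomial removal bound holds for a pattern `H₀`, it holds for every pattern obtained from `H₀`
by repeating rows and columns (consecutively).
-/

namespace Vale.Agent.P037

open Finset

open Classical in
/-- ordered copies of a rectangular `a × b` pattern -/
noncomputable def rcopies {a b n : ℕ} (H : Fin a → Fin b → Bool) (A : Fin n → Fin n → Bool) :
    Finset ((Fin a → Fin n) × (Fin b → Fin n)) :=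
  Finset.univ.filter (fun p => StrictMono p.1 ∧ StrictMono p.2 ∧ ∀ i j, A (p.1 i) (p.2 j) = H i j)

theorem numCopies_eq_rcopies {k n : ℕ} (H : Fin k → Fin k → Bool) (A : Fin n → Fin n → Bool) :
    numCopies H A = (rcopies H A).card := rfl

theorem rcopies_transp {a b n : ℕ} (H : Fin a → Fin b → Bool) (A : Fin n → Fin n → Bool) :
    (rcopies (fun j i => H i j) (fun c r => A r c)).card = (rcopies H A).card := by
  classical
  apply Finset.card_bij (fun x _ => (x.2, x.1))
  · intro x hx
    simp only [rcopies, Finset.mem_filter, Finset.mem_univ, true_and] at hx ⊢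
    exact ⟨hx.2.1, hx.1, fun i j => hx.2.2 j i⟩
  · intro x _ y _ hxy
    simp only [Prod.mk.injEq] at hxy
    exact Prod.ext hxy.2 hxy.1
  · intro y hy
    simp only [rcopies, Finset.mem_filter, Finset.mem_univ, true_and] at hy
    refine ⟨(y.2, y.1), ?_, rfl⟩
    simp only [rcopies, Finset.mem_filter, Finset.mem_univ, true_and]
    exact ⟨hy.2.1, hy.1, fun i j => hy.2.2 j i⟩

/-- The number of `a`-tuples meeting a set `D`. -/
theorem card_hit_le {a n : ℕ} (D : Finset (Fin n)) :
    (Finset.univ.filter (fun p : Fin a → Fin n => ∃ i, p i ∈ D)).card ≤ a * (D.card * n ^ (a - 1)) := by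
  classical
  have hsub : (Finset.univ.filter (fun p : Fin a → Fin n => ∃ i, p i ∈ D)) ⊆
      Finset.univ.biUnion (fun i : Fin a =>
        Fintype.piFinset (fun j : Fin a => if j = i then D else Finset.univ)) := by
    intro p hp
    simp only [Finset.mem_filter, Finset.mem_univ, true_and] at hp
    obtain ⟨i, hi⟩ := hp
    simp only [Finset.mem_biUnion, Finset.mem_univ, true_and, Fintype.mem_piFinset]
    refine ⟨i, fun j => ?_⟩
    by_cases hj : j = i
    · rw [if_pos hj, hj]; exact hi
    · rw [if_neg hj]; exact Finset.mem_univ _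
  have hcard : ∀ i : Fin a, (Fintype.piFinset (fun j : Fin a => if j = i then D else Finset.univ)).card
      = D.card * n ^ (a - 1) := by
    intro i
    rw [Fintype.card_piFinset]
    rw [← Finset.mul_prod_erase Finset.univ _ (Finset.mem_univ i)]
    rw [if_pos rfl]
    congr 1
    rw [Finset.prod_congr rfl (g := fun _ => n)]
    · simp [Finset.card_erase_of_mem]
    · intro j hj
      rw [if_neg (Finset.ne_of_mem_erase hj)]
      simp
  calc _ ≤ (Finset.univ.biUnion (fun i : Fin a =>
        Fintype.piFinset (fun j : Fin a => if j = i then D else Finset.univ))).card :=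
        Finset.card_le_card hsub
    _ ≤ ∑ i : Fin a, (Fintype.piFinset (fun j : Fin a => if j = i then D else Finset.univ)).card :=
        Finset.card_biUnion_le
    _ = ∑ _i : Fin a, D.card * n ^ (a - 1) := Finset.sum_congr rfl (fun i _ => hcard i)
    _ = a * (D.card * n ^ (a - 1)) := by simp

/-- The fibre estimate: for a fixed choice of rows, either the repeated column word embeds robustly,
or all occurrences of the original column word meet a small set. -/
theorem col_fibre {a b k n : ℕ} (H₀ : Fin a → Fin b → Bool) (γ : Fin k → Fin b) (hγ : Monotone γ)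
    (A : Fin n → Fin n → Bool) (g : ℕ) (p : Fin a → Fin n) :
    g ^ k * (Finset.univ.filter (fun q : Fin b → Fin n =>
        StrictMono q ∧ ∀ i j, A (p i) (q j) = H₀ i j)).card ≤
      g ^ k * (b * ((k * g) * n ^ (b - 1))) +
      n ^ b * (Finset.univ.filter (fun q : Fin k → Fin n =>
        StrictMono q ∧ ∀ i j, A (p i) (q j) = H₀ i (γ j))).card := by
  classical
  rcases robust_or_killed g (fun c : Fin n => fun i : Fin a => A (p i) c) k
    (fun j : Fin k => fun i : Fin a => H₀ i (γ j)) 0 with hR | hK
  · obtain ⟨R, hc, hl, -, ho⟩ := hR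
    have h1 : g ^ k ≤ (Finset.univ.filter (fun q : Fin k → Fin n =>
        StrictMono q ∧ ∀ i j, A (p i) (q j) = H₀ i (γ j))).card := by
      calc g ^ k = ∏ _i : Fin k, g := by simp
        _ ≤ ∏ i : Fin k, (R i).card := Finset.prod_le_prod' (fun i _ => hc i)
        _ = (Fintype.piFinset R).card := (Fintype.card_piFinset R).symm
        _ ≤ _ := by
          apply Finset.card_le_card
          intro q hq
          rw [Fintype.mem_piFinset] at hq
          simp only [Finset.mem_filter, Finset.mem_univ, true_and]
          refine ⟨fun i j hij => ho i j hij _ (hq i) _ (hq j), fun i j => ?_⟩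
          exact congrFun (hl j _ (hq j)) i
    have h2 : (Finset.univ.filter (fun q : Fin b → Fin n =>
        StrictMono q ∧ ∀ i j, A (p i) (q j) = H₀ i j)).card ≤ n ^ b := by
      calc _ ≤ (Finset.univ : Finset (Fin b → Fin n)).card := Finset.card_le_card (Finset.filter_subset _ _)
        _ = n ^ b := by simp
    calc _ ≤ (Finset.univ.filter (fun q : Fin k → Fin n =>
        StrictMono q ∧ ∀ i j, A (p i) (q j) = H₀ i (γ j))).card * n ^ b := Nat.mul_le_mul h1 h2
      _ = n ^ b * _ := Nat.mul_comm _ _
      _ ≤ _ := Nat.le_add_left _ _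
  · obtain ⟨D, hD, hkill⟩ := hK
    have h1 : (Finset.univ.filter (fun q : Fin b → Fin n =>
        StrictMono q ∧ ∀ i j, A (p i) (q j) = H₀ i j)).card ≤ b * ((k * g) * n ^ (b - 1)) := by
      calc _ ≤ (Finset.univ.filter (fun q : Fin b → Fin n => ∃ i, q i ∈ D)).card := by
            apply Finset.card_le_card
            intro q hq
            simp only [Finset.mem_filter, Finset.mem_univ, true_and] at hq ⊢
            by_contra hcon
            push Not at hcon
            apply hkill (fun j => q (γ j)) (fun i j hij => hq.1.monotone (hγ hij))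
              (fun _ => Nat.zero_le _) (fun j => hcon (γ j))
            intro j
            funext i
            exact hq.2 i (γ j)
        _ ≤ b * (D.card * n ^ (b - 1)) := card_hit_le D
        _ ≤ b * ((k * g) * n ^ (b - 1)) :=
            Nat.mul_le_mul_left _ (Nat.mul_le_mul_right _ hD)
    calc _ ≤ g ^ k * (b * ((k * g) * n ^ (b - 1))) := Nat.mul_le_mul_left _ h1
      _ ≤ _ := Nat.le_add_right _ _

/-- Repeating columns of the pattern. -/
theorem colblow {a b k n : ℕ} (H₀ : Fin a → Fin b → Bool) (γ : Fin k → Fin b) (hγ : Monotone γ)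
    (A : Fin n → Fin n → Bool) (g : ℕ) :
    g ^ k * (rcopies H₀ A).card ≤
      n ^ a * (g ^ k * (b * ((k * g) * n ^ (b - 1)))) +
      n ^ b * (rcopies (fun i j => H₀ i (γ j)) A).card := by
  classical
  unfold rcopies
  rw [card_filter_prod, card_filter_prod, Finset.mul_sum, Finset.mul_sum]
  have hterm : ∀ p : Fin a → Fin n,
      g ^ k * (Finset.univ.filter (fun q : Fin b → Fin n =>
        StrictMono (p, q).1 ∧ StrictMono (p, q).2 ∧ ∀ i j, A ((p, q).1 i) ((p, q).2 j) = H₀ i j)).card ≤
      g ^ k * (b * ((k * g) * n ^ (b - 1))) +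
      n ^ b * (Finset.univ.filter (fun q : Fin k → Fin n =>
        StrictMono (p, q).1 ∧ StrictMono (p, q).2 ∧
          ∀ i j, A ((p, q).1 i) ((p, q).2 j) = H₀ i (γ j))).card := by
    intro p
    by_cases hp : StrictMono p
    · have := col_fibre H₀ γ hγ A g p
      simpa [hp] using this
    · simp [hp]
  calc _ ≤ ∑ p : Fin a → Fin n, (g ^ k * (b * ((k * g) * n ^ (b - 1))) +
      n ^ b * (Finset.univ.filter (fun q : Fin k → Fin n =>
        StrictMono (p, q).1 ∧ StrictMono (p, q).2 ∧
          ∀ i j, A ((p, q).1 i) ((p, q).2 j) = H₀ i (γ j))).card) :=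
        Finset.sum_le_sum (fun p _ => hterm p)
    _ = _ := by
        rw [Finset.sum_add_distrib]
        simp

/-- Repeating rows of the pattern. -/
theorem rowblow {a b k n : ℕ} (H₀ : Fin a → Fin b → Bool) (ρ : Fin k → Fin a) (hρ : Monotone ρ)
    (A : Fin n → Fin n → Bool) (g : ℕ) :
    g ^ k * (rcopies H₀ A).card ≤
      n ^ b * (g ^ k * (a * ((k * g) * n ^ (a - 1)))) +
      n ^ a * (rcopies (fun i j => H₀ (ρ i) j) A).card := by
  have h := colblow (fun j i => H₀ i j) ρ hρ (fun c r => A r c) g
  rw [rcopies_transp H₀ A] at h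
  have h2 := rcopies_transp (fun i j => H₀ (ρ i) j) A
  rw [← h2]
  exact h

/-- A matrix without a copy of `H₀` has no copy of a pattern obtained by repeating lines of `H₀`. -/
theorem isFree_blowup {k₀ k n : ℕ} (H₀ : Fin k₀ → Fin k₀ → Bool) (ρ γ : Fin k → Fin k₀)
    (hρ : Monotone ρ) (hγ : Monotone γ) (hρs : Function.Surjective ρ) (hγs : Function.Surjective γ)
    (B : Fin n → Fin n → Bool) (h : IsFree H₀ B) : IsFree (fun i j => H₀ (ρ i) (γ j)) B := by
  intro p q hp hq hpq
  choose s hs using hρs
  choose t ht using hγs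
  have hsm : StrictMono s := by
    intro x y hxy
    by_contra hcon
    have h1 : s y ≤ s x := not_lt.mp hcon
    have h2 := hρ h1
    rw [hs, hs] at h2
    exact absurd hxy (not_lt.mpr h2)
  have htm : StrictMono t := by
    intro x y hxy
    by_contra hcon
    have h1 : t y ≤ t x := not_lt.mp hcon
    have h2 := hγ h1
    rw [ht, ht] at h2
    exact absurd hxy (not_lt.mpr h2)
  apply h (fun x => p (s x)) (fun y => q (t y)) (hp.comp hsm) (hq.comp htm)
  intro i j
  have := hpq (s i) (t j)
  simp only [hs, ht] at this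
  exact this

theorem isFar_blowup {k₀ k n : ℕ} (H₀ : Fin k₀ → Fin k₀ → Bool) (ρ γ : Fin k → Fin k₀)
    (hρ : Monotone ρ) (hγ : Monotone γ) (hρs : Function.Surjective ρ) (hγs : Function.Surjective γ)
    (A : Fin n → Fin n → Bool) (ε : ℝ) (h : IsFar (fun i j => H₀ (ρ i) (γ j)) A ε) : IsFar H₀ A ε :=
  fun B hB => h B (isFree_blowup H₀ ρ γ hρ hγ hρs hγs B hB)

end Vale.Agent.P037
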