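import Vale.Agent.P037.Fold

/-!
# P037: arithmetic for the repetition of rows and columns
-/

namespace Vale.Agent.P037

theorem step_arith (N₀ N₁ n a b k : ℕ) (ha : 1 ≤ a) (hk : 1 ≤ k) (δ : ℝ) (hδ0 : 0 < δ)
    (h : ∀ g : ℕ, g ^ k * N₀ ≤ n ^ b * (g ^ k * (a * ((k * g) * n ^ (a - 1)))) + n ^ a * N₁)
    (hN₀ : δ * (n : ℝ) ^ (a + b) ≤ (N₀ : ℝ))
    (hbig : 1 ≤ δ * n / (2 * a * k)) :
    (δ / (4 * a * k)) ^ k * (δ / 2) * (n : ℝ) ^ (k + b) ≤ (N₁ : ℝ) := by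
  have haR : (1 : ℝ) ≤ a := by exact_mod_cast ha
  have hkR : (1 : ℝ) ≤ k := by exact_mod_cast hk
  have hak : (0 : ℝ) < 2 * a * k := by positivity
  have hn0 : (0 : ℝ) ≤ (n : ℝ) := Nat.cast_nonneg n
  have hnpos : (0 : ℝ) < (n : ℝ) := by
    rcases hn0.lt_or_eq with h1 | h1
    · exact h1
    · rw [← h1] at hbig
      simp at hbig
      linarith
  obtain ⟨x, hx⟩ : ∃ x : ℝ, x = δ * n / (2 * a * k) := ⟨_, rfl⟩
  rw [← hx] at hbig
  obtain ⟨g, hg⟩ : ∃ g : ℕ, g = ⌊x⌋₊ := ⟨_, rfl⟩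
  have hx0 : 0 ≤ x := by linarith
  have hg1 : (g : ℝ) ≤ x := by rw [hg]; exact Nat.floor_le hx0
  have hg2 : x < (g : ℝ) + 1 := by rw [hg]; exact Nat.lt_floor_add_one x
  have hg3 : (1 : ℝ) ≤ g := by
    have : 1 ≤ g := by rw [hg]; exact Nat.le_floor (by simpa using hbig)
    exact_mod_cast this
  have hg4 : x / 2 ≤ (g : ℝ) := by linarith
  have hgk : (0 : ℝ) < (g : ℝ) ^ k := by positivity
  have hmain := h g
  have hmainR : (g : ℝ) ^ k * N₀ ≤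
      (n : ℝ) ^ b * ((g : ℝ) ^ k * (a * ((k * g) * (n : ℝ) ^ (a - 1)))) + (n : ℝ) ^ a * N₁ := by
    exact_mod_cast hmain
  have hna : (n : ℝ) ^ a = (n : ℝ) ^ (a - 1) * n := by
    rw [← pow_succ]
    congr 1
    omega
  have hxn : 2 * a * k * x = δ * n := by
    rw [hx]; field_simp
  -- the first term is at most half of the left side
  have hterm : (a : ℝ) * ((k * g) * (n : ℝ) ^ (a - 1)) ≤ δ * (n : ℝ) ^ a / 2 := by
    have hp : (0 : ℝ) ≤ (n : ℝ) ^ (a - 1) := by positivity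
    have h1 : (a : ℝ) * (k * g) ≤ δ * n / 2 := by
      have : (a : ℝ) * (k * g) ≤ a * (k * x) := by
        apply mul_le_mul_of_nonneg_left _ (by positivity)
        exact mul_le_mul_of_nonneg_left hg1 (by positivity)
      nlinarith
    calc (a : ℝ) * ((k * g) * (n : ℝ) ^ (a - 1)) = (a * (k * g)) * (n : ℝ) ^ (a - 1) := by ring
      _ ≤ (δ * n / 2) * (n : ℝ) ^ (a - 1) := mul_le_mul_of_nonneg_right h1 hp
      _ = δ * (n : ℝ) ^ a / 2 := by rw [hna]; ring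
  have hfirst : (n : ℝ) ^ b * ((g : ℝ) ^ k * (a * ((k * g) * (n : ℝ) ^ (a - 1)))) ≤
      (g : ℝ) ^ k * N₀ / 2 := by
    have hnb : (0 : ℝ) ≤ (n : ℝ) ^ b := by positivity
    calc (n : ℝ) ^ b * ((g : ℝ) ^ k * (a * ((k * g) * (n : ℝ) ^ (a - 1))))
        ≤ (n : ℝ) ^ b * ((g : ℝ) ^ k * (δ * (n : ℝ) ^ a / 2)) := by
          apply mul_le_mul_of_nonneg_left _ hnb
          exact mul_le_mul_of_nonneg_left hterm hgk.le
      _ = (g : ℝ) ^ k * (δ * (n : ℝ) ^ (a + b)) / 2 := by rw [pow_add]; ring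
      _ ≤ (g : ℝ) ^ k * N₀ / 2 := by
          have := mul_le_mul_of_nonneg_left hN₀ hgk.le
          linarith
  have hsecond : (g : ℝ) ^ k * N₀ / 2 ≤ (n : ℝ) ^ a * N₁ := by linarith
  have hnapos : (0 : ℝ) < (n : ℝ) ^ a := by positivity
  -- lower bound of the left side
  have hlow : (x / 2) ^ k * (δ * (n : ℝ) ^ (a + b)) / 2 ≤ (g : ℝ) ^ k * N₀ / 2 := by
    have h1 : (x / 2) ^ k ≤ (g : ℝ) ^ k := pow_le_pow_left₀ (by positivity) hg4 k
    have h2 : (0 : ℝ) ≤ δ * (n : ℝ) ^ (a + b) := by positivity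
    have := mul_le_mul h1 hN₀ h2 hgk.le
    linarith
  have hx2 : x / 2 = δ / (4 * a * k) * n := by
    rw [hx]; field_simp; ring
  have hfin : (n : ℝ) ^ a * ((δ / (4 * a * k)) ^ k * (δ / 2) * (n : ℝ) ^ (k + b)) ≤ (n : ℝ) ^ a * N₁ := by
    calc (n : ℝ) ^ a * ((δ / (4 * a * k)) ^ k * (δ / 2) * (n : ℝ) ^ (k + b))
        = (x / 2) ^ k * (δ * (n : ℝ) ^ (a + b)) / 2 := by
          rw [hx2, mul_pow, pow_add, pow_add]; ring
      _ ≤ (n : ℝ) ^ a * N₁ := le_trans hlow hsecond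
  exact le_of_mul_le_mul_left hfin hnapos

end Vale.Agent.P037
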