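import Vale.Agent.P037.FoldArith

/-!
# P037: the removal bound passes to patterns obtained by repeating rows and columns
-/

namespace Vale.Agent.P037

theorem two_step_arith (N₀ N₁ N₂ n k₀ k : ℕ) (hk₀ : 1 ≤ k₀) (hk : 1 ≤ k) (δ : ℝ) (hδ0 : 0 < δ)
    (hδ1 : δ ≤ 1)
    (h1 : ∀ g : ℕ, g ^ k * N₀ ≤ n ^ k₀ * (g ^ k * (k₀ * ((k * g) * n ^ (k₀ - 1)))) + n ^ k₀ * N₁)
    (h2 : ∀ g : ℕ, g ^ k * N₁ ≤ n ^ k * (g ^ k * (k₀ * ((k * g) * n ^ (k₀ - 1)))) + n ^ k₀ * N₂)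
    (hN₀ : δ * (n : ℝ) ^ (2 * k₀) ≤ (N₀ : ℝ)) (hN₂ : 1 ≤ N₂) :
    ((δ / (4 * k₀ * k)) ^ k * (δ / 2) / (4 * k₀ * k)) ^ (2 * k) * (n : ℝ) ^ (2 * k) ≤ (N₂ : ℝ) := by
  have hk₀R : (1 : ℝ) ≤ k₀ := by exact_mod_cast hk₀
  have hkR : (1 : ℝ) ≤ k := by exact_mod_cast hk
  have hn0 : (0 : ℝ) ≤ (n : ℝ) := Nat.cast_nonneg n
  have hD4 : (4 : ℝ) ≤ 4 * k₀ * k := by nlinarith
  have hDpos : (0 : ℝ) < 4 * k₀ * k := by linarith
  have hE : (0 : ℝ) < 2 * k₀ * k := by nlinarith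
  obtain ⟨δ₁, hδ₁⟩ : ∃ δ₁ : ℝ, δ₁ = (δ / (4 * k₀ * k)) ^ k * (δ / 2) := ⟨_, rfl⟩
  rw [← hδ₁]
  have hq0 : 0 < δ / (4 * k₀ * k) := by positivity
  have hq1 : δ / (4 * k₀ * k) ≤ 1 := by
    rw [div_le_one hDpos]; linarith
  have hδ₁0 : 0 < δ₁ := by rw [hδ₁]; positivity
  have hδ₁le : δ₁ ≤ δ := by
    rw [hδ₁]
    have : (δ / (4 * k₀ * k)) ^ k ≤ 1 := pow_le_one₀ hq0.le hq1
    nlinarith
  have hw0 : 0 < δ₁ / (4 * k₀ * k) := by positivity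
  have hw1 : δ₁ / (4 * k₀ * k) ≤ 1 := by
    rw [div_le_one hDpos]; linarith
  by_cases hbig : 1 ≤ δ₁ * n / (2 * k₀ * k)
  · have hbig0 : 1 ≤ δ * n / (2 * k₀ * k) := by
      refine le_trans hbig ?_
      apply div_le_div_of_nonneg_right _ hE.le
      exact mul_le_mul_of_nonneg_right hδ₁le hn0
    have s1 := step_arith N₀ N₁ n k₀ k₀ k hk₀ hk δ hδ0 h1 (by rw [← two_mul]; exact hN₀) hbig0
    rw [← hδ₁] at s1
    have s2 := step_arith N₁ N₂ n k₀ k k hk₀ hk δ₁ hδ₁0 h2 (by rw [add_comm]; exact s1) hbig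
    refine le_trans ?_ s2
    rw [← two_mul]
    apply mul_le_mul_of_nonneg_right _ (by positivity)
    rw [two_mul, pow_add]
    apply mul_le_mul_of_nonneg_left _ (by positivity)
    calc (δ₁ / (4 * k₀ * k)) ^ k ≤ (δ₁ / (4 * k₀ * k)) ^ 1 := pow_le_pow_of_le_one hw0.le hw1 hk
      _ = δ₁ / (4 * k₀ * k) := pow_one _
      _ ≤ δ₁ / 2 := by
          apply div_le_div_of_nonneg_left hδ₁0.le (by norm_num) (by linarith)
  · push Not at hbig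
    rw [← mul_pow]
    have hx : δ₁ / (4 * k₀ * k) * n ≤ 1 := by
      have h3 : δ₁ / (4 * k₀ * k) * n = δ₁ * n / (2 * k₀ * k) / 2 := by
        field_simp; ring
      rw [h3]
      linarith
    have hx0 : 0 ≤ δ₁ / (4 * k₀ * k) * n := by positivity
    calc (δ₁ / (4 * k₀ * k) * n) ^ (2 * k) ≤ 1 := pow_le_one₀ hx0 hx
      _ ≤ (N₂ : ℝ) := by exact_mod_cast hN₂

/-- The polynomial removal bound passes from `H₀` to every pattern obtained from `H₀` by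
repeating rows and columns. -/
theorem PolyRemoval.blowup {k₀ k : ℕ} (hk₀ : 1 ≤ k₀) {H₀ : Fin k₀ → Fin k₀ → Bool}
    (h : PolyRemoval H₀) (ρ γ : Fin k → Fin k₀)
    (hρ : Monotone ρ) (hγ : Monotone γ) (hρs : Function.Surjective ρ) (hγs : Function.Surjective γ) :
    PolyRemoval (fun i j => H₀ (ρ i) (γ j)) := by
  obtain ⟨c₀, hc₀, C₀, hmain⟩ := h
  have hk : 1 ≤ k := by
    obtain ⟨i, -⟩ := hρs ⟨0, hk₀⟩
    have := i.2
    omega
  obtain ⟨c, hc⟩ : ∃ c : ℝ, c = min c₀ 1 := ⟨_, rfl⟩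
  have hc0 : 0 < c := by rw [hc]; exact lt_min hc₀ one_pos
  have hc1 : c ≤ 1 := by rw [hc]; exact min_le_right _ _
  have hcc : c ≤ c₀ := by rw [hc]; exact min_le_left _ _
  have hk₀R : (1 : ℝ) ≤ k₀ := by exact_mod_cast hk₀
  have hkR : (1 : ℝ) ≤ k := by exact_mod_cast hk
  have hDpos : (0 : ℝ) < 4 * k₀ * k := by nlinarith
  refine ⟨((c / (4 * k₀ * k)) ^ k * (c / 2) / (4 * k₀ * k)) ^ (2 * k), by positivity,
    C₀ * ((k + 1) * (2 * k)), ?_⟩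
  intro n ε A hε0 hε1 hfar
  have hfar0 : IsFar H₀ A ε := isFar_blowup H₀ ρ γ hρ hγ hρs hγs A ε hfar
  have hN₀ := hmain n ε A hε0 hε1 hfar0
  rcases Nat.eq_zero_or_pos n with hn | hn
  · subst hn
    have : ((0 : ℕ) : ℝ) ^ (2 * k) = 0 := by
      rw [Nat.cast_zero]
      exact zero_pow (by omega)
    rw [this, mul_zero]
    exact Nat.cast_nonneg _
  have hnR : (0 : ℝ) < (n : ℝ) := by exact_mod_cast hn
  -- there is at least one copy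
  have hN₂ : 1 ≤ numCopies (fun i j => H₀ (ρ i) (γ j)) A := by
    by_contra hcon
    have hz : numCopies (fun i j => H₀ (ρ i) (γ j)) A = 0 := by omega
    have hfree := isFree_of_numCopies_eq_zero hz
    have hd := hfar A hfree
    have hzero : numDiff A A = 0 := by
      unfold numDiff
      simp
    rw [hzero] at hd
    have : 0 < ε * (n : ℝ) ^ 2 := by positivity
    simp only [Nat.cast_zero] at hd
    linarith
  obtain ⟨δ, hδ⟩ : ∃ δ : ℝ, δ = c * ε ^ C₀ := ⟨_, rfl⟩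
  have hεp : 0 < ε ^ C₀ := by positivity
  have hεp1 : ε ^ C₀ ≤ 1 := pow_le_one₀ hε0.le hε1.le
  have hδ0 : 0 < δ := by rw [hδ]; positivity
  have hδ1 : δ ≤ 1 := by rw [hδ]; nlinarith
  have hN₀' : δ * (n : ℝ) ^ (2 * k₀) ≤ ((rcopies H₀ A).card : ℝ) := by
    rw [← numCopies_eq_rcopies]
    refine le_trans ?_ hN₀
    apply mul_le_mul_of_nonneg_right _ (by positivity)
    rw [hδ]
    exact mul_le_mul_of_nonneg_right hcc hεp.le
  have key := two_step_arith (rcopies H₀ A).card (rcopies (fun i j => H₀ (ρ i) j) A).card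
    (rcopies (fun i j => H₀ (ρ i) (γ j)) A).card n k₀ k hk₀ hk δ hδ0 hδ1
    (fun g => rowblow H₀ ρ hρ A g)
    (fun g => colblow (fun i j => H₀ (ρ i) j) γ hγ A g)
    hN₀' (by rw [← numCopies_eq_rcopies]; exact hN₂)
  rw [numCopies_eq_rcopies]
  refine le_trans (le_of_eq ?_) key
  congr 1
  obtain ⟨e, he⟩ : ∃ e : ℝ, e = ε ^ C₀ := ⟨_, rfl⟩
  rw [hδ, pow_mul ε, ← he, pow_mul e, ← mul_pow]
  congr 1
  rw [pow_succ, div_pow, div_pow, mul_pow]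
  field_simp
  rw [mul_pow]
  ring
end Vale.Agent.P037
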