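import Vale.Agent.P037.GDefs

/-!
# P037: anchors: a bounded set of columns meeting the last ones of almost every row
-/

namespace Vale.Agent.P037

open Finset

variable {n : ℕ}

/-- number of ones of row `r` to the right of column `e`, in columns outside `Dd` -/
def gtail (A : Fin n → Fin n → Bool) (Dd : Finset (Fin n)) (r e : Fin n) : ℕ :=
  (Finset.univ.filter (fun c : Fin n => e < c ∧ c ∉ Dd ∧ A r c = true)).card

/-- column `e` (outside `Dd`) is one of the last `h` ones of row `r` -/
def ghit (A : Fin n → Fin n → Bool) (Dd : Finset (Fin n)) (h : ℕ) (r e : Fin n) : Prop :=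
  A r e = true ∧ e ∉ Dd ∧ gtail A Dd r e < h

/-- rows with at least `h` ones outside `Dd` -/
def Rbig (A : Fin n → Fin n → Bool) (Dd : Finset (Fin n)) (h : ℕ) : Finset (Fin n) :=
  Finset.univ.filter (fun r =>
    h ≤ (Finset.univ.filter (fun c : Fin n => c ∉ Dd ∧ A r c = true)).card)

/-- in a finite set of a linear order with at least `h` elements, at least `h` elements have
fewer than `h` elements of the set above them -/
theorem last_count {α : Type*} [LinearOrder α] (S : Finset α) (h : ℕ) (hS : h ≤ S.card) :
    h ≤ (S.filter (fun e => (S.filter (fun c => e < c)).card < h)).card := by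
  have hanti : ∀ e ∈ S, ∀ e' ∈ S, e < e' →
      (S.filter (fun c => e' < c)).card < (S.filter (fun c => e < c)).card := by
    intro e _ e' he' hlt
    apply Finset.card_lt_card
    refine ⟨?_, ?_⟩
    · intro c hc
      rw [Finset.mem_filter] at hc ⊢
      exact ⟨hc.1, hlt.trans hc.2⟩
    · intro hsub
      have : e' ∈ S.filter (fun c => e' < c) := hsub (Finset.mem_filter.mpr ⟨he', hlt⟩)
      exact lt_irrefl _ (Finset.mem_filter.mp this).2
  have hinj : Set.InjOn (fun e => (S.filter (fun c => e < c)).card) (S : Set α) := by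
    intro e he e' he' hee
    rcases lt_trichotomy e e' with hlt | heq | hgt
    · exact absurd hee (ne_of_gt (hanti e he e' he' hlt))
    · exact heq
    · exact absurd hee (ne_of_lt (hanti e' he' e he hgt))
  have himg : S.image (fun e => (S.filter (fun c => e < c)).card) = Finset.range S.card := by
    apply Finset.eq_of_subset_of_card_le
    · intro k hk
      rw [Finset.mem_image] at hk
      obtain ⟨e, he, rfl⟩ := hk
      rw [Finset.mem_range]
      apply Finset.card_lt_card
      refine ⟨Finset.filter_subset _ _, ?_⟩
      intro hsub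
      exact lt_irrefl _ (Finset.mem_filter.mp (hsub he)).2
    · rw [Finset.card_image_of_injOn hinj, Finset.card_range]
  have hsub : Finset.range h ⊆
      (S.filter (fun e => (S.filter (fun c => e < c)).card < h)).image
        (fun e => (S.filter (fun c => e < c)).card) := by
    intro k hk
    rw [Finset.mem_range] at hk
    have hk' : k ∈ S.image (fun e => (S.filter (fun c => e < c)).card) := by
      rw [himg, Finset.mem_range]; omega
    rw [Finset.mem_image] at hk' ⊢
    obtain ⟨e, he, hek⟩ := hk'
    refine ⟨e, Finset.mem_filter.mpr ⟨he, ?_⟩, hek⟩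
    rw [hek]; exact hk
  calc h = (Finset.range h).card := (Finset.card_range h).symm
    _ ≤ _ := Finset.card_le_card hsub
    _ ≤ _ := Finset.card_image_le

open Classical in
theorem ghit_count (A : Fin n → Fin n → Bool) (Dd : Finset (Fin n)) (h : ℕ) (r : Fin n)
    (hr : r ∈ Rbig A Dd h) : h ≤ (Finset.univ.filter (fun e => ghit A Dd h r e)).card := by
  unfold Rbig at hr
  rw [Finset.mem_filter] at hr
  have h1 := last_count (Finset.univ.filter (fun c : Fin n => c ∉ Dd ∧ A r c = true)) h hr.2
  refine h1.trans (le_of_eq ?_)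
  congr 1
  ext e
  rw [Finset.mem_filter, Finset.mem_filter, Finset.mem_filter, Finset.filter_filter]
  unfold ghit gtail
  have e1 : (Finset.univ.filter (fun c : Fin n => (c ∉ Dd ∧ A r c = true) ∧ e < c))
      = Finset.univ.filter (fun c : Fin n => e < c ∧ c ∉ Dd ∧ A r c = true) := by
    ext c
    simp only [Finset.mem_filter, Finset.mem_univ, true_and]
    tauto
  rw [e1]
  tauto

open Classical in
theorem greedy_hit_aux (hitp : Fin n → Fin n → Prop) (h μ : ℕ) (hh : 0 < h) :
    ∀ (k : ℕ) (R : Finset (Fin n)), R.card = k →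
    (∀ r ∈ R, h ≤ (Finset.univ.filter (fun e => hitp r e)).card) →
    ∃ Z : Finset (Fin n), Z.card * (h * μ) ≤ R.card * n ∧ (∀ e ∈ Z, ∃ r, hitp r e) ∧
      (R.filter (fun r => ∀ e ∈ Z, ¬ hitp r e)).card ≤ μ := by
  intro k
  induction k using Nat.strong_induction_on with
  | _ k ih =>
    intro R hk hR
    by_cases hμ : R.card ≤ μ
    · refine ⟨∅, by simp, by simp, ?_⟩
      exact (Finset.card_le_card (Finset.filter_subset _ _)).trans hμ
    · have hμ' : μ < R.card := not_le.mp hμ
      have hRpos : 0 < R.card := by omega
      obtain ⟨r0, hr0⟩ := Finset.card_pos.mp hRpos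
      have hne : (Finset.univ : Finset (Fin n)).Nonempty := ⟨r0, Finset.mem_univ _⟩
      -- double counting
      have hdc : ∑ e : Fin n, (R.filter (fun r => hitp r e)).card
          = ∑ r ∈ R, (Finset.univ.filter (fun e => hitp r e)).card := by
        simp only [Finset.card_filter]
        rw [Finset.sum_comm]
      have hlow : h * R.card ≤ ∑ e : Fin n, (R.filter (fun r => hitp r e)).card := by
        rw [hdc]
        calc h * R.card = ∑ _r ∈ R, h := by rw [Finset.sum_const, smul_eq_mul, mul_comm]
          _ ≤ _ := Finset.sum_le_sum hR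
      obtain ⟨e, _, he⟩ := Finset.exists_le_of_sum_le
        (s := (Finset.univ : Finset (Fin n))) (f := fun _ => h * R.card)
        (g := fun e => n * (R.filter (fun r => hitp r e)).card) hne (by
          rw [Finset.sum_const, Finset.card_univ, Fintype.card_fin, smul_eq_mul, ← Finset.mul_sum]
          exact Nat.mul_le_mul_left n hlow)
      have hsplit : (R.filter (fun r => hitp r e)).card + (R.filter (fun r => ¬ hitp r e)).card
          = R.card := Finset.card_filter_add_card_filter_not _
      have hkpos : 0 < (R.filter (fun r => hitp r e)).card := by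
        rcases Nat.eq_zero_or_pos (R.filter (fun r => hitp r e)).card with h0 | h0
        · rw [h0, Nat.mul_zero] at he
          have : 0 < h * R.card := Nat.mul_pos hh hRpos
          omega
        · exact h0
      obtain ⟨Z', hZ1, hZ2, hZ3⟩ := ih (R.filter (fun r => ¬ hitp r e)).card (by omega)
        (R.filter (fun r => ¬ hitp r e)) rfl
        (fun r hr => hR r (Finset.mem_filter.mp hr).1)
      refine ⟨insert e Z', ?_, ?_, ?_⟩
      · have hc : (insert e Z').card ≤ Z'.card + 1 := Finset.card_insert_le _ _
        have h2 : h * μ ≤ h * R.card := Nat.mul_le_mul_left h hμ'.le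
        calc (insert e Z').card * (h * μ) ≤ (Z'.card + 1) * (h * μ) := Nat.mul_le_mul_right _ hc
          _ = Z'.card * (h * μ) + h * μ := by ring
          _ ≤ (R.filter (fun r => ¬ hitp r e)).card * n
                + n * (R.filter (fun r => hitp r e)).card :=
              Nat.add_le_add hZ1 (h2.trans he)
          _ = ((R.filter (fun r => hitp r e)).card
                + (R.filter (fun r => ¬ hitp r e)).card) * n := by ring
          _ = R.card * n := by rw [hsplit]
      · intro e' he'
        rw [Finset.mem_insert] at he'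
        rcases he' with rfl | he'
        · obtain ⟨r, hr⟩ := Finset.card_pos.mp hkpos
          exact ⟨r, (Finset.mem_filter.mp hr).2⟩
        · exact hZ2 e' he'
      · refine le_trans (le_of_eq ?_) hZ3
        congr 1
        ext r
        simp only [Finset.mem_filter, Finset.mem_insert, forall_eq_or_imp]
        tauto

open Classical in
/-- greedy choice of a small hitting set -/
theorem greedy_hit (hitp : Fin n → Fin n → Prop) (R : Finset (Fin n)) (h μ : ℕ) (hh : 0 < h)
    (hR : ∀ r ∈ R, h ≤ (Finset.univ.filter (fun e => hitp r e)).card) :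
    ∃ Z : Finset (Fin n), Z.card * (h * μ) ≤ n * n ∧ (∀ e ∈ Z, ∃ r, hitp r e) ∧
      (R.filter (fun r => ∀ e ∈ Z, ¬ hitp r e)).card ≤ μ := by
  obtain ⟨Z, h1, h2, h3⟩ := greedy_hit_aux hitp h μ hh R.card R rfl hR
  refine ⟨Z, h1.trans ?_, h2, h3⟩
  apply Nat.mul_le_mul_right
  calc R.card ≤ (Finset.univ : Finset (Fin n)).card := Finset.card_le_univ R
    _ = n := by rw [Finset.card_univ, Fintype.card_fin]

/-- row `r` is attached to the anchor `a`: `a` is the largest element of `Z` contained in the row,
and fewer than `h` ones of the row (outside `Dd`) lie to the right of `a` -/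
def att (A : Fin n → Fin n → Bool) (Dd : Finset (Fin n)) (h : ℕ) (Z : Finset (Fin n))
    (r a : Fin n) : Prop :=
  a ∈ Z ∧ A r a = true ∧ (∀ b ∈ Z, a < b → A r b = false) ∧ gtail A Dd r a < h

theorem att_unique {A : Fin n → Fin n → Bool} {Dd : Finset (Fin n)} {h : ℕ} {Z : Finset (Fin n)}
    {r a a' : Fin n} (h1 : att A Dd h Z r a) (h2 : att A Dd h Z r a') : a = a' := by
  rcases lt_trichotomy a a' with hlt | heq | hgt
  · have := h1.2.2.1 a' h2.1 hlt
    rw [h2.2.1] at this
    exact absurd this (by decide)
  · exact heq
  · have := h2.2.2.1 a h1.1 hgt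
    rw [h1.2.1] at this
    exact absurd this (by decide)

theorem exists_att {A : Fin n → Fin n → Bool} {Dd : Finset (Fin n)} {h : ℕ} {Z : Finset (Fin n)}
    {r e : Fin n} (he : e ∈ Z) (hr : ghit A Dd h r e) : ∃ a, att A Dd h Z r a := by
  have hne : (Z.filter (fun b => A r b = true)).Nonempty :=
    ⟨e, Finset.mem_filter.mpr ⟨he, hr.1⟩⟩
  have hmem := Finset.max'_mem _ hne
  have hle : e ≤ (Z.filter (fun b => A r b = true)).max' hne :=
    Finset.le_max' _ e (Finset.mem_filter.mpr ⟨he, hr.1⟩)
  refine ⟨(Z.filter (fun b => A r b = true)).max' hne, (Finset.mem_filter.mp hmem).1,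
    (Finset.mem_filter.mp hmem).2, ?_, ?_⟩
  · intro b hb hlt
    by_contra hcon
    have hbt : A r b = true := by
      cases hAb : A r b with
      | true => rfl
      | false => exact absurd hAb hcon
    have hb' : b ∈ Z.filter (fun b => A r b = true) := Finset.mem_filter.mpr ⟨hb, hbt⟩
    exact absurd hlt (not_lt.mpr (Finset.le_max' _ b hb'))
  · refine lt_of_le_of_lt ?_ hr.2.2
    unfold gtail
    apply Finset.card_le_card
    intro c hc
    rw [Finset.mem_filter] at hc ⊢
    exact ⟨hc.1, lt_of_le_of_lt hle hc.2.1, hc.2.2⟩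

end Vale.Agent.P037
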