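import Vale.Agent.P037.GMain

/-!
# P037: choice of the parameters for the pattern `[[0,1],[1,1]]`
-/

namespace Vale.Agent.P037

open Finset

theorem gA_left (n M u N : ℕ) (hM : 1 ≤ M)
    (hn2 : n < 2 * (18432 * M ^ 9 * (14155776 * M ^ 12) ^ 2 * (9216 * M ^ 8 * u)))
    (h : u ^ 2 * (9216 * M ^ 8 * u / 4) ^ 2 ≤ N) :
    n ^ 4 ≤ 16 * (18432 * 14155776 ^ 2 * 9216) ^ 4 * M ^ 164 * N := by
  have e4 : 9216 * M ^ 8 * u / 4 = 2304 * M ^ 8 * u := by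
    have : 9216 * M ^ 8 * u = 4 * (2304 * M ^ 8 * u) := by ring
    rw [this, Nat.mul_div_cancel_left _ (by norm_num)]
  rw [e4] at h
  have h1 : n ^ 4 ≤ (2 * (18432 * M ^ 9 * (14155776 * M ^ 12) ^ 2 * (9216 * M ^ 8 * u))) ^ 4 :=
    Nat.pow_le_pow_left hn2.le 4
  have h2 : u ^ 4 ≤ N := by
    have hM8 : 1 ≤ 2304 * M ^ 8 := by
      have : 1 ≤ M ^ 8 := Nat.one_le_pow _ _ hM
      omega
    calc u ^ 4 = u ^ 2 * (1 * u) ^ 2 := by ring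
      _ ≤ u ^ 2 * (2304 * M ^ 8 * u) ^ 2 :=
        Nat.mul_le_mul_left _ (Nat.pow_le_pow_left (Nat.mul_le_mul_right _ hM8) 2)
      _ ≤ N := h
  calc n ^ 4 ≤ (2 * (18432 * M ^ 9 * (14155776 * M ^ 12) ^ 2 * (9216 * M ^ 8 * u))) ^ 4 := h1
    _ = 16 * (18432 * 14155776 ^ 2 * 9216) ^ 4 * M ^ 164 * u ^ 4 := by ring
    _ ≤ _ := Nat.mul_le_mul_left _ h2

theorem gA_mid (n M q t σ n0 v N : ℕ) (hM : 1 ≤ M)
    (hq : q = 14155776 * M ^ 12) (hσ : σ = 24 * M ^ 3 * t)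
    (hn0 : n0 = 18432 * M ^ 9 * q ^ 2 * t) (hv : v = 2 * σ ^ 2 * n0)
    (hn2 : n < 2 * n0) (hMN : v * n < M * N) :
    n ^ 4 ≤ 16 * (18432 * 14155776 ^ 2 * 9216) ^ 4 * M ^ 164 * N := by
  have hc : n0 = 768 * M ^ 6 * q ^ 2 * σ := by rw [hn0, hσ]; ring
  have h1 : n ^ 4 ≤ (2 * n0) ^ 3 * n := by
    calc n ^ 4 = n ^ 3 * n := by ring
      _ ≤ (2 * n0) ^ 3 * n := Nat.mul_le_mul_right _ (Nat.pow_le_pow_left hn2.le 3)
  have h2 : (2 * n0) ^ 3 * n = 4 * (768 * M ^ 6 * q ^ 2) ^ 2 * (v * n) := by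
    rw [hv]
    calc (2 * n0) ^ 3 * n = 8 * n0 ^ 2 * n0 * n := by ring
      _ = 8 * (768 * M ^ 6 * q ^ 2 * σ) ^ 2 * n0 * n := by rw [← hc]
      _ = 4 * (768 * M ^ 6 * q ^ 2) ^ 2 * (2 * σ ^ 2 * n0 * n) := by ring
  have h3 : 4 * (768 * M ^ 6 * q ^ 2) ^ 2 * M ≤
      16 * (18432 * 14155776 ^ 2 * 9216) ^ 4 * M ^ 164 := by
    rw [hq]
    calc 4 * (768 * M ^ 6 * (14155776 * M ^ 12) ^ 2) ^ 2 * M
        = (4 * 768 ^ 2 * 14155776 ^ 4) * M ^ 61 := by ring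
      _ ≤ (16 * (18432 * 14155776 ^ 2 * 9216) ^ 4) * M ^ 164 :=
        Nat.mul_le_mul (by norm_num) (Nat.pow_le_pow_right hM (by norm_num))
  calc n ^ 4 ≤ (2 * n0) ^ 3 * n := h1
    _ = 4 * (768 * M ^ 6 * q ^ 2) ^ 2 * (v * n) := h2
    _ ≤ 4 * (768 * M ^ 6 * q ^ 2) ^ 2 * (M * N) := Nat.mul_le_mul_left _ hMN.le
    _ = 4 * (768 * M ^ 6 * q ^ 2) ^ 2 * M * N := by ring
    _ ≤ _ := Nat.mul_le_mul_right _ h3

/-- `z H^2 ≤ n^2 < 4 M^2 H^2` -/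
theorem gA_z (n M H n0 z : ℕ) (hHM : n0 = M * H) (hn2 : n < 2 * n0)
    (h1 : z * (H * H) ≤ n * n) : z ≤ 4 * M ^ 2 := by
  have h2 : n * n < (2 * n0) * (2 * n0) := Nat.mul_lt_mul'' hn2 hn2
  have h3 : z * (H * H) < 4 * M ^ 2 * (H * H) := by
    calc z * (H * H) ≤ n * n := h1
      _ < (2 * n0) * (2 * n0) := h2
      _ = 4 * M ^ 2 * (H * H) := by rw [hHM]; ring
  exact (Nat.lt_of_mul_lt_mul_right h3).le

theorem gA_dt (n M v N dt : ℕ) (hv : 0 < v) (hMN : M * N ≤ v * n) (h2 : dt * v ≤ N) :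
    M * dt ≤ n := by
  have : v * (M * dt) ≤ v * n := by
    calc v * (M * dt) = M * (dt * v) := by ring
      _ ≤ M * N := Nat.mul_le_mul_left _ h2
      _ ≤ v * n := hMN
  exact Nat.le_of_mul_le_mul_left this hv

theorem gA_d0 (n M q t σ n0 v z d0 : ℕ) (hMpos : 1 ≤ M) (htpos : 0 < t)
    (hq : q = 14155776 * M ^ 12) (hσ : σ = 24 * M ^ 3 * t) (hv : v = 2 * σ ^ 2 * n0)
    (hn1 : n0 ≤ n) (hz : z ≤ 4 * M ^ 2)
    (h3 : d0 * (2 * q * t) * t ^ 2 ≤ 128 * σ * (z * (2 * σ ^ 2 * n + v))) : M * d0 ≤ n := by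
  have hv2 : v ≤ 2 * σ ^ 2 * n := by rw [hv]; exact Nat.mul_le_mul_left _ hn1
  have hid : 2048 * M ^ 3 * σ ^ 3 = 2 * q * t * t ^ 2 := by rw [hσ, hq]; ring
  have hpos : 0 < 2 * q * t * t ^ 2 := by
    have : 0 < q := by rw [hq]; positivity
    positivity
  have : (2 * q * t * t ^ 2) * (M * d0) ≤ (2 * q * t * t ^ 2) * n := by
    calc (2 * q * t * t ^ 2) * (M * d0) = M * (d0 * (2 * q * t) * t ^ 2) := by ring
      _ ≤ M * (128 * σ * (z * (2 * σ ^ 2 * n + v))) := Nat.mul_le_mul_left _ h3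
      _ ≤ M * (128 * σ * (4 * M ^ 2 * (2 * σ ^ 2 * n + 2 * σ ^ 2 * n))) := by
          apply Nat.mul_le_mul_left
          apply Nat.mul_le_mul_left
          exact Nat.mul_le_mul hz (Nat.add_le_add_left hv2 _)
      _ = (2048 * M ^ 3 * σ ^ 3) * n := by ring
      _ = (2 * q * t * t ^ 2) * n := by rw [hid]
  exact Nat.le_of_mul_le_mul_left this hpos

theorem gA_T (n M q t σ n0 : ℕ) (hqpos : 0 < q) (hσpos : 0 < σ) (hσ : σ = 24 * M ^ 3 * t)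
    (hn0 : n0 = 18432 * M ^ 9 * q ^ 2 * t) (hn2 : n < 2 * n0) :
    n / (σ * q) + 1 ≤ 1536 * M ^ 6 * q := by
  have : n / (σ * q) < 1536 * M ^ 6 * q := by
    rw [Nat.div_lt_iff_lt_mul (by positivity)]
    calc n < 2 * n0 := hn2
      _ = 1536 * M ^ 6 * q * (σ * q) := by rw [hn0, hσ]; ring
  omega

theorem gA_d1 (n M u q t n0 z T d1 : ℕ) (ht : t = 9216 * M ^ 8 * u)
    (hn0 : n0 = 18432 * M ^ 9 * q ^ 2 * t) (hn1 : n0 ≤ n) (hz : z ≤ 4 * M ^ 2)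
    (hT : T ≤ 1536 * M ^ 6 * q) (h4 : d1 ≤ (T * z) ^ 2 * (2 * u)) : M * d1 ≤ n := by
  calc M * d1 ≤ M * ((T * z) ^ 2 * (2 * u)) := Nat.mul_le_mul_left _ h4
    _ ≤ M * ((1536 * M ^ 6 * q * (4 * M ^ 2)) ^ 2 * (2 * u)) := by
        apply Nat.mul_le_mul_left
        apply Nat.mul_le_mul_right
        exact Nat.pow_le_pow_left (Nat.mul_le_mul hT hz) 2
    _ = 75497472 * (M ^ 17 * q ^ 2 * u) := by ring
    _ ≤ 169869312 * (M ^ 17 * q ^ 2 * u) := Nat.mul_le_mul_right _ (by norm_num)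
    _ = n0 := by rw [hn0, ht]; ring
    _ ≤ n := hn1

theorem gA_band (n M q t n0 z T : ℕ)
    (hn0 : n0 = 18432 * M ^ 9 * q ^ 2 * t) (hn1 : n0 ≤ n) (hz : z ≤ 4 * M ^ 2)
    (hT : T ≤ 1536 * M ^ 6 * q) : M * (T * z * (2 * q * t) * n) ≤ n ^ 2 := by
  calc M * (T * z * (2 * q * t) * n)
      ≤ M * (1536 * M ^ 6 * q * (4 * M ^ 2) * (2 * q * t) * n) := by
        apply Nat.mul_le_mul_left
        apply Nat.mul_le_mul_right
        apply Nat.mul_le_mul_right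
        exact Nat.mul_le_mul hT hz
    _ = 12288 * (M ^ 9 * q ^ 2 * t * n) := by ring
    _ ≤ 18432 * (M ^ 9 * q ^ 2 * t * n) := Nat.mul_le_mul_right _ (by norm_num)
    _ = n0 * n := by rw [hn0]; ring
    _ ≤ n * n := Nat.mul_le_mul_right _ hn1
    _ = n ^ 2 := by ring

theorem gA_x (n M q t σ n0 v z x : ℕ) (hqpos : 0 < q) (htpos : 0 < t)
    (hσ : σ = 24 * M ^ 3 * t) (hn0 : n0 = 18432 * M ^ 9 * q ^ 2 * t) (hv : v = 2 * σ ^ 2 * n0)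
    (hn1 : n0 ≤ n) (hz : z ≤ 4 * M ^ 2)
    (h5 : x * t ≤ 2 * (z * (2 * (σ * q) ^ 2 * n + v))) : M * x ≤ n ^ 2 := by
  have hv2 : v ≤ 2 * (σ * q) ^ 2 * n := by
    rw [hv]
    apply Nat.mul_le_mul _ hn1
    apply Nat.mul_le_mul_left
    exact Nat.pow_le_pow_left (Nat.le_mul_of_pos_right _ hqpos) 2
  have hid : 32 * M ^ 3 * (σ * q) ^ 2 = n0 * t := by rw [hσ, hn0]; ring
  have : t * (M * x) ≤ t * (n ^ 2) := by
    calc t * (M * x) = M * (x * t) := by ring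
      _ ≤ M * (2 * (z * (2 * (σ * q) ^ 2 * n + v))) := Nat.mul_le_mul_left _ h5
      _ ≤ M * (2 * (4 * M ^ 2 * (2 * (σ * q) ^ 2 * n + 2 * (σ * q) ^ 2 * n))) := by
          apply Nat.mul_le_mul_left
          apply Nat.mul_le_mul_left
          exact Nat.mul_le_mul hz (Nat.add_le_add_left hv2 _)
      _ = (32 * M ^ 3 * (σ * q) ^ 2) * n := by ring
      _ = n0 * t * n := by rw [hid]
      _ ≤ n * t * n := by
          apply Nat.mul_le_mul_right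
          exact Nat.mul_le_mul_right _ hn1
      _ = t * (n ^ 2) := by ring
  exact Nat.le_of_mul_le_mul_left this htpos

theorem gA_b (n M q t σ n0 b : ℕ) (hMpos : 1 ≤ M) (hqpos : 0 < q)
    (hσ : σ = 24 * M ^ 3 * t) (hn0 : n0 = 18432 * M ^ 9 * q ^ 2 * t)
    (hn1 : n0 ≤ n) (hb : b ≤ 4 * M ^ 2) : M * (b * (σ * q) * n) ≤ n ^ 2 := by
  have h1 : 96 * M ^ 6 * q * t ≤ n0 := by
    rw [hn0]
    calc 96 * M ^ 6 * q * t = 96 * M ^ 6 * (q * 1) * t := by ring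
      _ ≤ 18432 * M ^ 9 * (q * q) * t := by
          apply Nat.mul_le_mul_right
          apply Nat.mul_le_mul
          · exact Nat.mul_le_mul (by norm_num) (Nat.pow_le_pow_right hMpos (by norm_num))
          · exact Nat.mul_le_mul_left _ hqpos
      _ = 18432 * M ^ 9 * q ^ 2 * t := by ring
  calc M * (b * (σ * q) * n) ≤ M * (4 * M ^ 2 * (σ * q) * n) := by
        apply Nat.mul_le_mul_left
        apply Nat.mul_le_mul_right
        exact Nat.mul_le_mul_right _ hb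
    _ = (96 * M ^ 6 * q * t) * n := by rw [hσ]; ring
    _ ≤ n0 * n := Nat.mul_le_mul_right _ h1
    _ ≤ n * n := Nat.mul_le_mul_right _ hn1
    _ = n ^ 2 := by ring

theorem gA_total (n M H n0 dt d0 d1 x W Bb D : ℕ) (hHM : n0 = M * H) (hn1 : n0 ≤ n)
    (e1 : M * dt ≤ n) (e2 : M * d0 ≤ n) (e3 : M * d1 ≤ n) (e4 : M * W ≤ n ^ 2)
    (e5 : M * x ≤ n ^ 2) (e6 : M * Bb ≤ n ^ 2)
    (h7 : D ≤ (dt + d0 + d1) * n + (2 * H * n + H * n + W + x) + 2 * H * n + Bb) :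
    M * D ≤ 11 * n ^ 2 := by
  have e7 : n0 * n ≤ n ^ 2 := by
    calc n0 * n ≤ n * n := Nat.mul_le_mul_right _ hn1
      _ = n ^ 2 := by ring
  calc M * D ≤ M * ((dt + d0 + d1) * n + (2 * H * n + H * n + W + x) + 2 * H * n + Bb) :=
        Nat.mul_le_mul_left _ h7
    _ = (M * dt + M * d0 + M * d1) * n + 5 * ((M * H) * n) + M * W + M * x + M * Bb := by ring
    _ ≤ (n + n + n) * n + 5 * n ^ 2 + n ^ 2 + n ^ 2 + n ^ 2 := by
        rw [← hHM]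
        apply Nat.add_le_add _ e6
        apply Nat.add_le_add _ e5
        apply Nat.add_le_add _ e4
        apply Nat.add_le_add _ (Nat.mul_le_mul_left _ e7)
        exact Nat.mul_le_mul_right _ (Nat.add_le_add (Nat.add_le_add e1 e2) e3)
    _ = 11 * n ^ 2 := by ring

variable {n : ℕ}

/-- The parametrised statement `G_param` with `g = u`, `t = 9216 M^8 u`, `σ = 24 M^3 t`,
`q = 14155776 M^12`, `L = 2 q t`, `n0 = 18432 M^9 q^2 t`, `h = μ = k = n0 / M`, `v = 2 σ^2 n0`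
and `n0 ≤ n < 2 n0`. -/
theorem G_nat (A : Fin n → Fin n → Bool) (M u : ℕ) (hM : 1 ≤ M) (hu : 1 ≤ u)
    (hn1 : 18432 * M ^ 9 * (14155776 * M ^ 12) ^ 2 * (9216 * M ^ 8 * u) ≤ n)
    (hn2 : n < 2 * (18432 * M ^ 9 * (14155776 * M ^ 12) ^ 2 * (9216 * M ^ 8 * u))) :
    n ^ 4 ≤ 16 * (18432 * 14155776 ^ 2 * 9216) ^ 4 * M ^ 164 * (gquads A).card ∨
    ∃ B : Fin n → Fin n → Bool, GFree B ∧ M * numDiff A B ≤ 11 * n ^ 2 := by
  have hM0 : 0 < M := hM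
  obtain ⟨q, hq⟩ : ∃ q, q = 14155776 * M ^ 12 := ⟨_, rfl⟩
  obtain ⟨t, ht⟩ : ∃ t, t = 9216 * M ^ 8 * u := ⟨_, rfl⟩
  obtain ⟨σ, hσ⟩ : ∃ σ, σ = 24 * M ^ 3 * t := ⟨_, rfl⟩
  obtain ⟨H, hH⟩ : ∃ H, H = 18432 * M ^ 8 * q ^ 2 * t := ⟨_, rfl⟩
  obtain ⟨n0, hn0⟩ : ∃ n0, n0 = 18432 * M ^ 9 * q ^ 2 * t := ⟨_, rfl⟩
  obtain ⟨v, hv⟩ : ∃ v, v = 2 * σ ^ 2 * n0 := ⟨_, rfl⟩
  have hqpos : 0 < q := by rw [hq]; positivity
  have htpos : 0 < t := by rw [ht]; positivity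
  have hσpos : 0 < σ := by rw [hσ]; positivity
  have hHpos : 0 < H := by rw [hH]; positivity
  have hn0pos : 0 < n0 := by rw [hn0]; positivity
  have hvpos : 0 < v := by rw [hv]; positivity
  have hHM : n0 = M * H := by rw [hn0, hH]; ring
  have hn1' : n0 ≤ n := by rw [hn0, hq, ht]; exact hn1
  have hn2' : n < 2 * n0 := by rw [hn0, hq, ht]; exact hn2
  rcases G_param A v H H σ q (2 * q * t) t u H hHpos hσpos hqpos le_rfl (by positivity) htpos hHpos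
    with h | h
  · left
    rw [ht] at h
    exact gA_left n M u _ hM hn2 h
  · obtain ⟨B, hB, z, dt, d0, d1, x, b, h1, h2, h3, h4, h5, h6, h7⟩ := h
    by_cases hMN : v * n < M * (gquads A).card
    · left
      exact gA_mid n M q t σ n0 v _ hM hq hσ hn0 hv hn2' hMN
    · right
      refine ⟨B, hB, ?_⟩
      have hMN' : M * (gquads A).card ≤ v * n := not_lt.mp hMN
      have hz : z ≤ 4 * M ^ 2 := gA_z n M H n0 z hHM hn2' h1
      have hb : b ≤ 4 * M ^ 2 := by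
        apply gA_z n M H n0 b hHM hn2'
        calc b * (H * H) = b * H ^ 2 := by ring
          _ ≤ n ^ 2 := h6
          _ = n * n := by ring
      have hT := gA_T n M q t σ n0 hqpos hσpos hσ hn0 hn2'
      exact gA_total n M H n0 dt d0 d1 x ((n / (σ * q) + 1) * z * (2 * q * t) * n)
        (b * (σ * q) * n) _ hHM hn1'
        (gA_dt n M v _ dt hvpos hMN' h2)
        (gA_d0 n M q t σ n0 v z d0 hM htpos hq hσ hv hn1' hz h3)
        (gA_d1 n M u q t n0 z _ d1 ht hn0 hn1' hz hT h4)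
        (gA_band n M q t n0 z _ hn0 hn1' hz hT)
        (gA_x n M q t σ n0 v z x hqpos htpos hσ hn0 hv hn1' hz h5)
        (gA_b n M q t σ n0 b hM hqpos hσ hn0 hn1' hb)
        h7

end Vale.Agent.P037
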