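import Mathlib

/-!
# P037: families of rows free of the ordered pattern `[[0,1],[1,1]]`: the closure inside a group

Rows are finite sets of columns `X i ⊆ Fin n`, placed at pairwise different positions `pos i`, and
collected into consecutive groups `grp i`.
-/

namespace Vale.Agent.P037

open Finset

variable {ι : Type*} {n : ℕ}

/-- no row reading `0 1` on two columns lies before a row reading `1 1` on them -/
def OrdFree (X : ι → Finset (Fin n)) (pos : ι → ℕ) : Prop :=
  ∀ i j, pos i < pos j → ∀ c e : Fin n, c < e → ¬ (c ∉ X i ∧ e ∈ X i ∧ c ∈ X j ∧ e ∈ X j)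

/-- `c` is a direct predecessor of `e` in group `l`: `c < e` and `c` lies in the first row of the
group `l` that contains `e` -/
def GRel (X : ι → Finset (Fin n)) (pos grp : ι → ℕ) (l : ℕ) (c e : Fin n) : Prop :=
  c < e ∧ ∃ i, grp i = l ∧ e ∈ X i ∧ c ∈ X i ∧ ∀ i', grp i' = l → e ∈ X i' → pos i ≤ pos i'

/-- `c` lies in the closure of `e` in group `l` -/
def GCl (X : ι → Finset (Fin n)) (pos grp : ι → ℕ) (l : ℕ) (c e : Fin n) : Prop :=
  Relation.ReflTransGen (GRel X pos grp l) c e

theorem OrdFree.pp {X : ι → Finset (Fin n)} {pos : ι → ℕ} (hfree : OrdFree X pos) {i j : ι}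
    (hij : pos i < pos j) {c e : Fin n} (hce : c < e) (hei : e ∈ X i) (hcj : c ∈ X j)
    (hej : e ∈ X j) : c ∈ X i := by
  by_contra hc
  exact hfree i j hij c e hce ⟨hc, hei, hcj, hej⟩

theorem exists_first_row (X : ι → Finset (Fin n)) (pos grp : ι → ℕ) {l : ℕ} {e : Fin n} {i : ι}
    (hi : grp i = l) (he : e ∈ X i) :
    ∃ i0, grp i0 = l ∧ e ∈ X i0 ∧ ∀ i', grp i' = l → e ∈ X i' → pos i0 ≤ pos i' := by
  classical
  have hex : ∃ k, ∃ i', pos i' = k ∧ grp i' = l ∧ e ∈ X i' := ⟨pos i, i, rfl, hi, he⟩
  obtain ⟨i0, h1, h2, h3⟩ := Nat.find_spec hex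
  refine ⟨i0, h2, h3, fun i' hi' he' => ?_⟩
  rw [h1]
  exact Nat.find_min' hex ⟨i', rfl, hi', he'⟩

theorem pos_lt_of_grp_lt {pos grp : ι → ℕ} (hpos : Function.Injective pos)
    (hgrp : ∀ i j, pos i < pos j → grp i ≤ grp j) {i j : ι} (h : grp i < grp j) :
    pos i < pos j := by
  by_contra hn
  rw [not_lt] at hn
  rcases Nat.eq_or_lt_of_le hn with he | hl
  · have hij : j = i := hpos he
    rw [hij] at h
    exact lt_irrefl _ h
  · have := hgrp j i hl
    omega

theorem GCl.le {X : ι → Finset (Fin n)} {pos grp : ι → ℕ} {l : ℕ} {c e : Fin n}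
    (h : GCl X pos grp l c e) : c ≤ e := by
  induction h with
  | refl => exact le_rfl
  | tail _ hbc ih => exact ih.trans hbc.1.le

/-- every row is contained in the closure of each of its elements, below that element -/
theorem GRel.of_mem [Finite ι] {X : ι → Finset (Fin n)} {pos grp : ι → ℕ} (hpos : Function.Injective pos)
    (hfree : OrdFree X pos) {l : ℕ} {c e : Fin n} {i : ι} (hi : grp i = l) (he : e ∈ X i)
    (hc : c ∈ X i) (hce : c < e) : GRel X pos grp l c e := by
  obtain ⟨i0, h1, h2, h3⟩ := exists_first_row X pos grp hi he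
  refine ⟨hce, i0, h1, h2, ?_, h3⟩
  rcases Nat.eq_or_lt_of_le (h3 i hi he) with heq | hlt
  · rw [hpos heq]
    exact hc
  · exact hfree.pp hlt hce h2 hc he

/-- two direct predecessors of the same column are related -/
theorem GRel.rel [Finite ι] {X : ι → Finset (Fin n)} {pos grp : ι → ℕ} (hpos : Function.Injective pos)
    (hfree : OrdFree X pos) {l : ℕ} {c c' e : Fin n}
    (h : GRel X pos grp l c e) (h' : GRel X pos grp l c' e) (hc : c < c') : GRel X pos grp l c c' := by
  obtain ⟨_, i, hi, hei, hci, hmin⟩ := h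
  obtain ⟨_, i', hi', hei', hci', hmin'⟩ := h'
  have hii : i = i' := hpos (le_antisymm (hmin i' hi' hei') (hmin' i hi hei))
  subst hii
  exact GRel.of_mem hpos hfree hi hci' hci hc

/-- the closure of a column is a chain for the closure relation -/
theorem GCl.linear [Finite ι] {X : ι → Finset (Fin n)} {pos grp : ι → ℕ} (hpos : Function.Injective pos)
    (hfree : OrdFree X pos) {l : ℕ} {c c' e : Fin n}
    (h : GCl X pos grp l c e) (h' : GCl X pos grp l c' e) (hc : c < c') : GCl X pos grp l c c' := by
  have key : ∀ e : Fin n, ∀ c c' : Fin n, GCl X pos grp l c e → GCl X pos grp l c' e → c < c' →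
      GCl X pos grp l c c' := by
    intro e
    induction e using WellFoundedLT.induction with
    | ind e ih =>
      intro c c' h h' hc
      rcases Relation.ReflTransGen.cases_tail h' with he | ⟨d', hd', hr'⟩
      · rw [← he]
        exact h
      · rcases Relation.ReflTransGen.cases_tail h with he | ⟨d, hd, hr⟩
        · exfalso
          have h1 : c' ≤ e := GCl.le h'
          rw [he] at h1
          exact absurd hc (not_lt.2 h1)
        · rcases lt_trichotomy d d' with hlt | heq | hgt
          · have hrel : GRel X pos grp l d d' := GRel.rel hpos hfree hr hr' hlt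
            exact ih d' hr'.1 c c' (Relation.ReflTransGen.tail hd hrel) hd' hc
          · subst heq
            exact ih d hr.1 c c' hd hd' hc
          · have hrel : GRel X pos grp l d' d := GRel.rel hpos hfree hr' hr hgt
            exact ih d hr.1 c c' hd (Relation.ReflTransGen.tail hd' hrel) hc
  exact key e c c' h h' hc

/-- a row of an earlier group containing `e` contains the closure of `e` -/
theorem GCl.mem_earlier {X : ι → Finset (Fin n)} {pos grp : ι → ℕ} (hpos : Function.Injective pos)
    (hgrp : ∀ i j, pos i < pos j → grp i ≤ grp j) (hfree : OrdFree X pos) {l : ℕ} {c e : Fin n}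
    (h : GCl X pos grp l c e) {i : ι} (hi : grp i < l) (he : e ∈ X i) : c ∈ X i := by
  refine Relation.ReflTransGen.head_induction_on (motive := fun a _ => a ∈ X i) h he ?_
  intro a d hr _ hd
  obtain ⟨had, i1, hi1, hdi1, hai1, _⟩ := hr
  have hlt : pos i < pos i1 := pos_lt_of_grp_lt hpos hgrp (by rw [hi1]; exact hi)
  exact hfree.pp hlt had hd hai1 hdi1

/-- closures shrink from one group to a later one -/
theorem GCl.mono_group [Finite ι] {X : ι → Finset (Fin n)} {pos grp : ι → ℕ}
    (hpos : Function.Injective pos) (hgrp : ∀ i j, pos i < pos j → grp i ≤ grp j)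
    (hfree : OrdFree X pos) {l l' : ℕ} (hl : l < l') {c e : Fin n}
    (h : GCl X pos grp l' c e) {i : ι} (hi : grp i = l) (he : e ∈ X i) : GCl X pos grp l c e := by
  have key : GCl X pos grp l c e ∧ ∃ i', grp i' = l ∧ c ∈ X i' := by
    refine Relation.ReflTransGen.head_induction_on
      (motive := fun a _ => GCl X pos grp l a e ∧ ∃ i', grp i' = l ∧ a ∈ X i') h
      ⟨Relation.ReflTransGen.refl, i, hi, he⟩ ?_
    intro a d hr _ hd
    obtain ⟨had, i1, hi1, hdi1, hai1, _⟩ := hr
    obtain ⟨hcl, i2, hi2, hdi2⟩ := hd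
    obtain ⟨i0, h1, h2, h3⟩ := exists_first_row X pos grp hi2 hdi2
    have hlt : pos i0 < pos i1 := pos_lt_of_grp_lt hpos hgrp (by rw [h1, hi1]; exact hl)
    have ha0 : a ∈ X i0 := hfree.pp hlt had h2 hai1 hdi1
    exact ⟨Relation.ReflTransGen.head ⟨had, i0, h1, h2, ha0, h3⟩ hcl, i0, h1, ha0⟩
  exact key.1

/-- every element of a closure other than the top is used in the group; the top is used if the
closure is taken at a used column -/
theorem GCl.used {X : ι → Finset (Fin n)} {pos grp : ι → ℕ} {l : ℕ} {c e : Fin n}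
    (h : GCl X pos grp l c e) {i : ι} (hi : grp i = l) (he : e ∈ X i) : ∃ i', grp i' = l ∧ c ∈ X i' := by
  rcases Relation.ReflTransGen.cases_head h with heq | ⟨d, hr, _⟩
  · rw [heq]
    exact ⟨i, hi, he⟩
  · obtain ⟨_, i1, hi1, _, hci1, _⟩ := hr
    exact ⟨i1, hi1, hci1⟩

end Vale.Agent.P037
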