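import Vale.Agent.P037.GAnchor
import Vale.Agent.P037.Drift

/-!
# P037: windows of rows attached to an anchor, ambiguous columns, virtual rows
-/

namespace Vale.Agent.P037

open Finset

variable {n : ℕ}

open Classical in
/-- the rows `r` with `r / σ = j` that are attached to the anchor `a` -/
noncomputable def Kwin (A : Fin n → Fin n → Bool) (Dd : Finset (Fin n)) (h : ℕ) (Z : Finset (Fin n))
    (σ j : ℕ) (a : Fin n) : Finset (Fin n) :=
  Finset.univ.filter (fun r : Fin n => r.val / σ = j ∧ att A Dd h Z r a)

/-- number of ones of column `c` on the rows `K` -/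
def ones (A : Fin n → Fin n → Bool) (K : Finset (Fin n)) (c : Fin n) : ℕ :=
  (K.filter (fun r => A r c = true)).card

/-- number of zeros of column `c` on the rows `K` -/
def zeros (A : Fin n → Fin n → Bool) (K : Finset (Fin n)) (c : Fin n) : ℕ :=
  (K.filter (fun r => A r c = false)).card

/-- columns left of `a` on which both values occupy more than an eighth of `K` -/
def ambset (A : Fin n → Fin n → Bool) (K : Finset (Fin n)) (a : Fin n) : Finset (Fin n) :=
  Finset.univ.filter (fun c => c < a ∧ K.card < 8 * ones A K c ∧ K.card < 8 * zeros A K c)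

/-- the virtual row of the core `K` with anchor `a`: majority value left of `a`, one at `a`,
zero to the right of `a` -/
def vrow (A : Fin n → Fin n → Bool) (K : Finset (Fin n)) (a : Fin n) : Fin n → Bool :=
  fun c => if c < a then decide (K.card < 2 * ones A K c) else decide (c = a)

theorem ones_add_zeros (A : Fin n → Fin n → Bool) (K : Finset (Fin n)) (c : Fin n) :
    ones A K c + zeros A K c = K.card := by
  unfold ones zeros
  rw [← Finset.card_filter_add_card_filter_not (s := K) (p := fun r => A r c = true)]
  congr 2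
  apply Finset.filter_congr
  intro r _
  simp

/-- a median of a nonempty set of rows -/
theorem exists_median (K : Finset (Fin n)) (hK : K.Nonempty) :
    ∃ x ∈ K, K.card ≤ 2 * (K.filter (fun r => r ≤ x)).card ∧
      K.card ≤ 2 * (K.filter (fun r => x ≤ r)).card := by
  have hpos : 0 < K.card := Finset.card_pos.mpr hK
  set f := K.orderEmbOfFin rfl with hf
  have hi : K.card / 2 < K.card := Nat.div_lt_self hpos (by norm_num)
  refine ⟨f ⟨K.card / 2, hi⟩, Finset.orderEmbOfFin_mem K rfl _, ?_, ?_⟩
  · have h1 : ((Finset.Iic (⟨K.card / 2, hi⟩ : Fin K.card)).map f.toEmbedding).card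
        ≤ (K.filter (fun r => r ≤ f ⟨K.card / 2, hi⟩)).card := by
      apply Finset.card_le_card
      intro y hy
      rw [Finset.mem_map] at hy
      obtain ⟨j, hj, rfl⟩ := hy
      rw [Finset.mem_filter]
      exact ⟨Finset.orderEmbOfFin_mem K rfl _, f.monotone (Finset.mem_Iic.mp hj)⟩
    rw [Finset.card_map, Fin.card_Iic] at h1
    simp only at h1
    omega
  · have h1 : ((Finset.Ici (⟨K.card / 2, hi⟩ : Fin K.card)).map f.toEmbedding).card
        ≤ (K.filter (fun r => f ⟨K.card / 2, hi⟩ ≤ r)).card := by
      apply Finset.card_le_card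
      intro y hy
      rw [Finset.mem_map] at hy
      obtain ⟨j, hj, rfl⟩ := hy
      rw [Finset.mem_filter]
      exact ⟨Finset.orderEmbOfFin_mem K rfl _, f.monotone (Finset.mem_Ici.mp hj)⟩
    rw [Finset.card_map, Fin.card_Ici] at h1
    simp only at h1
    omega

/-- on unambiguous columns a quarter of the core, inside any half `K'` of it, reads like the
virtual row -/
theorem robust_core (A : Fin n → Fin n → Bool) (K K' : Finset (Fin n)) (a : Fin n)
    (hKa : ∀ r ∈ K, A r a = true) (hK' : K' ⊆ K) (hhalf : K.card ≤ 2 * K'.card)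
    (c e : Fin n) (hc : c ∉ ambset A K a) (he : e ∉ ambset A K a) (hce : c < e)
    (hve : vrow A K a e = true) :
    K.card ≤ 4 * (K'.filter (fun x => A x c = vrow A K a c ∧ A x e = true)).card := by
  rcases Nat.eq_zero_or_pos K.card with hK0 | hKpos
  · rw [hK0]; exact Nat.zero_le _
  -- `e ≤ a`
  have hea : e < a ∨ e = a := by
    unfold vrow at hve
    by_cases h : e < a
    · exact Or.inl h
    · rw [if_neg h] at hve
      exact Or.inr (of_decide_eq_true hve)
  have hca : c < a := by
    rcases hea with h | h
    · exact lt_trans hce h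
    · rw [← h]; exact hce
  -- the rows that disagree at `c`
  have hdc : 8 * (K.filter (fun x => A x c ≠ vrow A K a c)).card ≤ K.card := by
    have hamb : 8 * ones A K c ≤ K.card ∨ 8 * zeros A K c ≤ K.card := by
      by_contra hcon
      push Not at hcon
      apply hc
      simp only [ambset, Finset.mem_filter, Finset.mem_univ, true_and]
      exact ⟨hca, hcon.1, hcon.2⟩
    have hoz := ones_add_zeros A K c
    rcases hamb with h1 | h1
    · have hv : vrow A K a c = false := by
        unfold vrow
        rw [if_pos hca]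
        apply decide_eq_false
        omega
      rw [hv]
      have : (K.filter (fun x => A x c ≠ false)).card = ones A K c := by
        unfold ones
        congr 1
        apply Finset.filter_congr
        intro r _
        simp
      rw [this]; exact h1
    · have hv : vrow A K a c = true := by
        unfold vrow
        rw [if_pos hca]
        apply decide_eq_true
        omega
      rw [hv]
      have : (K.filter (fun x => A x c ≠ true)).card = zeros A K c := by
        unfold zeros
        congr 1
        apply Finset.filter_congr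
        intro r _
        simp
      rw [this]; exact h1
  -- the rows that disagree at `e`
  have hde : 8 * zeros A K e ≤ K.card := by
    rcases hea with h | h
    · have hv : K.card < 2 * ones A K e := by
        unfold vrow at hve
        rw [if_pos h] at hve
        exact of_decide_eq_true hve
      by_contra hcon
      push Not at hcon
      apply he
      simp only [ambset, Finset.mem_filter, Finset.mem_univ, true_and]
      exact ⟨h, by omega, hcon⟩
    · have : zeros A K e = 0 := by
        unfold zeros
        rw [Finset.card_eq_zero, Finset.filter_eq_empty_iff]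
        intro r hr
        rw [h, hKa r hr]
        simp
      rw [this]; simp
  have hcover : K' ⊆ (K'.filter (fun x => A x c = vrow A K a c ∧ A x e = true)) ∪
      ((K.filter (fun x => A x c ≠ vrow A K a c)) ∪ (K.filter (fun x => A x e = false))) := by
    intro x hx
    simp only [Finset.mem_union, Finset.mem_filter]
    by_cases h1 : A x c = vrow A K a c
    · by_cases h2 : A x e = true
      · exact Or.inl ⟨hx, h1, h2⟩
      · exact Or.inr (Or.inr ⟨hK' hx, by simpa using h2⟩)
    · exact Or.inr (Or.inl ⟨hK' hx, h1⟩)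
  have hcard := le_trans (Finset.card_le_card hcover) (le_trans (Finset.card_union_le _ _)
    (Nat.add_le_add_left (Finset.card_union_le _ _) _))
  have hz : (K.filter (fun x => A x e = false)).card = zeros A K e := rfl
  rw [hz] at hcard
  omega

/-- drift for one anchor and one column: mixed windows are paid for by copies -/
theorem drift_anchor (A : Fin n → Fin n → Bool) (Dd : Finset (Fin n)) (h : ℕ) (Z : Finset (Fin n))
    (σ : ℕ) (hσ : 0 < σ) (a c : Fin n) :
    ∑ j ∈ Finset.range (n / σ + 1),
      ones A (Kwin A Dd h Z σ j a) c * zeros A (Kwin A Dd h Z σ j a) c ≤ 2 * σ ^ 2 + cpair A c a := by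
  classical
  set D : Finset (Fin n) :=
    Finset.univ.filter (fun r : Fin n => att A Dd h Z r a ∧ A r c = false) with hD
  set U : Finset (Fin n) :=
    Finset.univ.filter (fun r : Fin n => att A Dd h Z r a ∧ A r c = true) with hU
  have h1 := drift_one σ hσ D U
  have h2 : ((D ×ˢ U).filter (fun x => x.1 < x.2)).card ≤ cpair A c a := by
    unfold cpair
    apply Finset.card_le_card
    intro x hx
    simp only [hD, hU, Finset.mem_filter, Finset.mem_product, Finset.mem_univ, true_and] at hx ⊢
    obtain ⟨⟨⟨ha1, hc1⟩, ha2, hc2⟩, hlt⟩ := hx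
    exact ⟨hlt, hc1, ha1.2.1, hc2, ha2.2.1⟩
  have h3 : ∑ j ∈ Finset.range (n / σ + 1),
      ones A (Kwin A Dd h Z σ j a) c * zeros A (Kwin A Dd h Z σ j a) c
      = ((D ×ˢ U).filter (fun x => x.1.val / σ = x.2.val / σ)).card := by
    rw [Finset.card_eq_sum_card_fiberwise (f := fun x : Fin n × Fin n => x.1.val / σ)
      (t := Finset.range (n / σ + 1))]
    · apply Finset.sum_congr rfl
      intro j _
      unfold ones zeros
      rw [mul_comm, ← Finset.card_product]
      congr 1
      ext x
      simp only [hD, hU, Kwin, Finset.mem_filter, Finset.mem_product, Finset.mem_univ, true_and]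
      constructor
      · rintro ⟨⟨⟨hj1, ha1⟩, hc1⟩, ⟨hj2, ha2⟩, hc2⟩
        exact ⟨⟨⟨⟨ha1, hc1⟩, ha2, hc2⟩, by rw [hj1, hj2]⟩, hj1⟩
      · rintro ⟨⟨⟨⟨ha1, hc1⟩, ha2, hc2⟩, heq⟩, hj1⟩
        exact ⟨⟨⟨hj1, ha1⟩, hc1⟩, ⟨by rw [← heq, hj1], ha2⟩, hc2⟩
    · intro x _
      simp only [Finset.coe_range, Set.mem_Iio]
      exact strip_lt x.1
  rw [h3]
  omega

/-- the same, summed over the columns left of the anchor -/
theorem drift_anchor_sum (A : Fin n → Fin n → Bool) (Dd : Finset (Fin n)) (h : ℕ)
    (Z : Finset (Fin n)) (σ : ℕ) (hσ : 0 < σ) (a : Fin n) :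
    ∑ c ∈ Finset.univ.filter (fun c : Fin n => c < a), ∑ j ∈ Finset.range (n / σ + 1),
      ones A (Kwin A Dd h Z σ j a) c * zeros A (Kwin A Dd h Z σ j a) c
      ≤ 2 * σ ^ 2 * n + Nright A a := by
  calc ∑ c ∈ Finset.univ.filter (fun c : Fin n => c < a), ∑ j ∈ Finset.range (n / σ + 1),
      ones A (Kwin A Dd h Z σ j a) c * zeros A (Kwin A Dd h Z σ j a) c
      ≤ ∑ c ∈ Finset.univ.filter (fun c : Fin n => c < a), (2 * σ ^ 2 + cpair A c a) :=
        Finset.sum_le_sum (fun c _ => drift_anchor A Dd h Z σ hσ a c)
    _ = (Finset.univ.filter (fun c : Fin n => c < a)).card * (2 * σ ^ 2) + Nright A a := by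
        rw [Finset.sum_add_distrib]
        unfold Nright
        simp
    _ ≤ 2 * σ ^ 2 * n + Nright A a := by
        have : (Finset.univ.filter (fun c : Fin n => c < a)).card ≤ n := by
          calc (Finset.univ.filter (fun c : Fin n => c < a)).card
              ≤ (Finset.univ : Finset (Fin n)).card := Finset.card_filter_le _ _
            _ = n := by simp
        calc (Finset.univ.filter (fun c : Fin n => c < a)).card * (2 * σ ^ 2) + Nright A a
            ≤ n * (2 * σ ^ 2) + Nright A a :=
              Nat.add_le_add_right (Nat.mul_le_mul_right _ this) _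
          _ = 2 * σ ^ 2 * n + Nright A a := by ring

/-- a window with at least `t` rows pays `t^2 / 64` for each ambiguous column -/
theorem amb_le (A : Fin n → Fin n → Bool) (K : Finset (Fin n)) (a : Fin n) (t : ℕ)
    (ht : t ≤ K.card) :
    (ambset A K a).card * t ^ 2 ≤
      64 * ∑ c ∈ Finset.univ.filter (fun c : Fin n => c < a), ones A K c * zeros A K c := by
  calc (ambset A K a).card * t ^ 2 = ∑ _c ∈ ambset A K a, t ^ 2 := by simp
    _ ≤ ∑ c ∈ ambset A K a, 64 * (ones A K c * zeros A K c) := by
        apply Finset.sum_le_sum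
        intro c hc
        simp only [ambset, Finset.mem_filter, Finset.mem_univ, true_and] at hc
        obtain ⟨_, h1, h2⟩ := hc
        calc t ^ 2 = t * t := sq t
          _ ≤ (8 * ones A K c) * (8 * zeros A K c) :=
              Nat.mul_le_mul (le_trans ht h1.le) (le_trans ht h2.le)
          _ = 64 * (ones A K c * zeros A K c) := by ring
    _ ≤ ∑ c ∈ Finset.univ.filter (fun c : Fin n => c < a), 64 * (ones A K c * zeros A K c) := by
        apply Finset.sum_le_sum_of_subset
        intro c hc
        simp only [ambset, Finset.mem_filter, Finset.mem_univ, true_and] at hc ⊢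
        exact hc.1
    _ = 64 * ∑ c ∈ Finset.univ.filter (fun c : Fin n => c < a), ones A K c * zeros A K c := by
        rw [Finset.mul_sum]

/-- abstract pigeonhole: among `q` windows of sizes `sz j ≤ σ` with total size at least `L`,
where `2 q t ≤ L`, some window of size at least `t` has small weight `w` -/
theorem pigeon_core (J : Finset ℕ) (sz w : ℕ → ℕ) (q σ L t : ℕ) (hJ : J.card ≤ q)
    (hsz : ∀ j ∈ J, sz j ≤ σ) (hL : L ≤ ∑ j ∈ J, sz j) (hq : 2 * q * t ≤ L) (hLpos : 0 < L) :
    ∃ j ∈ J, t ≤ sz j ∧ w j * L ≤ 2 * σ * ∑ j' ∈ J.filter (fun j' => t ≤ sz j'), w j' := by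
  set Jr := J.filter (fun j' => t ≤ sz j') with hJr
  have hsplit : ∑ j ∈ J, sz j = ∑ j ∈ Jr, sz j + ∑ j ∈ J.filter (fun j' => ¬ t ≤ sz j'), sz j :=
    (Finset.sum_filter_add_sum_filter_not J (fun j' => t ≤ sz j') sz).symm
  have h1 : ∑ j ∈ Jr, sz j ≤ Jr.card * σ := by
    apply Finset.sum_le_card_nsmul
    intro j hj
    exact hsz j (Finset.mem_filter.mp hj).1
  have h2 : ∑ j ∈ J.filter (fun j' => ¬ t ≤ sz j'), sz j ≤ q * t := by
    calc ∑ j ∈ J.filter (fun j' => ¬ t ≤ sz j'), sz j
        ≤ (J.filter (fun j' => ¬ t ≤ sz j')).card * t := by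
          apply Finset.sum_le_card_nsmul
          intro j hj
          have := (Finset.mem_filter.mp hj).2
          omega
      _ ≤ q * t := Nat.mul_le_mul_right _ (le_trans (Finset.card_filter_le _ _) hJ)
  have h3 : L ≤ 2 * σ * Jr.card := by
    have e1 : 2 * q * t = 2 * (q * t) := by ring
    have e2 : 2 * σ * Jr.card = 2 * (Jr.card * σ) := by ring
    omega
  have hne : Jr.Nonempty := by
    rw [Finset.nonempty_iff_ne_empty]
    intro h
    rw [h] at h3
    simp at h3
    omega
  obtain ⟨j, hj, hmin⟩ := Finset.exists_min_image Jr w hne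
  refine ⟨j, (Finset.mem_filter.mp hj).1, (Finset.mem_filter.mp hj).2, ?_⟩
  have h4 : Jr.card * w j ≤ ∑ j' ∈ Jr, w j' := by
    apply Finset.card_nsmul_le_sum
    intro j' hj'
    exact hmin j' hj'
  calc w j * L ≤ w j * (2 * σ * Jr.card) := Nat.mul_le_mul_left _ h3
    _ = 2 * σ * (Jr.card * w j) := by ring
    _ ≤ 2 * σ * ∑ j' ∈ Jr, w j' := Nat.mul_le_mul_left _ h4

/-- choice of the core of a big class -/
theorem choose_core (A : Fin n → Fin n → Bool) (Dd : Finset (Fin n)) (h : ℕ) (Z : Finset (Fin n))
    (σ q L t : ℕ) (hσ : 0 < σ) (hq0 : 0 < q) (hq : 2 * q * t ≤ L) (hLpos : 0 < L) (l : ℕ) (a : Fin n)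
    (hbig : L ≤ (Kwin A Dd h Z (σ * q) l a).card) :
    ∃ j, j / q = l ∧ j < n / σ + 1 ∧ t ≤ (Kwin A Dd h Z σ j a).card ∧
      (ambset A (Kwin A Dd h Z σ j a) a).card * L ≤
        2 * σ * ∑ j' ∈ (Finset.range (n / σ + 1)).filter
          (fun j' => j' / q = l ∧ t ≤ (Kwin A Dd h Z σ j' a).card),
          (ambset A (Kwin A Dd h Z σ j' a) a).card := by
  classical
  set J : Finset ℕ := (Finset.range (n / σ + 1)).filter (fun j => j / q = l) with hJ
  have hJcard : J.card ≤ q := by
    have : J ⊆ Finset.Ico (l * q) (l * q + q) := by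
      intro j hj
      simp only [hJ, Finset.mem_filter, Finset.mem_range] at hj
      rw [Finset.mem_Ico]
      have h1 := Nat.div_add_mod j q
      have h2 := Nat.mod_lt j hq0
      rw [hj.2] at h1
      have h3 : q * l = l * q := Nat.mul_comm _ _
      omega
    calc J.card ≤ (Finset.Ico (l * q) (l * q + q)).card := Finset.card_le_card this
      _ = q := by simp
  have hsz : ∀ j ∈ J, (Kwin A Dd h Z σ j a).card ≤ σ := by
    intro j _
    refine le_trans (Finset.card_le_card ?_) (strip_card_le (n := n) hσ j)
    intro r hr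
    simp only [Kwin, Finset.mem_filter, Finset.mem_univ, true_and] at hr ⊢
    exact hr.1
  have hL : L ≤ ∑ j ∈ J, (Kwin A Dd h Z σ j a).card := by
    refine le_trans hbig ?_
    rw [Finset.card_eq_sum_card_fiberwise (f := fun r : Fin n => r.val / σ) (t := J)]
    · apply Finset.sum_le_sum
      intro j _
      apply Finset.card_le_card
      intro r hr
      simp only [Kwin, Finset.mem_filter, Finset.mem_univ, true_and] at hr ⊢
      exact ⟨hr.2, hr.1.2⟩
    · intro r hr
      simp only [Kwin, Finset.coe_filter, Finset.mem_univ, true_and] at hr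
      have hr' : r.val / (σ * q) = l := hr.1
      simp only [hJ, Finset.coe_filter, Finset.mem_range]
      exact ⟨strip_lt r, by rw [Nat.div_div_eq_div_mul]; exact hr'⟩
  obtain ⟨j, hj, ht, hw⟩ := pigeon_core J (fun j => (Kwin A Dd h Z σ j a).card)
    (fun j => (ambset A (Kwin A Dd h Z σ j a) a).card) q σ L t hJcard hsz hL hq hLpos
  simp only [hJ, Finset.mem_filter, Finset.mem_range] at hj
  refine ⟨j, hj.2, hj.1, ht, ?_⟩
  rw [hJ, Finset.filter_filter] at hw
  exact hw

end Vale.Agent.P037
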