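import Vale.Agent.P037.GCore

/-!
# P037: total number of ambiguous columns and total cost of passing to the virtual rows
-/

namespace Vale.Agent.P037

open Finset

variable {n : ℕ}

/-- windows refine classes -/
theorem Kwin_subset (A : Fin n → Fin n → Bool) (Dd : Finset (Fin n)) (h : ℕ) (Z : Finset (Fin n))
    (σ q j l : ℕ) (a : Fin n) (hj : j / q = l) :
    Kwin A Dd h Z σ j a ⊆ Kwin A Dd h Z (σ * q) l a := by
  intro r hr
  unfold Kwin at *
  simp only [Finset.mem_filter, Finset.mem_univ, true_and] at hr ⊢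
  exact ⟨by rw [← Nat.div_div_eq_div_mul, hr.1, hj], hr.2⟩

/-- pairs with a fixed first coordinate are determined by their second coordinate -/
theorem sum_fst_eq_le (BB : Finset (ℕ × Fin n)) (Z : Finset (Fin n)) (hBB : ∀ β ∈ BB, β.2 ∈ Z)
    (l : ℕ) (W : Fin n → ℕ) :
    ∑ β ∈ BB.filter (fun β => β.1 = l), W β.2 ≤ ∑ a ∈ Z, W a := by
  classical
  rw [← Finset.sum_image (f := W) (g := Prod.snd) (s := BB.filter (fun β => β.1 = l))]
  · apply Finset.sum_le_sum_of_subset
    intro a ha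
    obtain ⟨β, hβ, rfl⟩ := Finset.mem_image.mp ha
    exact hBB β (Finset.mem_filter.mp hβ).1
  · intro x hx y hy hxy
    have h1 := (Finset.mem_filter.mp (Finset.mem_coe.mp hx)).2
    have h2 := (Finset.mem_filter.mp (Finset.mem_coe.mp hy)).2
    exact Prod.ext (h1.trans h2.symm) hxy

/-- total number of ambiguous columns of the chosen cores -/
theorem amb_total (A : Fin n → Fin n → Bool) (Dd : Finset (Fin n)) (h : ℕ) (Z : Finset (Fin n))
    (σ q L t v : ℕ) (hσ : 0 < σ) (hZ : ∀ a ∈ Z, Nright A a ≤ v)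
    (BB : Finset (ℕ × Fin n)) (hBB : ∀ β ∈ BB, β.2 ∈ Z) (js : ℕ × Fin n → ℕ)
    (hjs : ∀ β ∈ BB, (ambset A (Kwin A Dd h Z σ (js β) β.2) β.2).card * L ≤
        2 * σ * ∑ j' ∈ (Finset.range (n / σ + 1)).filter
          (fun j' => j' / q = β.1 ∧ t ≤ (Kwin A Dd h Z σ j' β.2).card),
          (ambset A (Kwin A Dd h Z σ j' β.2) β.2).card) :
    (BB.biUnion (fun β => ambset A (Kwin A Dd h Z σ (js β) β.2) β.2)).card * L * t ^ 2 ≤
      128 * σ * (Z.card * (2 * σ ^ 2 * n + v)) := by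
  classical
  set amb : ℕ → Fin n → ℕ := fun j a => (ambset A (Kwin A Dd h Z σ j a) a).card with hamb
  set W : ℕ → Fin n → ℕ := fun j a => ∑ c ∈ Finset.univ.filter (fun c : Fin n => c < a),
    ones A (Kwin A Dd h Z σ j a) c * zeros A (Kwin A Dd h Z σ j a) c with hW
  set F : ℕ × Fin n → Finset ℕ := fun β => (Finset.range (n / σ + 1)).filter
    (fun j' => j' / q = β.1 ∧ t ≤ (Kwin A Dd h Z σ j' β.2).card) with hF
  have step1 : (BB.biUnion (fun β => ambset A (Kwin A Dd h Z σ (js β) β.2) β.2)).card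
      ≤ ∑ β ∈ BB, amb (js β) β.2 := Finset.card_biUnion_le
  have step2 : ∀ β ∈ BB, amb (js β) β.2 * L * t ^ 2 ≤ 128 * σ * ∑ j' ∈ F β, W j' β.2 := by
    intro β hβ
    calc amb (js β) β.2 * L * t ^ 2 ≤ (2 * σ * ∑ j' ∈ F β, amb j' β.2) * t ^ 2 :=
          Nat.mul_le_mul_right _ (hjs β hβ)
      _ = 2 * σ * ∑ j' ∈ F β, amb j' β.2 * t ^ 2 := by rw [mul_assoc, Finset.sum_mul]
      _ ≤ 2 * σ * ∑ j' ∈ F β, 64 * W j' β.2 := by
          apply Nat.mul_le_mul_left
          apply Finset.sum_le_sum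
          intro j' hj'
          exact amb_le A _ β.2 t (Finset.mem_filter.mp hj').2.2
      _ = 128 * σ * ∑ j' ∈ F β, W j' β.2 := by rw [← Finset.mul_sum]; ring
  have step3 : ∑ β ∈ BB, ∑ j' ∈ F β, W j' β.2
      ≤ ∑ a ∈ Z, ∑ j' ∈ Finset.range (n / σ + 1), W j' a := by
    calc ∑ β ∈ BB, ∑ j' ∈ F β, W j' β.2
        = ∑ β ∈ BB, ∑ j' ∈ Finset.range (n / σ + 1),
            (if j' / q = β.1 ∧ t ≤ (Kwin A Dd h Z σ j' β.2).card then W j' β.2 else 0) := by
          apply Finset.sum_congr rfl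
          intro β _
          rw [hF, Finset.sum_filter]
      _ = ∑ j' ∈ Finset.range (n / σ + 1), ∑ β ∈ BB,
            (if j' / q = β.1 ∧ t ≤ (Kwin A Dd h Z σ j' β.2).card then W j' β.2 else 0) :=
          Finset.sum_comm
      _ ≤ ∑ j' ∈ Finset.range (n / σ + 1), ∑ β ∈ BB,
            (if β.1 = j' / q then W j' β.2 else 0) := by
          apply Finset.sum_le_sum
          intro j' _
          apply Finset.sum_le_sum
          intro β _
          by_cases h1 : j' / q = β.1 ∧ t ≤ (Kwin A Dd h Z σ j' β.2).card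
          · rw [if_pos h1, if_pos h1.1.symm]
          · rw [if_neg h1]; exact Nat.zero_le _
      _ = ∑ j' ∈ Finset.range (n / σ + 1), ∑ β ∈ BB.filter (fun β => β.1 = j' / q), W j' β.2 := by
          apply Finset.sum_congr rfl
          intro j' _
          rw [Finset.sum_filter]
      _ ≤ ∑ j' ∈ Finset.range (n / σ + 1), ∑ a ∈ Z, W j' a := by
          apply Finset.sum_le_sum
          intro j' _
          exact sum_fst_eq_le BB Z hBB (j' / q) (W j')
      _ = ∑ a ∈ Z, ∑ j' ∈ Finset.range (n / σ + 1), W j' a := Finset.sum_comm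
  have step4 : ∀ a ∈ Z, ∑ j' ∈ Finset.range (n / σ + 1), W j' a ≤ 2 * σ ^ 2 * n + v := by
    intro a ha
    rw [hW, Finset.sum_comm]
    exact (drift_anchor_sum A Dd h Z σ hσ a).trans (Nat.add_le_add_left (hZ a ha) _)
  calc (BB.biUnion (fun β => ambset A (Kwin A Dd h Z σ (js β) β.2) β.2)).card * L * t ^ 2
      ≤ (∑ β ∈ BB, amb (js β) β.2) * L * t ^ 2 :=
        Nat.mul_le_mul_right _ (Nat.mul_le_mul_right _ step1)
    _ = ∑ β ∈ BB, amb (js β) β.2 * L * t ^ 2 := by rw [Finset.sum_mul, Finset.sum_mul]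
    _ ≤ ∑ β ∈ BB, 128 * σ * ∑ j' ∈ F β, W j' β.2 := Finset.sum_le_sum step2
    _ = 128 * σ * ∑ β ∈ BB, ∑ j' ∈ F β, W j' β.2 := by rw [← Finset.mul_sum]
    _ ≤ 128 * σ * ∑ a ∈ Z, ∑ j' ∈ Finset.range (n / σ + 1), W j' a :=
        Nat.mul_le_mul_left _ step3
    _ ≤ 128 * σ * ∑ _a ∈ Z, (2 * σ ^ 2 * n + v) :=
        Nat.mul_le_mul_left _ (Finset.sum_le_sum step4)
    _ = 128 * σ * (Z.card * (2 * σ ^ 2 * n + v)) := by rw [Finset.sum_const, smul_eq_mul]

/-- one class, one column: the rows of the class `C` disagreeing with the majority value on a core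
`K ⊆ C` with at least `t` rows -/
theorem class_cost (A : Fin n → Fin n → Bool) (C K : Finset (Fin n)) (a c : Fin n) (t : ℕ)
    (hKC : K ⊆ C) (ht : t ≤ K.card) (hca : c < a) :
    (C.filter (fun r => A r c ≠ vrow A K a c)).card * t ≤ 2 * (ones A C c * zeros A C c) := by
  have ho : ones A K c ≤ ones A C c := Finset.card_le_card (Finset.filter_subset_filter _ hKC)
  have hz : zeros A K c ≤ zeros A C c := Finset.card_le_card (Finset.filter_subset_filter _ hKC)
  have hoz := ones_add_zeros A K c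
  by_cases hm : K.card < 2 * ones A K c
  · have hv : vrow A K a c = true := by
      unfold vrow
      rw [if_pos hca]
      exact decide_eq_true hm
    have hcard : (C.filter (fun r => A r c ≠ vrow A K a c)).card = zeros A C c := by
      unfold zeros
      congr 1
      apply Finset.filter_congr
      intro r _
      rw [hv]
      simp
    rw [hcard]
    calc zeros A C c * t ≤ zeros A C c * (2 * ones A C c) :=
          Nat.mul_le_mul_left _ (by omega)
      _ = 2 * (ones A C c * zeros A C c) := by ring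
  · have hv : vrow A K a c = false := by
      unfold vrow
      rw [if_pos hca]
      exact decide_eq_false hm
    have hcard : (C.filter (fun r => A r c ≠ vrow A K a c)).card = ones A C c := by
      unfold ones
      congr 1
      apply Finset.filter_congr
      intro r _
      rw [hv]
      simp
    rw [hcard]
    calc ones A C c * t ≤ ones A C c * (2 * zeros A C c) :=
          Nat.mul_le_mul_left _ (by omega)
      _ = 2 * (ones A C c * zeros A C c) := by ring

/-- total cost, left of the anchors, of replacing the rows of the big classes by the virtual rows -/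
theorem xcost_total (A : Fin n → Fin n → Bool) (Dd : Finset (Fin n)) (h : ℕ) (Z : Finset (Fin n))
    (σ q t v : ℕ) (hσ : 0 < σ) (hq : 0 < q) (hZ : ∀ a ∈ Z, Nright A a ≤ v)
    (BB : Finset (ℕ × Fin n)) (hBB : ∀ β ∈ BB, β.1 < n / (σ * q) + 1 ∧ β.2 ∈ Z) (js : ℕ × Fin n → ℕ)
    (hjs : ∀ β ∈ BB, js β / q = β.1 ∧ t ≤ (Kwin A Dd h Z σ (js β) β.2).card) :
    (∑ β ∈ BB, ∑ c ∈ Finset.univ.filter (fun c : Fin n => c < β.2),
      ((Kwin A Dd h Z (σ * q) β.1 β.2).filter
        (fun r => A r c ≠ vrow A (Kwin A Dd h Z σ (js β) β.2) β.2 c)).card) * t ≤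
      2 * (Z.card * (2 * (σ * q) ^ 2 * n + v)) := by
  classical
  set W : ℕ → Fin n → ℕ := fun l a => ∑ c ∈ Finset.univ.filter (fun c : Fin n => c < a),
    ones A (Kwin A Dd h Z (σ * q) l a) c * zeros A (Kwin A Dd h Z (σ * q) l a) c with hW
  have step1 : ∀ β ∈ BB, (∑ c ∈ Finset.univ.filter (fun c : Fin n => c < β.2),
      ((Kwin A Dd h Z (σ * q) β.1 β.2).filter
        (fun r => A r c ≠ vrow A (Kwin A Dd h Z σ (js β) β.2) β.2 c)).card) * t
      ≤ 2 * W β.1 β.2 := by
    intro β hβ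
    rw [Finset.sum_mul, hW, Finset.mul_sum]
    apply Finset.sum_le_sum
    intro c hc
    exact class_cost A _ _ β.2 c t (Kwin_subset A Dd h Z σ q (js β) β.1 β.2 (hjs β hβ).1)
      (hjs β hβ).2 (Finset.mem_filter.mp hc).2
  have step2 : ∑ β ∈ BB, W β.1 β.2
      ≤ ∑ a ∈ Z, ∑ l ∈ Finset.range (n / (σ * q) + 1), W l a := by
    calc ∑ β ∈ BB, W β.1 β.2
        ≤ ∑ β ∈ Finset.range (n / (σ * q) + 1) ×ˢ Z, W β.1 β.2 := by
          apply Finset.sum_le_sum_of_subset
          intro β hβ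
          exact Finset.mem_product.mpr ⟨Finset.mem_range.mpr (hBB β hβ).1, (hBB β hβ).2⟩
      _ = ∑ l ∈ Finset.range (n / (σ * q) + 1), ∑ a ∈ Z, W l a := Finset.sum_product _ _ _
      _ = ∑ a ∈ Z, ∑ l ∈ Finset.range (n / (σ * q) + 1), W l a := Finset.sum_comm
  have step3 : ∀ a ∈ Z, ∑ l ∈ Finset.range (n / (σ * q) + 1), W l a
      ≤ 2 * (σ * q) ^ 2 * n + v := by
    intro a ha
    rw [hW, Finset.sum_comm]
    exact (drift_anchor_sum A Dd h Z (σ * q) (Nat.mul_pos hσ hq) a).trans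
      (Nat.add_le_add_left (hZ a ha) _)
  calc (∑ β ∈ BB, ∑ c ∈ Finset.univ.filter (fun c : Fin n => c < β.2),
      ((Kwin A Dd h Z (σ * q) β.1 β.2).filter
        (fun r => A r c ≠ vrow A (Kwin A Dd h Z σ (js β) β.2) β.2 c)).card) * t
      = ∑ β ∈ BB, (∑ c ∈ Finset.univ.filter (fun c : Fin n => c < β.2),
      ((Kwin A Dd h Z (σ * q) β.1 β.2).filter
        (fun r => A r c ≠ vrow A (Kwin A Dd h Z σ (js β) β.2) β.2 c)).card) * t := by
        rw [Finset.sum_mul]
    _ ≤ ∑ β ∈ BB, 2 * W β.1 β.2 := Finset.sum_le_sum step1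
    _ = 2 * ∑ β ∈ BB, W β.1 β.2 := by rw [← Finset.mul_sum]
    _ ≤ 2 * ∑ a ∈ Z, ∑ l ∈ Finset.range (n / (σ * q) + 1), W l a := Nat.mul_le_mul_left _ step2
    _ ≤ 2 * ∑ _a ∈ Z, (2 * (σ * q) ^ 2 * n + v) :=
        Nat.mul_le_mul_left _ (Finset.sum_le_sum step3)
    _ = 2 * (Z.card * (2 * (σ * q) ^ 2 * n + v)) := by rw [Finset.sum_const, smul_eq_mul]

/-- a set of entries with at most `h` entries in every row has at most `h * n` elements -/
theorem card_rows_le (p : Fin n × Fin n → Prop) [DecidablePred p] (h : ℕ)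
    (hp : ∀ r, (Finset.univ.filter (fun c : Fin n => p (r, c))).card ≤ h) :
    (Finset.univ.filter p).card ≤ h * n := by
  rw [card_filter_prod p]
  calc ∑ a : Fin n, (Finset.univ.filter (fun b : Fin n => p (a, b))).card
      ≤ ∑ _a : Fin n, h := Finset.sum_le_sum (fun a _ => hp a)
    _ = h * n := by simp [Nat.mul_comm]

/-- entries of the rows outside `Rbig` -/
theorem vc_S1 (A : Fin n → Fin n → Bool) (Dd : Finset (Fin n)) (h : ℕ) :
    (Finset.univ.filter (fun y : Fin n × Fin n =>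
      y.1 ∉ Rbig A Dd h ∧ y.2 ∉ Dd ∧ A y.1 y.2 = true)).card ≤ h * n := by
  apply card_rows_le
  intro r
  dsimp only
  by_cases hr : r ∈ Rbig A Dd h
  · have : (Finset.univ.filter (fun c : Fin n => r ∉ Rbig A Dd h ∧ c ∉ Dd ∧ A r c = true)) = ∅ := by
      apply Finset.filter_eq_empty_iff.mpr
      intro c _ hc
      exact hc.1 hr
    rw [this]
    simp
  · have h1 : ¬ h ≤ (Finset.univ.filter (fun c : Fin n => c ∉ Dd ∧ A r c = true)).card := by
      intro hc
      apply hr
      unfold Rbig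
      simp only [Finset.mem_filter, Finset.mem_univ, true_and]
      exact hc
    have h2 : (Finset.univ.filter (fun c : Fin n => r ∉ Rbig A Dd h ∧ c ∉ Dd ∧ A r c = true)).card ≤
        (Finset.univ.filter (fun c : Fin n => c ∉ Dd ∧ A r c = true)).card := by
      apply Finset.card_le_card
      intro c hc
      simp only [Finset.mem_filter, Finset.mem_univ, true_and] at hc ⊢
      exact hc.2
    omega

open Classical in
/-- ones to the right of the anchor -/
theorem vc_S4 (A : Fin n → Fin n → Bool) (Dd : Finset (Fin n)) (h : ℕ) (Z : Finset (Fin n)) :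
    (Finset.univ.filter (fun y : Fin n × Fin n =>
      ∃ a, att A Dd h Z y.1 a ∧ a < y.2 ∧ y.2 ∉ Dd ∧ A y.1 y.2 = true)).card ≤ h * n := by
  apply card_rows_le
  intro r
  dsimp only
  by_cases hr : ∃ a, att A Dd h Z r a
  · obtain ⟨a, ha⟩ := hr
    have h2 : (Finset.univ.filter (fun c : Fin n =>
        ∃ a, att A Dd h Z r a ∧ a < c ∧ c ∉ Dd ∧ A r c = true)).card ≤ gtail A Dd r a := by
      unfold gtail
      apply Finset.card_le_card
      intro c hc
      simp only [Finset.mem_filter, Finset.mem_univ, true_and] at hc ⊢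
      obtain ⟨a', ha', h3⟩ := hc
      rw [att_unique ha ha']
      exact h3
    have h3 := ha.2.2.2
    omega
  · have : (Finset.univ.filter (fun c : Fin n =>
        ∃ a, att A Dd h Z r a ∧ a < c ∧ c ∉ Dd ∧ A r c = true)) = ∅ := by
      apply Finset.filter_eq_empty_iff.mpr
      intro c _ hc
      obtain ⟨a, ha, _⟩ := hc
      exact hr ⟨a, ha⟩
    rw [this]
    simp

/-- the rows of the small classes -/
noncomputable def smallRows (A : Fin n → Fin n → Bool) (Dd : Finset (Fin n)) (h : ℕ)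
    (Z : Finset (Fin n)) (s L : ℕ) : Finset (Fin n) :=
  (((Finset.range (n / s + 1)) ×ˢ Z).filter
    (fun β => (Kwin A Dd h Z s β.1 β.2).card < L)).biUnion (fun β => Kwin A Dd h Z s β.1 β.2)

theorem smallRows_card (A : Fin n → Fin n → Bool) (Dd : Finset (Fin n)) (h : ℕ)
    (Z : Finset (Fin n)) (s L : ℕ) :
    (smallRows A Dd h Z s L).card ≤ (n / s + 1) * Z.card * L := by
  unfold smallRows
  refine Finset.card_biUnion_le.trans ?_
  calc ∑ β ∈ ((Finset.range (n / s + 1)) ×ˢ Z).filter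
        (fun β => (Kwin A Dd h Z s β.1 β.2).card < L), (Kwin A Dd h Z s β.1 β.2).card
      ≤ ∑ _β ∈ ((Finset.range (n / s + 1)) ×ˢ Z).filter
        (fun β => (Kwin A Dd h Z s β.1 β.2).card < L), L := by
        apply Finset.sum_le_sum
        intro β hβ
        exact (Finset.mem_filter.mp hβ).2.le
    _ = (((Finset.range (n / s + 1)) ×ˢ Z).filter
        (fun β => (Kwin A Dd h Z s β.1 β.2).card < L)).card * L := by simp
    _ ≤ ((Finset.range (n / s + 1)) ×ˢ Z).card * L :=
        Nat.mul_le_mul_right _ (Finset.card_le_card (Finset.filter_subset _ _))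
    _ = (n / s + 1) * Z.card * L := by simp [Finset.card_product]

/-- the entries counted by `xcost_total` -/
noncomputable def xset (A : Fin n → Fin n → Bool) (Dd : Finset (Fin n)) (h : ℕ)
    (Z : Finset (Fin n)) (σ q : ℕ) (BB : Finset (ℕ × Fin n)) (js : ℕ × Fin n → ℕ) :
    Finset (Fin n × Fin n) :=
  BB.biUnion (fun β => (Finset.univ.filter (fun c : Fin n => c < β.2)).biUnion (fun c =>
    ((Kwin A Dd h Z (σ * q) β.1 β.2).filter
      (fun r => A r c ≠ vrow A (Kwin A Dd h Z σ (js β) β.2) β.2 c)).image (fun r => (r, c))))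

theorem xset_card (A : Fin n → Fin n → Bool) (Dd : Finset (Fin n)) (h : ℕ)
    (Z : Finset (Fin n)) (σ q : ℕ) (BB : Finset (ℕ × Fin n)) (js : ℕ × Fin n → ℕ) :
    (xset A Dd h Z σ q BB js).card ≤
      ∑ β ∈ BB, ∑ c ∈ Finset.univ.filter (fun c : Fin n => c < β.2),
      ((Kwin A Dd h Z (σ * q) β.1 β.2).filter
        (fun r => A r c ≠ vrow A (Kwin A Dd h Z σ (js β) β.2) β.2 c)).card := by
  unfold xset
  refine Finset.card_biUnion_le.trans ?_
  apply Finset.sum_le_sum
  intro β _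
  refine Finset.card_biUnion_le.trans ?_
  apply Finset.sum_le_sum
  intro c _
  exact Finset.card_image_le

open Classical in
theorem vc_cover (A : Fin n → Fin n → Bool) (Dd : Finset (Fin n)) (h : ℕ) (Z : Finset (Fin n))
    (σ q L : ℕ)
    (BB : Finset (ℕ × Fin n))
    (hBB : ∀ β, β ∈ BB ↔ (β.1 < n / (σ * q) + 1 ∧ β.2 ∈ Z ∧
      L ≤ (Kwin A Dd h Z (σ * q) β.1 β.2).card))
    (js : ℕ × Fin n → ℕ)
    (V : Fin n → Fin n → Bool)
    (hV1 : ∀ r, ∀ β ∈ BB, r.val / (σ * q) = β.1 → att A Dd h Z r β.2 →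
      V r = vrow A (Kwin A Dd h Z σ (js β) β.2) β.2)
    (hV2 : ∀ r, (∀ β ∈ BB, ¬ (r.val / (σ * q) = β.1 ∧ att A Dd h Z r β.2)) → V r = fun _ => false) :
    (Finset.univ.filter (fun y : Fin n × Fin n => y.2 ∉ Dd ∧ A y.1 y.2 ≠ V y.1 y.2)) ⊆
      (Finset.univ.filter (fun y : Fin n × Fin n =>
        y.1 ∉ Rbig A Dd h ∧ y.2 ∉ Dd ∧ A y.1 y.2 = true)) ∪
      (((Rbig A Dd h).filter (fun r => ∀ e ∈ Z, ¬ ghit A Dd h r e)) ×ˢ Finset.univ) ∪
      ((smallRows A Dd h Z (σ * q) L) ×ˢ Finset.univ) ∪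
      (Finset.univ.filter (fun y : Fin n × Fin n =>
        ∃ a, att A Dd h Z y.1 a ∧ a < y.2 ∧ y.2 ∉ Dd ∧ A y.1 y.2 = true)) ∪
      xset A Dd h Z σ q BB js := by
  rintro ⟨r, c⟩ hy
  simp only [Finset.mem_filter, Finset.mem_univ, true_and] at hy
  obtain ⟨hcD, hne⟩ := hy
  simp only [Finset.mem_union, Finset.mem_filter, Finset.mem_univ, true_and, Finset.mem_product,
    and_true]
  by_cases hex : ∃ β ∈ BB, r.val / (σ * q) = β.1 ∧ att A Dd h Z r β.2
  · obtain ⟨β, hβ, h1, h2⟩ := hex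
    have hVr := hV1 r β hβ h1 h2
    rw [hVr] at hne
    rcases lt_trichotomy c β.2 with hlt | heq | hgt
    · right
      unfold xset
      simp only [Finset.mem_biUnion, Finset.mem_filter, Finset.mem_univ, true_and,
        Finset.mem_image]
      refine ⟨β, hβ, c, hlt, r, ⟨?_, hne⟩, rfl⟩
      unfold Kwin
      simp only [Finset.mem_filter, Finset.mem_univ, true_and]
      exact ⟨h1, h2⟩
    · exfalso
      apply hne
      unfold vrow
      rw [heq]
      simp [h2.2.1]
    · left; right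
      refine ⟨β.2, h2, hgt, hcD, ?_⟩
      have h3 : vrow A (Kwin A Dd h Z σ (js β) β.2) β.2 c = false := by
        unfold vrow
        rw [if_neg (not_lt.mpr hgt.le)]
        simp [hgt.ne']
      rw [h3] at hne
      simpa using hne
  · have hex' : ∀ β ∈ BB, ¬ (r.val / (σ * q) = β.1 ∧ att A Dd h Z r β.2) := by
      intro β hβ hc
      exact hex ⟨β, hβ, hc⟩
    have hVr := hV2 r hex'
    rw [hVr] at hne
    have hA : A r c = true := by simpa using hne
    by_cases hR : r ∈ Rbig A Dd h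
    · by_cases hun : ∀ e ∈ Z, ¬ ghit A Dd h r e
      · left; left; left; right
        exact ⟨hR, hun⟩
      · push Not at hun
        obtain ⟨e, he, hge⟩ := hun
        obtain ⟨a, ha⟩ := exists_att he hge
        left; left; right
        unfold smallRows
        simp only [Finset.mem_biUnion, Finset.mem_filter, Finset.mem_product, Finset.mem_range]
        refine ⟨(r.val / (σ * q), a), ⟨⟨strip_lt r, ha.1⟩, ?_⟩, ?_⟩
        · by_contra hc
          have hmem : ((r.val / (σ * q), a) : ℕ × Fin n) ∈ BB :=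
            (hBB _).mpr ⟨strip_lt r, ha.1, not_lt.mp hc⟩
          exact hex' _ hmem ⟨rfl, ha⟩
        · unfold Kwin
          simp only [Finset.mem_filter, Finset.mem_univ, true_and]
          exact ha
    · left; left; left; left
      exact ⟨hR, hcD, hA⟩

open Classical in
/-- total cost of passing from `A` to a matrix `V` made of the virtual rows of the big classes -/
theorem vcost_le (A : Fin n → Fin n → Bool) (Dd : Finset (Fin n)) (h μ : ℕ) (Z : Finset (Fin n))
    (σ q L t v : ℕ) (hσ : 0 < σ) (hq : 0 < q) (hZ : ∀ a ∈ Z, Nright A a ≤ v)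
    (hun : ((Rbig A Dd h).filter (fun r => ∀ e ∈ Z, ¬ ghit A Dd h r e)).card ≤ μ)
    (BB : Finset (ℕ × Fin n))
    (hBB : ∀ β, β ∈ BB ↔ (β.1 < n / (σ * q) + 1 ∧ β.2 ∈ Z ∧
      L ≤ (Kwin A Dd h Z (σ * q) β.1 β.2).card))
    (js : ℕ × Fin n → ℕ)
    (hjs : ∀ β ∈ BB, js β / q = β.1 ∧ t ≤ (Kwin A Dd h Z σ (js β) β.2).card)
    (V : Fin n → Fin n → Bool)
    (hV1 : ∀ r, ∀ β ∈ BB, r.val / (σ * q) = β.1 → att A Dd h Z r β.2 →
      V r = vrow A (Kwin A Dd h Z σ (js β) β.2) β.2)
    (hV2 : ∀ r, (∀ β ∈ BB, ¬ (r.val / (σ * q) = β.1 ∧ att A Dd h Z r β.2)) → V r = fun _ => false) :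
    ∃ x : ℕ, x * t ≤ 2 * (Z.card * (2 * (σ * q) ^ 2 * n + v)) ∧
      (Finset.univ.filter (fun y : Fin n × Fin n => y.2 ∉ Dd ∧ A y.1 y.2 ≠ V y.1 y.2)).card ≤
        2 * h * n + μ * n + (n / (σ * q) + 1) * Z.card * L * n + x := by
  refine ⟨_, xcost_total A Dd h Z σ q t v hσ hq hZ BB
    (fun β hβ => ⟨((hBB β).mp hβ).1, ((hBB β).mp hβ).2.1⟩) js hjs, ?_⟩
  refine (Finset.card_le_card (vc_cover A Dd h Z σ q L BB hBB js V hV1 hV2)).trans ?_
  have e1 := vc_S1 A Dd h
  have e4 := vc_S4 A Dd h Z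
  have e5 := xset_card A Dd h Z σ q BB js
  have e2 : (((Rbig A Dd h).filter (fun r => ∀ e ∈ Z, ¬ ghit A Dd h r e)) ×ˢ
      (Finset.univ : Finset (Fin n))).card ≤ μ * n := by
    rw [Finset.card_product]
    simpa using Nat.mul_le_mul_right n hun
  have e3 : ((smallRows A Dd h Z (σ * q) L) ×ˢ (Finset.univ : Finset (Fin n))).card ≤
      (n / (σ * q) + 1) * Z.card * L * n := by
    rw [Finset.card_product]
    simpa using Nat.mul_le_mul_right n (smallRows_card A Dd h Z (σ * q) L)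
  refine (Finset.card_union_le _ _).trans ?_
  refine (Nat.add_le_add_right (Finset.card_union_le _ _) _).trans ?_
  refine (Nat.add_le_add_right (Nat.add_le_add_right (Finset.card_union_le _ _) _) _).trans ?_
  refine (Nat.add_le_add_right (Nat.add_le_add_right (Nat.add_le_add_right
    (Finset.card_union_le _ _) _) _) _).trans ?_
  have e6 : 2 * h * n = h * n + h * n := by ring
  omega

end Vale.Agent.P037
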