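import Vale.Agent.P037.Defs
import Vale.Agent.P037.Count

/-!
# P037: the pattern `[[0,1],[1,1]]`, basic definitions
-/

namespace Vale.Agent.P037

open Finset

variable {n : ℕ}

/-- Copies of the pattern `[[0,1],[1,1]]` as quadruples `((c1,c2),(r1,r2))`. -/
def gquads (A : Fin n → Fin n → Bool) : Finset ((Fin n × Fin n) × (Fin n × Fin n)) :=
  Finset.univ.filter (fun x => x.1.1 < x.1.2 ∧ x.2.1 < x.2.2 ∧ A x.2.1 x.1.1 = false ∧
    A x.2.1 x.1.2 = true ∧ A x.2.2 x.1.1 = true ∧ A x.2.2 x.1.2 = true)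

/-- `B` has no copy of `[[0,1],[1,1]]`. -/
def GFree (B : Fin n → Fin n → Bool) : Prop :=
  ∀ r1 r2 c1 c2 : Fin n, r1 < r2 → c1 < c2 → B r1 c1 = false → B r1 c2 = true →
    B r2 c1 = true → B r2 c2 = true → False

/-- number of copies on the columns `c, e` (the condition `c < e` is not included) -/
def cpair (A : Fin n → Fin n → Bool) (c e : Fin n) : ℕ :=
  (Finset.univ.filter (fun x : Fin n × Fin n => x.1 < x.2 ∧ A x.1 c = false ∧ A x.1 e = true ∧
    A x.2 c = true ∧ A x.2 e = true)).card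

/-- number of copies whose right column is `e` -/
def Nright (A : Fin n → Fin n → Bool) (e : Fin n) : ℕ :=
  ∑ c ∈ Finset.univ.filter (fun c : Fin n => c < e), cpair A c e

theorem gquads_card (A : Fin n → Fin n → Bool) :
    (gquads A).card = ∑ q : Fin n × Fin n, if q.1 < q.2 then cpair A q.1 q.2 else 0 := by
  unfold gquads
  rw [card_filter_prod]
  apply Finset.sum_congr rfl
  intro q _
  by_cases hq : q.1 < q.2
  · rw [if_pos hq]
    unfold cpair
    congr 1
    ext x
    simp [hq]
  · rw [if_neg hq]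
    simp [hq]

theorem sum_Nright (A : Fin n → Fin n → Bool) : ∑ e : Fin n, Nright A e = (gquads A).card := by
  rw [gquads_card, Fintype.sum_prod_type, Finset.sum_comm]
  apply Finset.sum_congr rfl
  intro e _
  unfold Nright
  rw [Finset.sum_filter]

/-- columns that are the right column of more than `v` copies -/
def Dt (A : Fin n → Fin n → Bool) (v : ℕ) : Finset (Fin n) :=
  Finset.univ.filter (fun e => v < Nright A e)

theorem Dt_card (A : Fin n → Fin n → Bool) (v : ℕ) : (Dt A v).card * v ≤ (gquads A).card := by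
  rw [← sum_Nright]
  calc (Dt A v).card * v = ∑ _e ∈ Dt A v, v := by simp
    _ ≤ ∑ e ∈ Dt A v, Nright A e := by
        apply Finset.sum_le_sum
        intro e he
        exact (Finset.mem_filter.mp he).2.le
    _ ≤ ∑ e : Fin n, Nright A e := by
        apply Finset.sum_le_sum_of_subset
        exact Finset.filter_subset _ _

/-- many rows of both kinds on a product set of column pairs give many copies -/
theorem gquads_of_robust (A : Fin n → Fin n → Bool) (C1 C2 : Finset (Fin n)) (g m : ℕ) (x y : Fin n)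
    (hxy : x < y) (hC1 : g ≤ C1.card) (hC2 : g ≤ C2.card)
    (h : ∀ c ∈ C1, ∀ e ∈ C2, c < e ∧
      m ≤ (Finset.univ.filter (fun r : Fin n => r ≤ x ∧ A r c = false ∧ A r e = true)).card ∧
      m ≤ (Finset.univ.filter (fun r : Fin n => y ≤ r ∧ A r c = true ∧ A r e = true)).card) :
    g ^ 2 * m ^ 2 ≤ (gquads A).card := by
  classical
  rw [gquads_card]
  have hfib : ∀ q ∈ C1 ×ˢ C2, m ^ 2 ≤ (if q.1 < q.2 then cpair A q.1 q.2 else 0) := by
    intro q hq
    rw [Finset.mem_product] at hq
    obtain ⟨hlt, h1, h2⟩ := h q.1 hq.1 q.2 hq.2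
    rw [if_pos hlt]
    unfold cpair
    calc m ^ 2 = m * m := sq m
      _ ≤ (Finset.univ.filter (fun r : Fin n => r ≤ x ∧ A r q.1 = false ∧ A r q.2 = true)).card *
          (Finset.univ.filter (fun r : Fin n => y ≤ r ∧ A r q.1 = true ∧ A r q.2 = true)).card :=
          Nat.mul_le_mul h1 h2
      _ = ((Finset.univ.filter (fun r : Fin n => r ≤ x ∧ A r q.1 = false ∧ A r q.2 = true)) ×ˢ
          (Finset.univ.filter (fun r : Fin n => y ≤ r ∧ A r q.1 = true ∧ A r q.2 = true))).card :=
          (Finset.card_product _ _).symm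
      _ ≤ _ := by
          apply Finset.card_le_card
          intro z hz
          simp only [Finset.mem_product, Finset.mem_filter, Finset.mem_univ, true_and] at hz ⊢
          obtain ⟨⟨ha, hb, hc⟩, hd, he, hf⟩ := hz
          exact ⟨lt_of_le_of_lt ha (lt_of_lt_of_le hxy hd), hb, hc, he, hf⟩
  calc g ^ 2 * m ^ 2 = g * g * m ^ 2 := by ring
    _ ≤ C1.card * C2.card * m ^ 2 := Nat.mul_le_mul_right _ (Nat.mul_le_mul hC1 hC2)
    _ = ∑ _q ∈ C1 ×ˢ C2, m ^ 2 := by simp [Finset.card_product]
    _ ≤ ∑ q ∈ C1 ×ˢ C2, (if q.1 < q.2 then cpair A q.1 q.2 else 0) := Finset.sum_le_sum hfib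
    _ ≤ ∑ q : Fin n × Fin n, (if q.1 < q.2 then cpair A q.1 q.2 else 0) := by
        apply Finset.sum_le_sum_of_subset
        exact Finset.subset_univ _

end Vale.Agent.P037
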