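import Vale.Agent.P037.GClosure

/-!
# P037: an ordered `[[0,1],[1,1]]`-free family can be made free under reordering inside groups
-/

namespace Vale.Agent.P037

open Finset

/-- cutting lemma: if fewer than `k^2` pairs `(c, e) ∈ E × X` satisfy `c < e`, then below a suitable
threshold `E` has fewer than `k` elements while at most `k` elements of `X` are not below it -/
theorem exists_cut {n : ℕ} (E X : Finset (Fin n)) (k : ℕ) (hk : 0 < k)
    (h : ((E ×ˢ X).filter (fun x => x.1 < x.2)).card < k ^ 2) :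
    ∃ y : ℕ, (E.filter (fun c => c.val < y)).card ≤ k ∧ (X.filter (fun e => y ≤ e.val)).card ≤ k := by
  classical
  have hex : ∃ y : ℕ, (X.filter (fun e => y ≤ e.val)).card ≤ k := by
    refine ⟨n, ?_⟩
    rw [Finset.filter_false_of_mem]
    · simp
    · intro e _
      exact not_le.mpr e.isLt
  have hy0P : (X.filter (fun e => Nat.find hex ≤ e.val)).card ≤ k := Nat.find_spec hex
  have hmin : ∀ y, y < Nat.find hex → ¬ (X.filter (fun e => y ≤ e.val)).card ≤ k :=
    fun y hy => Nat.find_min hex hy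
  obtain ⟨y0, hy0⟩ : ∃ y0, y0 = Nat.find hex := ⟨_, rfl⟩
  rw [← hy0] at hy0P hmin
  refine ⟨y0, ?_, hy0P⟩
  rcases Nat.eq_zero_or_pos y0 with h0 | hpos
  · rw [h0]
    simp
  · obtain ⟨y1, hy1⟩ : ∃ y1, y0 = y1 + 1 := ⟨y0 - 1, by omega⟩
    have hnot : ¬ (X.filter (fun e => y1 ≤ e.val)).card ≤ k := hmin y1 (by omega)
    have hsub : X.filter (fun e => y1 ≤ e.val)
        ⊆ X.filter (fun e => y0 ≤ e.val) ∪ X.filter (fun e => e.val = y1) := by
      intro e he
      simp only [mem_filter, mem_union] at he ⊢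
      by_cases h1 : e.val = y1
      · right
        exact ⟨he.1, h1⟩
      · left
        exact ⟨he.1, by omega⟩
    have hone : (X.filter (fun e => e.val = y1)).card ≤ 1 := by
      rw [Finset.card_le_one]
      intro a ha b hb
      simp only [mem_filter] at ha hb
      exact Fin.ext (ha.2.trans hb.2.symm)
    have hk' : k ≤ (X.filter (fun e => y0 ≤ e.val)).card := by
      have := (Finset.card_le_card hsub).trans (Finset.card_union_le _ _)
      omega
    have hprod : (E.filter (fun c => c.val < y0)) ×ˢ (X.filter (fun e => y0 ≤ e.val))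
        ⊆ (E ×ˢ X).filter (fun x => x.1 < x.2) := by
      intro p hp
      simp only [mem_product, mem_filter] at hp ⊢
      exact ⟨⟨hp.1.1, hp.2.1⟩, Fin.lt_def.mpr (lt_of_lt_of_le hp.1.2 hp.2.2)⟩
    have hc := Finset.card_le_card hprod
    rw [Finset.card_product] at hc
    by_contra hcon
    push Not at hcon
    have h2 := Nat.mul_le_mul hcon.le hk'
    nlinarith

open Classical in
/-- the pairs of columns on which `0 1` is read for the first time in group `l` -/
noncomputable def NN {ι : Type*} {n : ℕ} (X : ι → Finset (Fin n)) (grp : ι → ℕ) (l : ℕ) :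
    Finset (Fin n × Fin n) :=
  univ.filter (fun p => p.1 < p.2 ∧ (∃ i, grp i = l ∧ p.1 ∉ X i ∧ p.2 ∈ X i) ∧
    ∀ i', grp i' < l → ¬ (p.1 ∉ X i' ∧ p.2 ∈ X i'))

theorem NN_disjoint_of_lt {ι : Type*} {n : ℕ} (X : ι → Finset (Fin n)) (grp : ι → ℕ) {l l' : ℕ}
    (h : l < l') : Disjoint (NN X grp l) (NN X grp l') := by
  rw [Finset.disjoint_left]
  intro p hp hp'
  simp only [NN, mem_filter, mem_univ, true_and] at hp hp'
  obtain ⟨i, hi, h1, h2⟩ := hp.2.1
  exact hp'.2.2 i (by omega) ⟨h1, h2⟩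

theorem NN_disjoint {ι : Type*} {n : ℕ} (X : ι → Finset (Fin n)) (grp : ι → ℕ) {l l' : ℕ}
    (h : l ≠ l') : Disjoint (NN X grp l) (NN X grp l') := by
  rcases lt_or_gt_of_ne h with h1 | h1
  · exact NN_disjoint_of_lt X grp h1
  · exact (NN_disjoint_of_lt X grp h1).symm

theorem card_bad_mul_le {ι : Type*} {n : ℕ} (X : ι → Finset (Fin n)) (grp : ι → ℕ) (k : ℕ)
    (S : Finset ℕ) (hS : ∀ l ∈ S, k ^ 2 ≤ (NN X grp l).card) : S.card * k ^ 2 ≤ n ^ 2 := by
  classical
  have h1 : (S.biUnion (NN X grp)).card = ∑ l ∈ S, (NN X grp l).card :=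
    Finset.card_biUnion fun l _ l' _ hne => NN_disjoint X grp hne
  have h2 : (S.biUnion (NN X grp)).card ≤ n ^ 2 := by
    have := Finset.card_le_univ (S.biUnion (NN X grp))
    simpa [sq] using this
  have h3 : S.card * k ^ 2 ≤ ∑ l ∈ S, (NN X grp l).card := by
    have := Finset.card_nsmul_le_sum S (fun l => (NN X grp l).card) (k ^ 2) hS
    simpa using this
  omega

/-- the new row for one row of a good group -/
theorem exists_row {ι : Type*} [Finite ι] {n : ℕ} (X : ι → Finset (Fin n))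
    (pos grp : ι → ℕ) (hpos : Function.Injective pos) (hgrp : ∀ i j, pos i < pos j → grp i ≤ grp j)
    (hfree : OrdFree X pos) (k : ℕ) (hk : 0 < k) (i : ι) (hi : (NN X grp (grp i)).card < k ^ 2) :
    ∃ Yi : Finset (Fin n),
      (Yi = ∅ ∨ ∃ m ∈ X i, ∃ y : ℕ, ∀ c, c ∈ Yi ↔ (GCl X pos grp (grp i) c m ∧ c.val < y)) ∧
      (symmDiff (X i) Yi).card ≤ 2 * k := by
  classical
  rcases (X i).eq_empty_or_nonempty with hXe | hXne
  · refine ⟨∅, Or.inl rfl, ?_⟩
    rw [hXe]
    simp
  set m := (X i).max' hXne with hm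
  have hmX : m ∈ X i := Finset.max'_mem _ _
  have hcl : ∀ e ∈ X i, GCl X pos grp (grp i) e m := by
    intro e he
    rcases (Finset.le_max' _ e he).eq_or_lt with h1 | h1
    · rw [← hm] at h1
      rw [h1]
      exact Relation.ReflTransGen.refl
    · exact Relation.ReflTransGen.single (GRel.of_mem hpos hfree rfl hmX he h1)
  set Cl : Finset (Fin n) := univ.filter (fun c => GCl X pos grp (grp i) c m) with hCl
  set E : Finset (Fin n) := Cl \ X i with hE
  have hpairs : ((E ×ˢ X i).filter (fun x => x.1 < x.2)) ⊆ NN X grp (grp i) := by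
    intro p hp
    simp only [hE, hCl, mem_filter, mem_product, mem_sdiff, mem_univ, true_and] at hp
    obtain ⟨⟨⟨hc1, hc2⟩, he⟩, hlt⟩ := hp
    simp only [NN, mem_filter, mem_univ, true_and]
    refine ⟨hlt, ⟨i, rfl, hc2, he⟩, ?_⟩
    rintro i' hi' ⟨h1, h2⟩
    exact h1 (GCl.mem_earlier hpos hgrp hfree (GCl.linear hpos hfree hc1 (hcl _ he) hlt) hi' h2)
  obtain ⟨y, hy1, hy2⟩ := exists_cut E (X i) k hk ((Finset.card_le_card hpairs).trans_lt hi)
  refine ⟨Cl.filter (fun c => c.val < y), Or.inr ⟨m, hmX, y, ?_⟩, ?_⟩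
  · intro c
    simp [hCl]
  · have hsub : symmDiff (X i) (Cl.filter (fun c => c.val < y))
        ⊆ (X i).filter (fun e => y ≤ e.val) ∪ E.filter (fun c => c.val < y) := by
      intro c hc
      rw [Finset.mem_symmDiff] at hc
      simp only [hE, hCl, mem_filter, mem_union, mem_sdiff, mem_univ, true_and] at hc ⊢
      rcases hc with ⟨h1, h2⟩ | ⟨h1, h2⟩
      · left
        refine ⟨h1, ?_⟩
        by_contra h3
        exact h2 ⟨hcl c h1, by omega⟩
      · right
        exact ⟨⟨h1.1, h2⟩, h1.2⟩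
    have := (Finset.card_le_card hsub).trans (Finset.card_union_le _ _)
    omega

theorem exists_regroup {ι : Type*} [Fintype ι] [DecidableEq ι] {n : ℕ} (X : ι → Finset (Fin n))
    (pos grp : ι → ℕ) (hpos : Function.Injective pos) (hgrp : ∀ i j, pos i < pos j → grp i ≤ grp j)
    (hfree : OrdFree X pos) (k : ℕ) (hk : 0 < k) :
    ∃ Y : ι → Finset (Fin n),
      (∀ i j, grp i ≤ grp j → ∀ c e : Fin n, c < e → ¬ (c ∉ Y i ∧ e ∈ Y i ∧ c ∈ Y j ∧ e ∈ Y j)) ∧
      (∀ i, ∀ c ∈ Y i, ∃ e ∈ X i, c ≤ e) ∧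
      ∃ bad : Finset ℕ, bad.card * k ^ 2 ≤ n ^ 2 ∧
        ∀ i, grp i ∉ bad → (symmDiff (X i) (Y i)).card ≤ 2 * k := by
  classical
  set bad : Finset ℕ := (univ.image grp).filter (fun l => k ^ 2 ≤ (NN X grp l).card) with hbad
  have hrow : ∀ i, ∃ Yi : Finset (Fin n),
      (Yi = ∅ ∨ ∃ m ∈ X i, ∃ y : ℕ, ∀ c, c ∈ Yi ↔ (GCl X pos grp (grp i) c m ∧ c.val < y)) ∧
      (grp i ∉ bad → (symmDiff (X i) Yi).card ≤ 2 * k) := by
    intro i
    by_cases hi : grp i ∈ bad
    · exact ⟨∅, Or.inl rfl, fun h => absurd hi h⟩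
    · have hi' : (NN X grp (grp i)).card < k ^ 2 := by
        by_contra h
        apply hi
        simp only [hbad, mem_filter, mem_image, mem_univ, true_and]
        exact ⟨⟨i, rfl⟩, not_lt.mp h⟩
      obtain ⟨Yi, h1, h2⟩ := exists_row X pos grp hpos hgrp hfree k hk i hi'
      exact ⟨Yi, h1, fun _ => h2⟩
  choose Y hY1 hY2 using hrow
  have hdesc : ∀ i, ∀ e ∈ Y i, ∃ m ∈ X i, ∃ y : ℕ,
      ∀ c, c ∈ Y i ↔ (GCl X pos grp (grp i) c m ∧ c.val < y) := by
    intro i e he
    rcases hY1 i with h | h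
    · rw [h] at he
      simp at he
    · exact h
  refine ⟨Y, ?_, ?_, bad, ?_, hY2⟩
  · rintro i j hij c e hce ⟨hci, hei, hcj, hej⟩
    obtain ⟨mi, hmi, yi, hYi⟩ := hdesc i e hei
    obtain ⟨mj, hmj, yj, hYj⟩ := hdesc j e hej
    have h1 : GCl X pos grp (grp j) c e :=
      GCl.linear hpos hfree ((hYj c).mp hcj).1 ((hYj e).mp hej).1 hce
    have hei' := (hYi e).mp hei
    have h2 : GCl X pos grp (grp i) c e := by
      rcases hij.eq_or_lt with h | h
      · rw [h]
        exact h1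
      · obtain ⟨i', hi', hei''⟩ := GCl.used hei'.1 rfl hmi
        exact GCl.mono_group hpos hgrp hfree h h1 hi' hei''
    apply hci
    rw [hYi c]
    refine ⟨h2.trans hei'.1, ?_⟩
    have : c.val < e.val := hce
    omega
  · intro i c hc
    obtain ⟨mi, hmi, yi, hYi⟩ := hdesc i c hc
    exact ⟨mi, hmi, GCl.le ((hYi c).mp hc).1⟩
  · apply card_bad_mul_le X grp k bad
    intro l hl
    simp only [hbad, mem_filter] at hl
    exact hl.2

end Vale.Agent.P037
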