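import Vale.Agent.P037.GArith
import Vale.Agent.P037.All2

/-!
# P037: the polynomial removal bound for the pattern `[[0,1],[1,1]]` and for all `2 × 2` patterns
-/

namespace Vale.Agent.P037

open Finset

theorem gquads_card_le {n : ℕ} (A : Fin n → Fin n → Bool) : (gquads A).card ≤ numCopies G2 A := by
  classical
  unfold numCopies
  apply Finset.card_le_card_of_injOn (fun x => (![x.2.1, x.2.2], ![x.1.1, x.1.2]))
  · intro x hx
    simp only [gquads, Finset.coe_filter, Finset.mem_univ, true_and, Set.mem_setOf_eq] at hx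
    simp only [copies, Finset.coe_filter, Finset.mem_univ, true_and, Set.mem_setOf_eq]
    refine ⟨strictMono_pair hx.2.1, strictMono_pair hx.1, ?_⟩
    intro i j
    fin_cases i <;> fin_cases j <;> simp [G2, hx.2.2.1, hx.2.2.2.1, hx.2.2.2.2.1, hx.2.2.2.2.2]
  · intro x _ y _ hxy
    simp only [Prod.mk.injEq] at hxy
    have h1 := congrFun hxy.1 0
    have h2 := congrFun hxy.1 1
    have h3 := congrFun hxy.2 0
    have h4 := congrFun hxy.2 1
    simp at h1 h2 h3 h4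
    ext <;> simp [h1, h2, h3, h4]

theorem isFree_G2_of {n : ℕ} (B : Fin n → Fin n → Bool) (h : GFree B) : IsFree G2 B := by
  intro p q hp hq hpq
  have h01 : (0 : Fin 2) < 1 := by decide
  apply h (p 0) (p 1) (q 0) (q 1) (hp h01) (hq h01)
  · simpa [G2] using hpq 0 0
  · simpa [G2] using hpq 0 1
  · simpa [G2] using hpq 1 0
  · simpa [G2] using hpq 1 1

theorem G2_removal (n : ℕ) (ε : ℝ) (A : Fin n → Fin n → Bool) (hε0 : 0 < ε) (hε1 : ε < 1)
    (hfar : IsFar G2 A ε) :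
    (ε / 23) ^ 164 / (16 * ((18432 * 14155776 ^ 2 * 9216 : ℕ) : ℝ) ^ 4) * (n : ℝ) ^ 4
      ≤ (numCopies G2 A : ℝ) := by
  obtain ⟨K0, hK0⟩ : ∃ K0 : ℕ, K0 = 18432 * 14155776 ^ 2 * 9216 := ⟨_, rfl⟩
  rw [← hK0]
  have hK0pos : 0 < K0 := by rw [hK0]; positivity
  have hK0R : (0 : ℝ) < K0 := by exact_mod_cast hK0pos
  rcases Nat.eq_zero_or_pos n with hn | hn
  · subst hn
    simp
  have hnR : (0 : ℝ) < n := by exact_mod_cast hn
  obtain ⟨M, hMdef⟩ : ∃ M, M = ⌈22 / ε⌉₊ := ⟨_, rfl⟩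
  have hM1 : 22 / ε ≤ (M : ℝ) := by rw [hMdef]; exact Nat.le_ceil _
  have hM2 : (M : ℝ) < 22 / ε + 1 := by rw [hMdef]; exact Nat.ceil_lt_add_one (by positivity)
  have hM3 : (M : ℝ) ≤ 23 / ε := by
    have h1 : 1 ≤ 1 / ε := by rw [le_div_iff₀ hε0]; linarith
    have h2 : 23 / ε = 22 / ε + 1 / ε := by ring
    linarith
  have hM22 : (22 : ℝ) < M := by
    have : 22 < 22 / ε := by rw [lt_div_iff₀ hε0]; nlinarith
    linarith
  have hMnat : 1 ≤ M := by
    have : (1 : ℝ) ≤ M := by linarith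
    exact_mod_cast this
  have hMpos : (0 : ℝ) < M := by linarith
  have hMε : 22 ≤ (M : ℝ) * ε := (div_le_iff₀ hε0).mp hM1
  have hεM : ε / 23 ≤ 1 / M := by
    rw [div_le_div_iff₀ (by norm_num) hMpos]
    have := (le_div_iff₀ hε0).mp hM3
    linarith
  have hpow : (ε / 23) ^ 164 ≤ 1 / (M : ℝ) ^ 164 := by
    calc (ε / 23) ^ 164 ≤ (1 / (M : ℝ)) ^ 164 := pow_le_pow_left₀ (by positivity) hεM 164
      _ = 1 / (M : ℝ) ^ 164 := by rw [div_pow, one_pow]
  have hLHS : (ε / 23) ^ 164 / (16 * (K0 : ℝ) ^ 4) * (n : ℝ) ^ 4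
      ≤ (n : ℝ) ^ 4 / (16 * (K0 : ℝ) ^ 4 * (M : ℝ) ^ 164) := by
    calc (ε / 23) ^ 164 / (16 * (K0 : ℝ) ^ 4) * (n : ℝ) ^ 4
        ≤ 1 / (M : ℝ) ^ 164 / (16 * (K0 : ℝ) ^ 4) * (n : ℝ) ^ 4 := by gcongr
      _ = (n : ℝ) ^ 4 / (16 * (K0 : ℝ) ^ 4 * (M : ℝ) ^ 164) := by field_simp
  refine le_trans hLHS ?_
  rw [div_le_iff₀ (by positivity)]
  have hcop1 : 1 ≤ numCopies G2 A := one_le_numCopies_of_far G2 A ε hε0 hn hfar
  have hM0 : 0 < M := by omega
  have key : n ^ 4 ≤ numCopies G2 A * (16 * K0 ^ 4 * M ^ 164) := by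
    by_cases hsmall : n < K0 * M ^ 41
    · calc n ^ 4 ≤ (K0 * M ^ 41) ^ 4 := Nat.pow_le_pow_left hsmall.le 4
        _ = 1 * (1 * K0 ^ 4 * M ^ 164) := by ring
        _ ≤ numCopies G2 A * (16 * K0 ^ 4 * M ^ 164) := by
            apply Nat.mul_le_mul hcop1
            gcongr
            norm_num
    · have hk : 0 < K0 * M ^ 41 := by positivity
      obtain ⟨u, hudef⟩ : ∃ u, u = n / (K0 * M ^ 41) := ⟨_, rfl⟩
      have hu1 : 1 ≤ u := by
        rw [hudef]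
        exact (Nat.one_le_div_iff hk).mpr (not_lt.mp hsmall)
      have hform : 18432 * M ^ 9 * (14155776 * M ^ 12) ^ 2 * (9216 * M ^ 8 * u)
          = K0 * M ^ 41 * u := by
        rw [hK0]; ring
      have hn1 : 18432 * M ^ 9 * (14155776 * M ^ 12) ^ 2 * (9216 * M ^ 8 * u) ≤ n := by
        rw [hform]
        have := Nat.div_mul_le_self n (K0 * M ^ 41)
        rw [← hudef] at this
        calc K0 * M ^ 41 * u = u * (K0 * M ^ 41) := by ring
          _ ≤ n := this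
      have hn2 : n < 2 * (18432 * M ^ 9 * (14155776 * M ^ 12) ^ 2 * (9216 * M ^ 8 * u)) := by
        rw [hform]
        have := Nat.lt_mul_div_succ n hk
        rw [← hudef] at this
        calc n < K0 * M ^ 41 * (u + 1) := this
          _ ≤ K0 * M ^ 41 * (2 * u) := Nat.mul_le_mul_left _ (by omega)
          _ = 2 * (K0 * M ^ 41 * u) := by ring
      rcases G_nat A M u hMnat hu1 hn1 hn2 with h | ⟨B, hB, hBd⟩
      · rw [← hK0] at h
        calc n ^ 4 ≤ 16 * K0 ^ 4 * M ^ 164 * (gquads A).card := h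
          _ ≤ 16 * K0 ^ 4 * M ^ 164 * numCopies G2 A :=
              Nat.mul_le_mul_left _ (gquads_card_le A)
          _ = numCopies G2 A * (16 * K0 ^ 4 * M ^ 164) := by ring
      · exfalso
        have h1 := hfar B (isFree_G2_of B hB)
        have h2 : (M : ℝ) * (numDiff A B : ℝ) ≤ 11 * (n : ℝ) ^ 2 := by exact_mod_cast hBd
        have h3 : (M : ℝ) * (ε * (n : ℝ) ^ 2) ≤ (M : ℝ) * (numDiff A B : ℝ) :=
          mul_le_mul_of_nonneg_left h1 hMpos.le
        have h4 : 22 * (n : ℝ) ^ 2 ≤ (M : ℝ) * ε * (n : ℝ) ^ 2 :=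
          mul_le_mul_of_nonneg_right hMε (by positivity)
        have h5 : 0 < (n : ℝ) ^ 2 := by positivity
        nlinarith
  exact_mod_cast key

theorem polyRemoval_G2 : PolyRemoval G2 := by
  refine ⟨(1 / 23) ^ 164 / (16 * ((18432 * 14155776 ^ 2 * 9216 : ℕ) : ℝ) ^ 4), by positivity,
    164, ?_⟩
  intro n ε A h0 h1 hfar
  have h := G2_removal n ε A h0 h1 hfar
  have e : (1 / 23 : ℝ) ^ 164 / (16 * ((18432 * 14155776 ^ 2 * 9216 : ℕ) : ℝ) ^ 4) * ε ^ 164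
        * (n : ℝ) ^ (2 * 2)
      = (ε / 23) ^ 164 / (16 * ((18432 * 14155776 ^ 2 * 9216 : ℕ) : ℝ) ^ 4) * (n : ℝ) ^ 4 := by
    rw [div_pow ε, div_pow (1 : ℝ), one_pow, show 2 * 2 = 4 from rfl]
    ring
  rw [e]
  exact h

theorem all2 (H : Fin 2 → Fin 2 → Bool) : PolyRemoval H := all2_of_gamma polyRemoval_G2 H

end Vale.Agent.P037
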