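import Vale.Agent.P037.Word

/-!
# P037: conflicts between two virtual rows are robust or can be removed by deleting few columns
-/

namespace Vale.Agent.P037

open Finset

theorem gkill {ι : Type*} [Fintype ι] [DecidableEq ι] {n : ℕ} (ρ : ι → Fin n → Bool)
    (P : ι → ι → Prop) (D0 : Finset (Fin n)) (g : ℕ) :
    (∃ i j, P i j ∧ ∃ C1 C2 : Finset (Fin n), g ≤ C1.card ∧ g ≤ C2.card ∧
      ∀ c ∈ C1, ∀ e ∈ C2, c < e ∧ c ∉ D0 ∧ e ∉ D0 ∧ ρ i c = false ∧ ρ i e = true ∧
        ρ j c = true ∧ ρ j e = true) ∨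
    (∃ D1 : Finset (Fin n), D1.card ≤ (Fintype.card ι) ^ 2 * (2 * g) ∧
      ∀ i j, P i j → ∀ c e : Fin n, c ≤ e → c ∉ D0 → e ∉ D0 → c ∉ D1 → e ∉ D1 →
        ¬ (ρ i c = false ∧ ρ i e = true ∧ ρ j c = true ∧ ρ j e = true)) := by
  classical
  let τ : ι → ι → Fin n → Option (Bool × Bool) :=
    fun i j c => if c ∈ D0 then none else some (ρ i c, ρ j c)
  let u : Fin 2 → Option (Bool × Bool) := ![some (false, true), some (true, true)]
  have hch : ∀ p : ι × ι, ∃ D : Finset (Fin n), D.card ≤ 2 * g ∧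
      (Robust g (τ p.1 p.2) u 0 ∨
        ∀ y : Fin 2 → Fin n, Monotone y → (∀ k, y k ∉ D) →
          ¬ ∀ k, τ p.1 p.2 (y k) = u k) := by
    intro p
    rcases robust_or_killed g (τ p.1 p.2) 2 u 0 with h | ⟨D, hD, hk⟩
    · exact ⟨∅, by simp, Or.inl h⟩
    · exact ⟨D, hD, Or.inr (fun y hy hyD => hk y hy (fun k => Nat.zero_le _) hyD)⟩
  choose Du hDu hDu' using hch
  by_cases hex : ∃ p : ι × ι, P p.1 p.2 ∧ Robust g (τ p.1 p.2) u 0
  · left
    obtain ⟨⟨i, j⟩, hP, R, hc, hl, -, ho⟩ := hex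
    simp only at hP hl
    refine ⟨i, j, hP, R 0, R 1, hc 0, hc 1, ?_⟩
    intro c1 hc1 c2 hc2
    have h1 := hl 0 c1 hc1
    have h2 := hl 1 c2 hc2
    simp only [τ, u, Matrix.cons_val_zero, Matrix.cons_val_one] at h1 h2
    have hlt : c1 < c2 := ho 0 1 (by decide) c1 hc1 c2 hc2
    by_cases hd1 : c1 ∈ D0
    · rw [if_pos hd1] at h1; exact absurd h1 (by simp)
    by_cases hd2 : c2 ∈ D0
    · rw [if_pos hd2] at h2; exact absurd h2 (by simp)
    rw [if_neg hd1] at h1
    rw [if_neg hd2] at h2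
    have e1 : (ρ i c1, ρ j c1) = (false, true) := Option.some.inj h1
    have e2 : (ρ i c2, ρ j c2) = (true, true) := Option.some.inj h2
    rw [Prod.mk.injEq] at e1 e2
    exact ⟨hlt, hd1, hd2, e1.1, e2.1, e1.2, e2.2⟩
  · right
    refine ⟨(Finset.univ : Finset (ι × ι)).biUnion Du, ?_, ?_⟩
    · calc ((Finset.univ : Finset (ι × ι)).biUnion Du).card
          ≤ ∑ p ∈ (Finset.univ : Finset (ι × ι)), (Du p).card := Finset.card_biUnion_le
        _ ≤ ∑ _p ∈ (Finset.univ : Finset (ι × ι)), 2 * g := Finset.sum_le_sum (fun p _ => hDu p)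
        _ = (Fintype.card ι) ^ 2 * (2 * g) := by
            simp only [Finset.sum_const, Finset.card_univ, Fintype.card_prod, smul_eq_mul]
            ring
    · intro i j hP c1 c2 hle hd1 hd2 hD1 hD2 hconf
      rcases hDu' (i, j) with h | h
      · exact hex ⟨(i, j), hP, h⟩
      · apply h ![c1, c2]
        · intro a b hab
          fin_cases a <;> fin_cases b <;> simp_all
        · intro a ha
          have ha' : ![c1, c2] a ∈ (Finset.univ : Finset (ι × ι)).biUnion Du :=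
            Finset.mem_biUnion.2 ⟨(i, j), Finset.mem_univ _, ha⟩
          fin_cases a
          · exact hD1 ha'
          · exact hD2 ha'
        · intro a
          fin_cases a
          · simp [τ, u, hd1, hconf.1, hconf.2.2.1]
          · simp [τ, u, hd2, hconf.2.1, hconf.2.2.2]

end Vale.Agent.P037
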