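import Vale.Agent.P037.GDefs
import Vale.Agent.P037.GKill
import Vale.Agent.P037.GER
import Vale.Agent.P037.Fill
import Vale.Agent.P037.Chain

/-!
# P037: from a system of virtual rows with robust cores to a repaired matrix
-/

namespace Vale.Agent.P037

open Finset

variable {n : ℕ} {ι : Type*}

/-- the matrix whose row `r` is the virtual row of the class of `r` (zero row if `r` has no class) -/
def virt (ρ : ι → Fin n → Bool) (cls : Fin n → Option ι) : Fin n → Fin n → Bool :=
  fun r c => match cls r with
    | some i => ρ i c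
    | none => false

/-- the repaired matrix -/
def gB (Y : ι → Finset (Fin n)) (cls : Fin n → Option ι) (f : Fin n → Fin n) :
    Fin n → Fin n → Bool :=
  fun r c => match cls r with
    | some i => decide (f c ∈ Y i)
    | none => false

/-- entries outside the columns `D0` where `A` differs from the matrix of virtual rows -/
def rowcost (A : Fin n → Fin n → Bool) (ρ : ι → Fin n → Bool) (cls : Fin n → Option ι)
    (D0 : Finset (Fin n)) : ℕ :=
  (Finset.univ.filter (fun x : Fin n × Fin n => x.2 ∉ D0 ∧ A x.1 x.2 ≠ virt ρ cls x.1 x.2)).card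

theorem gB_free (s : ℕ) (Y : ι → Finset (Fin n)) (cls : Fin n → Option ι) (f : Fin n → Fin n)
    (hf : Monotone f) (grp : ι → ℕ) (hcls : ∀ r i, cls r = some i → r.val / s = grp i)
    (hY : ∀ i j, grp i ≤ grp j → ∀ c e : Fin n, c < e → ¬ (c ∉ Y i ∧ e ∈ Y i ∧ c ∈ Y j ∧ e ∈ Y j)) :
    GFree (gB Y cls f) := by
  intro r1 r2 c1 c2 hr hc h11 h12 h21 h22
  unfold gB at h11 h12 h21 h22
  rcases hi : cls r1 with _ | i
  · rw [hi] at h12; simp at h12
  rcases hj : cls r2 with _ | j
  · rw [hj] at h22; simp at h22
  rw [hi] at h11 h12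
  rw [hj] at h21 h22
  simp only [decide_eq_true_eq, decide_eq_false_iff_not] at h11 h12 h21 h22
  have hle : grp i ≤ grp j := by
    rw [← hcls r1 i hi, ← hcls r2 j hj]
    exact Nat.div_le_div_right (le_of_lt hr)
  have hfc : f c1 ≤ f c2 := hf (le_of_lt hc)
  have hne : f c1 ≠ f c2 := by
    intro heq
    rw [heq] at h11
    exact h11 h12
  exact hY i j hle (f c1) (f c2) (lt_of_le_of_ne hfc hne) ⟨h11, h12, h21, h22⟩

theorem card_filter_prod_le {α β : Type*} [Fintype α] [Fintype β] [DecidableEq α] [DecidableEq β]
    (P : α × β → Prop) [DecidablePred P] (m : ℕ)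
    (h : ∀ a, (Finset.univ.filter (fun b => P (a, b))).card ≤ m) :
    (Finset.univ.filter P).card ≤ Fintype.card α * m := by
  calc (Finset.univ.filter P).card
      = ∑ a : α, ((Finset.univ.filter P).filter (fun x => x.1 = a)).card :=
        Finset.card_eq_sum_card_fiberwise (fun x _ => Finset.mem_univ _)
    _ ≤ ∑ _a : α, m := by
        apply Finset.sum_le_sum
        intro a _
        refine le_trans ?_ (h a)
        apply Finset.card_le_card_of_injOn Prod.snd
        · intro x hx
          have hx1 := (Finset.mem_filter.mp hx).2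
          have hx2 := (Finset.mem_filter.mp (Finset.mem_filter.mp hx).1).2
          refine Finset.mem_coe.mpr (Finset.mem_filter.mpr ⟨Finset.mem_univ _, ?_⟩)
          rw [← hx1]
          exact hx2
        · intro x hx y hy hxy
          have hx1 := (Finset.mem_filter.mp hx).2
          have hy1 := (Finset.mem_filter.mp hy).2
          exact Prod.ext (hx1.trans hy1.symm) hxy
    _ = Fintype.card α * m := by simp

theorem gB_diff [Fintype ι] [DecidableEq ι] (A : Fin n → Fin n → Bool) (s : ℕ) (hs : 0 < s)
    (ρ : ι → Fin n → Bool) (cls : Fin n → Option ι) (grp : ι → ℕ)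
    (hcls : ∀ r i, cls r = some i → r.val / s = grp i)
    (D0 D : Finset (Fin n)) (hD : D0 ⊆ D) (f : Fin n → Fin n) (hf : ∀ x, x ∉ D → f x = x)
    (Y : ι → Finset (Fin n)) (bad : Finset ℕ) (k : ℕ)
    (hY : ∀ i, grp i ∉ bad →
      (symmDiff (Finset.univ.filter (fun c => c ∉ D ∧ ρ i c = true)) (Y i)).card ≤ 2 * k) :
    numDiff A (gB Y cls f) ≤ D.card * n + rowcost A ρ cls D0 + 2 * k * n + bad.card * s * n := by
  classical
  set S1 : Finset (Fin n × Fin n) := (Finset.univ : Finset (Fin n)) ×ˢ D with hS1
  set S2 : Finset (Fin n × Fin n) :=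
    Finset.univ.filter (fun x : Fin n × Fin n => x.2 ∉ D0 ∧ A x.1 x.2 ≠ virt ρ cls x.1 x.2) with hS2
  set S3 : Finset (Fin n × Fin n) :=
    Finset.univ.filter (fun x : Fin n × Fin n => ∃ i, cls x.1 = some i ∧ grp i ∉ bad ∧
      x.2 ∈ symmDiff (Finset.univ.filter (fun c => c ∉ D ∧ ρ i c = true)) (Y i)) with hS3
  set R : Finset (Fin n) := Finset.univ.filter (fun r : Fin n => r.val / s ∈ bad) with hR
  set S4 : Finset (Fin n × Fin n) := R ×ˢ (Finset.univ : Finset (Fin n)) with hS4
  have hsub : (Finset.univ.filter (fun x : Fin n × Fin n => A x.1 x.2 ≠ gB Y cls f x.1 x.2)) ⊆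
      S1 ∪ S2 ∪ S3 ∪ S4 := by
    intro x hx
    have hx' : A x.1 x.2 ≠ gB Y cls f x.1 x.2 := (Finset.mem_filter.mp hx).2
    by_cases h1 : x.2 ∈ D
    · apply Finset.mem_union_left
      apply Finset.mem_union_left
      apply Finset.mem_union_left
      exact Finset.mem_product.mpr ⟨Finset.mem_univ _, h1⟩
    have h0 : x.2 ∉ D0 := fun h => h1 (hD h)
    by_cases h2 : A x.1 x.2 = virt ρ cls x.1 x.2
    · have h3 : virt ρ cls x.1 x.2 ≠ gB Y cls f x.1 x.2 := by
        rw [← h2]; exact hx'
      rcases hi : cls x.1 with _ | i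
      · exfalso
        apply h3
        unfold virt gB
        rw [hi]
      · have h4 : ρ i x.2 ≠ decide (x.2 ∈ Y i) := by
          have : virt ρ cls x.1 x.2 = ρ i x.2 := by unfold virt; rw [hi]
          rw [← this]
          have h5 : gB Y cls f x.1 x.2 = decide (x.2 ∈ Y i) := by
            unfold gB; rw [hi, hf x.2 h1]
          rw [← h5]
          exact h3
        by_cases hb : grp i ∈ bad
        · apply Finset.mem_union_right
          refine Finset.mem_product.mpr ⟨?_, Finset.mem_univ _⟩
          refine Finset.mem_filter.mpr ⟨Finset.mem_univ _, ?_⟩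
          rw [hcls x.1 i hi]
          exact hb
        · apply Finset.mem_union_left
          apply Finset.mem_union_right
          refine Finset.mem_filter.mpr ⟨Finset.mem_univ _, i, hi, hb, ?_⟩
          rw [Finset.mem_symmDiff]
          by_cases hy : x.2 ∈ Y i
          · right
            refine ⟨hy, ?_⟩
            intro hm
            have hm' := (Finset.mem_filter.mp hm).2
            apply h4
            rw [hm'.2]
            simp [hy]
          · left
            refine ⟨?_, hy⟩
            refine Finset.mem_filter.mpr ⟨Finset.mem_univ _, h1, ?_⟩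
            by_contra hcon
            apply h4
            have : ρ i x.2 = false := by simpa using hcon
            rw [this]
            simp [hy]
    · apply Finset.mem_union_left
      apply Finset.mem_union_left
      apply Finset.mem_union_right
      exact Finset.mem_filter.mpr ⟨Finset.mem_univ _, h0, h2⟩
  have c1 : S1.card = D.card * n := by
    rw [hS1, Finset.card_product]
    simp [Nat.mul_comm]
  have c2 : S2.card = rowcost A ρ cls D0 := rfl
  have c3 : S3.card ≤ 2 * k * n := by
    have := card_filter_prod_le (α := Fin n) (β := Fin n)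
      (fun x : Fin n × Fin n => ∃ i, cls x.1 = some i ∧ grp i ∉ bad ∧
      x.2 ∈ symmDiff (Finset.univ.filter (fun c => c ∉ D ∧ ρ i c = true)) (Y i)) (2 * k) ?_
    · rw [Fintype.card_fin, Nat.mul_comm] at this
      exact this
    · intro a
      by_cases hex : ∃ i, cls a = some i ∧ grp i ∉ bad
      · obtain ⟨i, hi, hb⟩ := hex
        refine le_trans (Finset.card_le_card ?_) (hY i hb)
        intro b hbm
        obtain ⟨j, hj, -, hjm⟩ := (Finset.mem_filter.mp hbm).2
        have : i = j := Option.some.inj (hi.symm.trans hj)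
        subst this
        exact hjm
      · refine le_trans (le_of_eq (Finset.card_eq_zero.mpr
          (Finset.filter_eq_empty_iff.mpr ?_))) (Nat.zero_le _)
        rintro b - ⟨j, hj, hjb, -⟩
        exact hex ⟨j, hj, hjb⟩
  have cR : R.card ≤ bad.card * s := by
    have hRsub : R ⊆ bad.biUnion (fun l => Finset.univ.filter (fun r : Fin n => r.val / s = l)) := by
      intro r hr
      have hr' := (Finset.mem_filter.mp hr).2
      exact Finset.mem_biUnion.mpr ⟨_, hr', Finset.mem_filter.mpr ⟨Finset.mem_univ _, rfl⟩⟩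
    refine le_trans (Finset.card_le_card hRsub) ?_
    exact Finset.card_biUnion_le_card_mul _ _ _ (fun l _ => strip_card_le hs l)
  have c4 : S4.card ≤ bad.card * s * n := by
    rw [hS4, Finset.card_product]
    simp only [Finset.card_univ, Fintype.card_fin]
    exact Nat.mul_le_mul_right _ cR
  unfold numDiff
  calc _ ≤ (S1 ∪ S2 ∪ S3 ∪ S4).card := Finset.card_le_card hsub
    _ ≤ (S1 ∪ S2 ∪ S3).card + S4.card := Finset.card_union_le _ _
    _ ≤ (S1 ∪ S2).card + S3.card + S4.card := by
        have := Finset.card_union_le (S1 ∪ S2) S3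
        omega
    _ ≤ S1.card + S2.card + S3.card + S4.card := by
        have := Finset.card_union_le S1 S2
        omega
    _ ≤ _ := by omega

theorem gfalse_free : GFree (fun _ _ => false : Fin n → Fin n → Bool) := by
  intro r1 r2 c1 c2 _ _ _ h
  simp at h

theorem G_reduce [Fintype ι] [DecidableEq ι] (A : Fin n → Fin n → Bool) (s : ℕ) (hs : 0 < s)
    (ρ : ι → Fin n → Bool) (pos : ι → Fin n) (hpos : Function.Injective pos)
    (cls : Fin n → Option ι) (hcls : ∀ r i, cls r = some i → r.val / s = (pos i).val / s)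
    (D0 : Finset (Fin n)) (m : ℕ)
    (hlow : ∀ i c e, c ∉ D0 → e ∉ D0 → c < e → ρ i e = true →
      m ≤ (Finset.univ.filter (fun x : Fin n => x ≤ pos i ∧ A x c = ρ i c ∧ A x e = true)).card)
    (hhigh : ∀ i c e, c ∉ D0 → e ∉ D0 → c < e → ρ i e = true →
      m ≤ (Finset.univ.filter (fun x : Fin n => pos i ≤ x ∧ A x c = ρ i c ∧ A x e = true)).card)
    (g k : ℕ) (hk : 0 < k) :
    g ^ 2 * m ^ 2 ≤ (gquads A).card ∨
    ∃ B : Fin n → Fin n → Bool, GFree B ∧ ∃ d1 b : ℕ,
      d1 ≤ (Fintype.card ι) ^ 2 * (2 * g) ∧ b * k ^ 2 ≤ n ^ 2 ∧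
      numDiff A B ≤ (D0.card + d1) * n + rowcost A ρ cls D0 + 2 * k * n + b * s * n := by
  classical
  rcases gkill ρ (fun i j => pos i < pos j) D0 g with hrob | hkill
  · left
    obtain ⟨i, j, hij, C1, C2, hC1, hC2, hC⟩ := hrob
    apply gquads_of_robust A C1 C2 g m (pos i) (pos j) hij hC1 hC2
    intro c hc e he
    obtain ⟨hce, hcD, heD, h1, h2, h3, h4⟩ := hC c hc e he
    refine ⟨hce, ?_, ?_⟩
    · have := hlow i c e hcD heD hce h2
      rwa [h1] at this
    · have := hhigh j c e hcD heD hce h4
      rwa [h3] at this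
  · right
    obtain ⟨D1, hD1card, hD1⟩ := hkill
    by_cases hDn : (D0 ∪ D1).card < n
    · obtain ⟨f, hfm, hfD, hfx⟩ := exists_fill (D0 ∪ D1) hDn
      set X : ι → Finset (Fin n) :=
        fun i => Finset.univ.filter (fun c => c ∉ D0 ∪ D1 ∧ ρ i c = true) with hX
      have hfree : OrdFree X (fun i => (pos i).val) := by
        intro i j hij c e hce hcon
        obtain ⟨h1, h2, h3, h4⟩ := hcon
        simp only [hX, Finset.mem_filter, Finset.mem_univ, true_and, Finset.mem_union, not_or,
          not_and] at h1 h2 h3 h4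
        have hc0 : ρ i c = false := by
          have := h1 h3.1
          simpa using this
        exact hD1 i j (Fin.lt_def.mpr hij) c e (le_of_lt hce) h3.1.1 h2.1.1 h3.1.2 h2.1.2
          ⟨hc0, h2.2, h3.2, h4.2⟩
      have hposinj : Function.Injective (fun i => (pos i).val) := by
        intro i j hij
        exact hpos (Fin.ext hij)
      have hgrp : ∀ i j, (pos i).val < (pos j).val → (pos i).val / s ≤ (pos j).val / s := by
        intro i j hij
        exact Nat.div_le_div_right (le_of_lt hij)
      obtain ⟨Y, hY1, -, bad, hbad, hY3⟩ :=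
        exists_regroup X (fun i => (pos i).val) (fun i => (pos i).val / s) hposinj hgrp hfree k hk
      refine ⟨gB Y cls f, gB_free s Y cls f hfm (fun i => (pos i).val / s) hcls hY1, D1.card,
        bad.card, hD1card, hbad, ?_⟩
      have h := gB_diff A s hs ρ cls (fun i => (pos i).val / s) hcls D0 (D0 ∪ D1)
        Finset.subset_union_left f hfx Y bad k hY3
      have h2 : (D0 ∪ D1).card * n ≤ (D0.card + D1.card) * n :=
        Nat.mul_le_mul_right _ (Finset.card_union_le _ _)
      omega
    · refine ⟨fun _ _ => false, gfalse_free, D1.card, 0, hD1card, by simp, ?_⟩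
      have h : numDiff A (fun _ _ => false) ≤ n * n := by
        unfold numDiff
        calc _ ≤ (Finset.univ : Finset (Fin n × Fin n)).card :=
              Finset.card_le_card (Finset.filter_subset _ _)
          _ = n * n := by simp
      have h2 : n * n ≤ (D0.card + D1.card) * n := by
        apply Nat.mul_le_mul_right
        have := Finset.card_union_le D0 D1
        omega
      omega

end Vale.Agent.P037
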