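import Vale.Agent.P037.GCost
import Vale.Agent.P037.GReduce

/-!
# P037: the parametrised removal statement for the pattern `[[0,1],[1,1]]`
-/

namespace Vale.Agent.P037

open Finset

variable {n : ℕ}

theorem G_param (A : Fin n → Fin n → Bool) (v h μ σ q L t g k : ℕ) (hh : 0 < h) (hσ : 0 < σ)
    (hq0 : 0 < q) (hq : 2 * q * t ≤ L) (hL : 0 < L) (ht : 0 < t) (hk : 0 < k) :
    g ^ 2 * (t / 4) ^ 2 ≤ (gquads A).card ∨
    ∃ B : Fin n → Fin n → Bool, GFree B ∧ ∃ z dt d0 d1 x b : ℕ,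
      z * (h * μ) ≤ n * n ∧ dt * v ≤ (gquads A).card ∧
      d0 * L * t ^ 2 ≤ 128 * σ * (z * (2 * σ ^ 2 * n + v)) ∧
      d1 ≤ ((n / (σ * q) + 1) * z) ^ 2 * (2 * g) ∧
      x * t ≤ 2 * (z * (2 * (σ * q) ^ 2 * n + v)) ∧ b * k ^ 2 ≤ n ^ 2 ∧
      numDiff A B ≤ (dt + d0 + d1) * n + (2 * h * n + μ * n + (n / (σ * q) + 1) * z * L * n + x)
        + 2 * k * n + b * (σ * q) * n := by
  classical
  set Dd := Dt A v with hDd
  obtain ⟨Z, hZc, hZhit, hun⟩ := greedy_hit (ghit A Dd h) (Rbig A Dd h) h μ hh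
    (fun r hr => ghit_count A Dd h r hr)
  have hZv : ∀ a ∈ Z, Nright A a ≤ v := by
    intro a ha
    obtain ⟨r, hr⟩ := hZhit a ha
    have h1 : a ∉ Dd := hr.2.1
    rw [hDd] at h1
    simp only [Dt, Finset.mem_filter, Finset.mem_univ, true_and, not_lt] at h1
    exact h1
  have hs : 0 < σ * q := Nat.mul_pos hσ hq0
  set BB : Finset (ℕ × Fin n) := ((Finset.range (n / (σ * q) + 1)) ×ˢ Z).filter
    (fun β => L ≤ (Kwin A Dd h Z (σ * q) β.1 β.2).card) with hBBdef
  have hBB : ∀ β, β ∈ BB ↔ (β.1 < n / (σ * q) + 1 ∧ β.2 ∈ Z ∧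
      L ≤ (Kwin A Dd h Z (σ * q) β.1 β.2).card) := by
    intro β
    simp only [hBBdef, Finset.mem_filter, Finset.mem_product, Finset.mem_range, and_assoc]
  -- the cores
  have hex : ∀ β : ℕ × Fin n, ∃ j, β ∈ BB → (j / q = β.1 ∧ j < n / σ + 1 ∧
      t ≤ (Kwin A Dd h Z σ j β.2).card ∧
      (ambset A (Kwin A Dd h Z σ j β.2) β.2).card * L ≤
        2 * σ * ∑ j' ∈ (Finset.range (n / σ + 1)).filter
          (fun j' => j' / q = β.1 ∧ t ≤ (Kwin A Dd h Z σ j' β.2).card),
          (ambset A (Kwin A Dd h Z σ j' β.2) β.2).card) := by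
    intro β
    by_cases hβ : β ∈ BB
    · obtain ⟨j, hj⟩ := choose_core A Dd h Z σ q L t hσ hq0 hq hL β.1 β.2 ((hBB β).mp hβ).2.2
      exact ⟨j, fun _ => hj⟩
    · exact ⟨0, fun h => absurd h hβ⟩
  choose js hjs using hex
  -- the medians
  have hexm : ∀ β : ℕ × Fin n, ∃ x : Fin n, β ∈ BB → (x ∈ Kwin A Dd h Z σ (js β) β.2 ∧
      (Kwin A Dd h Z σ (js β) β.2).card ≤
        2 * ((Kwin A Dd h Z σ (js β) β.2).filter (fun r => r ≤ x)).card ∧
      (Kwin A Dd h Z σ (js β) β.2).card ≤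
        2 * ((Kwin A Dd h Z σ (js β) β.2).filter (fun r => x ≤ r)).card) := by
    intro β
    by_cases hβ : β ∈ BB
    · have hne : (Kwin A Dd h Z σ (js β) β.2).Nonempty := by
        rw [← Finset.card_pos]
        have := (hjs β hβ).2.2.1
        omega
      obtain ⟨x, hx, h1, h2⟩ := exists_median _ hne
      exact ⟨x, fun _ => ⟨hx, h1, h2⟩⟩
    · exact ⟨β.2, fun h => absurd h hβ⟩
  choose md hmd using hexm
  -- the system of virtual rows
  let ρ : BB → Fin n → Bool := fun i => vrow A (Kwin A Dd h Z σ (js i.1) i.1.2) i.1.2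
  let pos : BB → Fin n := fun i => md i.1
  let cls : Fin n → Option BB := fun r =>
    if hr : ∃ i : BB, r.val / (σ * q) = i.1.1 ∧ att A Dd h Z r i.1.2 then some (Classical.choose hr)
    else none
  set Da : Finset (Fin n) := BB.biUnion (fun β => ambset A (Kwin A Dd h Z σ (js β) β.2) β.2) with hDa
  have hmemK : ∀ (j : ℕ) (a x : Fin n), x ∈ Kwin A Dd h Z σ j a → x.val / σ = j ∧ att A Dd h Z x a := by
    intro j a x hx
    simpa [Kwin] using hx
  have hpos : Function.Injective pos := by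
    intro i i' hii
    have h1 := hmemK _ _ _ (hmd i.1 i.2).1
    have h2 := hmemK _ _ _ (hmd i'.1 i'.2).1
    have hii' : md i.1 = md i'.1 := hii
    rw [hii'] at h1
    have ha : i.1.2 = i'.1.2 := att_unique h1.2 h2.2
    have hj : js i.1 = js i'.1 := h1.1.symm.trans h2.1
    have hl : i.1.1 = i'.1.1 := by
      rw [← (hjs i.1 i.2).1, ← (hjs i'.1 i'.2).1, hj]
    exact Subtype.ext (Prod.ext hl ha)
  have hposgrp : ∀ i : BB, (pos i).val / (σ * q) = i.1.1 := by
    intro i
    have h1 := hmemK _ _ _ (hmd i.1 i.2).1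
    have h2 : (md i.1).val / (σ * q) = (md i.1).val / σ / q := (Nat.div_div_eq_div_mul _ _ _).symm
    show (md i.1).val / (σ * q) = i.1.1
    rw [h2, h1.1]
    exact (hjs i.1 i.2).1
  have hclsspec : ∀ r i, cls r = some i → r.val / (σ * q) = i.1.1 ∧ att A Dd h Z r i.1.2 := by
    intro r i hri
    simp only [cls] at hri
    split_ifs at hri with hr
    have := Classical.choose_spec hr
    simp only [Option.some.injEq] at hri
    rw [hri] at this
    exact this
  have hcls : ∀ r i, cls r = some i → r.val / (σ * q) = (pos i).val / (σ * q) := by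
    intro r i hri
    rw [hposgrp i]
    exact (hclsspec r i hri).1
  have hKa : ∀ i : BB, ∀ r ∈ Kwin A Dd h Z σ (js i.1) i.1.2, A r i.1.2 = true := by
    intro i r hr
    exact (hmemK _ _ _ hr).2.2.1
  have hamb : ∀ (i : BB) (c : Fin n), c ∉ Dd ∪ Da → c ∉ ambset A (Kwin A Dd h Z σ (js i.1) i.1.2) i.1.2 := by
    intro i c hc hcon
    apply hc
    apply Finset.mem_union_right
    rw [hDa, Finset.mem_biUnion]
    exact ⟨i.1, i.2, hcon⟩
  have hlow : ∀ (i : BB) (c e : Fin n), c ∉ Dd ∪ Da → e ∉ Dd ∪ Da → c < e → ρ i e = true →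
      t / 4 ≤ (Finset.univ.filter (fun x : Fin n => x ≤ pos i ∧ A x c = ρ i c ∧ A x e = true)).card := by
    intro i c e hc he hce hve
    have h1 := robust_core A (Kwin A Dd h Z σ (js i.1) i.1.2)
      ((Kwin A Dd h Z σ (js i.1) i.1.2).filter (fun r => r ≤ md i.1)) i.1.2 (hKa i)
      (Finset.filter_subset _ _) (hmd i.1 i.2).2.1 c e (hamb i c hc) (hamb i e he) hce hve
    have h2 : (((Kwin A Dd h Z σ (js i.1) i.1.2).filter (fun r => r ≤ md i.1)).filter
        (fun x => A x c = vrow A (Kwin A Dd h Z σ (js i.1) i.1.2) i.1.2 c ∧ A x e = true)).card ≤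
        (Finset.univ.filter (fun x : Fin n => x ≤ pos i ∧ A x c = ρ i c ∧ A x e = true)).card := by
      apply Finset.card_le_card
      intro x hx
      simp only [Finset.mem_filter, Finset.mem_univ, true_and] at hx ⊢
      exact ⟨hx.1.2, hx.2⟩
    have h3 := (hjs i.1 i.2).2.2.1
    omega
  have hhigh : ∀ (i : BB) (c e : Fin n), c ∉ Dd ∪ Da → e ∉ Dd ∪ Da → c < e → ρ i e = true →
      t / 4 ≤ (Finset.univ.filter (fun x : Fin n => pos i ≤ x ∧ A x c = ρ i c ∧ A x e = true)).card := by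
    intro i c e hc he hce hve
    have h1 := robust_core A (Kwin A Dd h Z σ (js i.1) i.1.2)
      ((Kwin A Dd h Z σ (js i.1) i.1.2).filter (fun r => md i.1 ≤ r)) i.1.2 (hKa i)
      (Finset.filter_subset _ _) (hmd i.1 i.2).2.2 c e (hamb i c hc) (hamb i e he) hce hve
    have h2 : (((Kwin A Dd h Z σ (js i.1) i.1.2).filter (fun r => md i.1 ≤ r)).filter
        (fun x => A x c = vrow A (Kwin A Dd h Z σ (js i.1) i.1.2) i.1.2 c ∧ A x e = true)).card ≤
        (Finset.univ.filter (fun x : Fin n => pos i ≤ x ∧ A x c = ρ i c ∧ A x e = true)).card := by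
      apply Finset.card_le_card
      intro x hx
      simp only [Finset.mem_filter, Finset.mem_univ, true_and] at hx ⊢
      exact ⟨hx.1.2, hx.2⟩
    have h3 := (hjs i.1 i.2).2.2.1
    omega
  rcases G_reduce A (σ * q) hs ρ pos hpos cls hcls (Dd ∪ Da) (t / 4) hlow hhigh g k hk with hmany | hB
  · left; exact hmany
  · right
    obtain ⟨B, hBfree, d1, b, hd1, hb, hdiff⟩ := hB
    -- the cost of the virtual rows
    have hV1 : ∀ r, ∀ β ∈ BB, r.val / (σ * q) = β.1 → att A Dd h Z r β.2 →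
        virt ρ cls r = vrow A (Kwin A Dd h Z σ (js β) β.2) β.2 := by
      intro r β hβ h1 h2
      have hr : ∃ i : BB, r.val / (σ * q) = i.1.1 ∧ att A Dd h Z r i.1.2 := ⟨⟨β, hβ⟩, h1, h2⟩
      have hc : cls r = some (Classical.choose hr) := by
        simp only [cls]
        rw [dif_pos hr]
      have hsp := Classical.choose_spec hr
      have heq : (Classical.choose hr).1 = β :=
        Prod.ext (hsp.1.symm.trans h1) (att_unique hsp.2 h2)
      funext c
      simp only [virt, hc, ρ]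
      rw [heq]
    have hV2 : ∀ r, (∀ β ∈ BB, ¬ (r.val / (σ * q) = β.1 ∧ att A Dd h Z r β.2)) →
        virt ρ cls r = fun _ => false := by
      intro r hr
      have hn : ¬ ∃ i : BB, r.val / (σ * q) = i.1.1 ∧ att A Dd h Z r i.1.2 := by
        rintro ⟨i, hi⟩
        exact hr i.1 i.2 hi
      have hc : cls r = none := by
        simp only [cls]
        rw [dif_neg hn]
      funext c
      simp only [virt, hc]
    have hun' : ((Rbig A Dd h).filter (fun r => ∀ e ∈ Z, ¬ ghit A Dd h r e)).card ≤ μ := by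
      convert hun
    obtain ⟨x, hx, hcost⟩ := vcost_le A Dd h μ Z σ q L t v hσ hq0 hZv hun' BB hBB js
      (fun β hβ => ⟨(hjs β hβ).1, (hjs β hβ).2.2.1⟩) (virt ρ cls) hV1 hV2
    have hrc : rowcost A ρ cls (Dd ∪ Da) ≤
        (Finset.univ.filter (fun y : Fin n × Fin n => y.2 ∉ Dd ∧ A y.1 y.2 ≠ virt ρ cls y.1 y.2)).card := by
      unfold rowcost
      apply Finset.card_le_card
      intro y hy
      simp only [Finset.mem_filter, Finset.mem_univ, true_and, Finset.mem_union, not_or] at hy ⊢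
      exact ⟨hy.1.1, hy.2⟩
    have hda := amb_total A Dd h Z σ q L t v hσ hZv BB (fun β hβ => ((hBB β).mp hβ).2.1) js
      (fun β hβ => (hjs β hβ).2.2.2)
    have hcardι : Fintype.card BB ≤ (n / (σ * q) + 1) * Z.card := by
      rw [Fintype.card_coe]
      calc BB.card ≤ ((Finset.range (n / (σ * q) + 1)) ×ˢ Z).card := Finset.card_le_card (Finset.filter_subset _ _)
        _ = (n / (σ * q) + 1) * Z.card := by simp
    refine ⟨B, hBfree, Z.card, Dd.card, Da.card, d1, x, b, hZc, Dt_card A v, hda, ?_, hx, hb, ?_⟩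
    · calc d1 ≤ (Fintype.card BB) ^ 2 * (2 * g) := hd1
        _ ≤ ((n / (σ * q) + 1) * Z.card) ^ 2 * (2 * g) :=
          Nat.mul_le_mul_right _ (Nat.pow_le_pow_left hcardι 2)
    · have h1 : ((Dd ∪ Da).card + d1) * n ≤ (Dd.card + Da.card + d1) * n := by
        apply Nat.mul_le_mul_right
        have := Finset.card_union_le Dd Da
        omega
      omega

end Vale.Agent.P037
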