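import Vale.Agent.P037.I2Main

/-!
# P037: choice of the parameters for the `2 × 2` identity pattern
-/

namespace Vale.Agent.P037

open Finset

theorem arith_alt1 (n M u Q : ℕ) (hn2 : n < 2 * (u * 288 * M ^ 13))
    (h : u ^ 2 * (u * 288 * M ^ 3 + 1) ^ 2 ≤ Q) :
    n ^ 4 ≤ 16 * 288 ^ 2 * M ^ 46 * Q := by
  have h1 : n ^ 4 ≤ (2 * (u * 288 * M ^ 13)) ^ 4 := Nat.pow_le_pow_left hn2.le 4
  have h2 : u ^ 2 * (u * 288 * M ^ 3) ^ 2 ≤ Q :=
    le_trans (Nat.mul_le_mul_left _ (Nat.pow_le_pow_left (Nat.le_succ _) 2)) h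
  calc n ^ 4 ≤ (2 * (u * 288 * M ^ 13)) ^ 4 := h1
    _ = 16 * 288 ^ 2 * M ^ 46 * (u ^ 2 * (u * 288 * M ^ 3) ^ 2) := by ring
    _ ≤ _ := Nat.mul_le_mul_left _ h2

theorem arith_alt2 (n M u w p T Q d0 d1 x D : ℕ) (hM : 2 ≤ M) (hw : 0 < w)
    (hp : p = w * M ^ 5)
    (hn0 : 128 * u * M ^ 13 ≤ n)
    (hn1 : p * M ^ 5 ≤ n) (hn2 : n < 2 * (p * M ^ 5))
    (hT : T ≤ 2 * M ^ 4)
    (hQ : 8 * M ^ 8 * Q < n ^ 4)
    (h0 : p * d0 ≤ T * (w * n))
    (h1 : d1 ≤ T ^ 2 * (M + 2) ^ 4 * (2 * u))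
    (hx : x * (p + 1) * (p * M ^ 3) ≤
      2 * (n * (p * M) * (p * M ^ 3) ^ 2 + 2 * (p * M) ^ 2 * n ^ 2 + Q))
    (hD : D ≤ (d0 + d1) * n + n * T * p + 2 * (n * T * p) + x) :
    M * D ≤ 20 * n ^ 2 := by
  have hM0 : 0 < M := by omega
  have hp0 : 0 < p := by rw [hp]; positivity
  -- d0
  have e0 : M * d0 ≤ 2 * n := by
    have : (w * M ^ 4) * (M * d0) ≤ (w * M ^ 4) * (2 * n) := by
      calc (w * M ^ 4) * (M * d0) = p * d0 := by rw [hp]; ring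
        _ ≤ T * (w * n) := h0
        _ ≤ (2 * M ^ 4) * (w * n) := Nat.mul_le_mul_right _ hT
        _ = (w * M ^ 4) * (2 * n) := by ring
    exact Nat.le_of_mul_le_mul_left this (by positivity)
  -- d1
  have e1 : M * d1 ≤ n := by
    have hM2 : M + 2 ≤ 2 * M := by omega
    calc M * d1 ≤ M * (T ^ 2 * (M + 2) ^ 4 * (2 * u)) := Nat.mul_le_mul_left _ h1
      _ ≤ M * ((2 * M ^ 4) ^ 2 * (2 * M) ^ 4 * (2 * u)) := by
          apply Nat.mul_le_mul_left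
          apply Nat.mul_le_mul_right
          exact Nat.mul_le_mul (Nat.pow_le_pow_left hT 2) (Nat.pow_le_pow_left hM2 4)
      _ = 128 * u * M ^ 13 := by ring
      _ ≤ n := hn0
  -- band
  have e2 : M * (n * T * p) ≤ 2 * n ^ 2 := by
    calc M * (n * T * p) ≤ M * (n * (2 * M ^ 4) * p) := by
          apply Nat.mul_le_mul_left
          apply Nat.mul_le_mul_right
          exact Nat.mul_le_mul_left _ hT
      _ = 2 * n * (p * M ^ 5) := by ring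
      _ ≤ 2 * n * n := Nat.mul_le_mul_left _ hn1
      _ = 2 * n ^ 2 := by ring
  -- x
  have e3 : M * x ≤ 7 * n ^ 2 := by
    have hq : 2 * Q ≤ n ^ 2 * p ^ 2 * M ^ 2 := by
      have h4 : n ^ 4 ≤ n ^ 2 * (2 * (p * M ^ 5)) ^ 2 := by
        calc n ^ 4 = n ^ 2 * n ^ 2 := by ring
          _ ≤ n ^ 2 * (2 * (p * M ^ 5)) ^ 2 :=
            Nat.mul_le_mul_left _ (Nat.pow_le_pow_left hn2.le 2)
      have : (4 * M ^ 8) * (2 * Q) ≤ (4 * M ^ 8) * (n ^ 2 * p ^ 2 * M ^ 2) := by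
        calc (4 * M ^ 8) * (2 * Q) = 8 * M ^ 8 * Q := by ring
          _ ≤ n ^ 4 := hQ.le
          _ ≤ n ^ 2 * (2 * (p * M ^ 5)) ^ 2 := h4
          _ = (4 * M ^ 8) * (n ^ 2 * p ^ 2 * M ^ 2) := by ring
      exact Nat.le_of_mul_le_mul_left this (by positivity)
    have : (p ^ 2 * M ^ 2) * (M * x) ≤ (p ^ 2 * M ^ 2) * (7 * n ^ 2) := by
      calc (p ^ 2 * M ^ 2) * (M * x) = x * p * (p * M ^ 3) := by ring
        _ ≤ x * (p + 1) * (p * M ^ 3) := by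
            apply Nat.mul_le_mul_right
            exact Nat.mul_le_mul_left _ (Nat.le_succ _)
        _ ≤ 2 * (n * (p * M) * (p * M ^ 3) ^ 2 + 2 * (p * M) ^ 2 * n ^ 2 + Q) := hx
        _ = 2 * (n * p ^ 2 * M ^ 2) * (p * M ^ 5) + 4 * (p ^ 2 * M ^ 2 * n ^ 2) + 2 * Q := by ring
        _ ≤ 2 * (n * p ^ 2 * M ^ 2) * n + 4 * (p ^ 2 * M ^ 2 * n ^ 2) + n ^ 2 * p ^ 2 * M ^ 2 := by
            apply Nat.add_le_add _ hq
            apply Nat.add_le_add_right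
            exact Nat.mul_le_mul_left _ hn1
        _ = (p ^ 2 * M ^ 2) * (7 * n ^ 2) := by ring
    exact Nat.le_of_mul_le_mul_left this (by positivity)
  calc M * D ≤ M * ((d0 + d1) * n + n * T * p + 2 * (n * T * p) + x) := Nat.mul_le_mul_left _ hD
    _ = (M * d0 + M * d1) * n + 3 * (M * (n * T * p)) + M * x := by ring
    _ ≤ (2 * n + n) * n + 3 * (2 * n ^ 2) + 7 * n ^ 2 := by
        apply Nat.add_le_add _ e3
        apply Nat.add_le_add _ (Nat.mul_le_mul_left _ e2)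
        exact Nat.mul_le_mul_right _ (Nat.add_le_add e0 e1)
    _ = 16 * n ^ 2 := by ring
    _ ≤ 20 * n ^ 2 := Nat.mul_le_mul_right _ (by norm_num)

variable {n : ℕ}

/-- The parametrised statement with `g = u`, `w = 288 u M^3`, `L = g1 = 288 u M^8`, `s = 288 u M^9`,
`ga = 288 u M^11` and `288 u M^13 ≤ n < 2 * 288 u M^13`. -/
theorem I2_nat (A : Fin n → Fin n → Bool) (M u : ℕ) (hM : 2 ≤ M) (hu : 1 ≤ u)
    (hn1 : u * 288 * M ^ 13 ≤ n) (hn2 : n < 2 * (u * 288 * M ^ 13)) :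
    n ^ 4 ≤ 16 * 288 ^ 2 * M ^ 46 * (quads A).card ∨
    ∃ B : Fin n → Fin n → Bool, IsFree I2 B ∧ M * numDiff A B ≤ 20 * n ^ 2 := by
  have hM0 : 0 < M := by omega
  obtain ⟨w, hwdef⟩ : ∃ w, w = u * 288 * M ^ 3 := ⟨_, rfl⟩
  obtain ⟨p, hpdef⟩ : ∃ p, p = w * M ^ 5 := ⟨_, rfl⟩
  have hw0 : 0 < w := by rw [hwdef]; positivity
  have hp0 : 0 < p := by rw [hpdef]; positivity
  have hpn : p * M ^ 5 = u * 288 * M ^ 13 := by rw [hpdef, hwdef]; ring
  have hwp : w ≤ p := by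
    rw [hpdef]
    exact Nat.le_mul_of_pos_right _ (by positivity)
  rcases I2_param A (p * M) p w u p (p * M ^ 3) (by positivity) hp0 hwp with h | h
  · left
    rw [hwdef] at h
    exact arith_alt1 n M u _ hn2 h
  · obtain ⟨B, hB, d0, d1, x, h0, h1, hx, hD⟩ := h
    by_cases hQ : n ^ 4 ≤ 8 * M ^ 8 * (quads A).card
    · left
      refine le_trans hQ ?_
      apply Nat.mul_le_mul_right
      calc 8 * M ^ 8 ≤ 16 * 288 ^ 2 * M ^ 8 := Nat.mul_le_mul_right _ (by norm_num)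
        _ ≤ 16 * 288 ^ 2 * M ^ 46 :=
          Nat.mul_le_mul_left _ (Nat.pow_le_pow_right hM0 (by norm_num))
    · right
      refine ⟨B, hB, ?_⟩
      have hT : n / (p * M) + 1 ≤ 2 * M ^ 4 := by
        have : n / (p * M) < 2 * M ^ 4 := by
          rw [Nat.div_lt_iff_lt_mul (by positivity)]
          calc n < 2 * (u * 288 * M ^ 13) := hn2
            _ = 2 * M ^ 4 * (p * M) := by rw [← hpn]; ring
        omega
      have hsL : p * M / p = M := Nat.mul_div_cancel_left M hp0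
      rw [hsL] at h1
      refine arith_alt2 n M u w p (n / (p * M) + 1) (quads A).card d0 d1 x _ hM hw0 hpdef ?_
        (by rw [hpn]; exact hn1) (by rw [hpn]; exact hn2) hT (not_le.mp hQ) h0 h1 hx hD
      calc 128 * u * M ^ 13 ≤ u * 288 * M ^ 13 := by
            apply Nat.mul_le_mul_right
            omega
        _ ≤ n := hn1

end Vale.Agent.P037
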