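import Vale.Agent.P037.Defs

/-!
# P037: the `2 × 2` identity pattern, basic facts
-/

namespace Vale.Agent.P037

open Finset

/-- The `2 × 2` identity pattern `[[1,0],[0,1]]`. -/
def I2 : Fin 2 → Fin 2 → Bool := fun i j => decide (i = j)

/-- Copies of the identity pattern as quadruples `((c1,c2),(r1,r2))`. -/
def quads {n : ℕ} (A : Fin n → Fin n → Bool) : Finset ((Fin n × Fin n) × (Fin n × Fin n)) :=
  Finset.univ.filter (fun x => x.1.1 < x.1.2 ∧ x.2.1 < x.2.2 ∧ A x.2.1 x.1.1 = true ∧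
    A x.2.1 x.1.2 = false ∧ A x.2.2 x.1.1 = false ∧ A x.2.2 x.1.2 = true)

theorem strictMono_pair {n : ℕ} {a b : Fin n} (h : a < b) : StrictMono (![a, b] : Fin 2 → Fin n) := by
  intro i j hij
  fin_cases i <;> fin_cases j <;> simp_all

theorem quads_card_le {n : ℕ} (A : Fin n → Fin n → Bool) : (quads A).card ≤ numCopies I2 A := by
  classical
  unfold numCopies
  apply Finset.card_le_card_of_injOn (fun x => (![x.2.1, x.2.2], ![x.1.1, x.1.2]))
  · intro x hx
    simp only [quads, Finset.coe_filter, Finset.mem_univ, true_and, Set.mem_setOf_eq] at hx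
    simp only [copies, Finset.coe_filter, Finset.mem_univ, true_and, Set.mem_setOf_eq]
    refine ⟨strictMono_pair hx.2.1, strictMono_pair hx.1, ?_⟩
    intro i j
    fin_cases i <;> fin_cases j <;> simp [I2, hx.2.2.1, hx.2.2.2.1, hx.2.2.2.2.1, hx.2.2.2.2.2]
  · intro x _ y _ hxy
    simp only [Prod.mk.injEq] at hxy
    have h1 := congrFun hxy.1 0
    have h2 := congrFun hxy.1 1
    have h3 := congrFun hxy.2 0
    have h4 := congrFun hxy.2 1
    simp at h1 h2 h3 h4
    ext <;> simp [h1, h2, h3, h4]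

theorem isFree_I2_of {n : ℕ} (B : Fin n → Fin n → Bool)
    (h : ∀ r1 r2 c1 c2 : Fin n, r1 < r2 → c1 < c2 → B r1 c1 = true → B r1 c2 = false →
      B r2 c1 = false → B r2 c2 = true → False) : IsFree I2 B := by
  intro p q hp hq hpq
  have h01 : (0 : Fin 2) < 1 := by decide
  apply h (p 0) (p 1) (q 0) (q 1) (hp h01) (hq h01)
  · simpa [I2] using hpq 0 0
  · simpa [I2] using hpq 0 1
  · simpa [I2] using hpq 1 0
  · simpa [I2] using hpq 1 1

end Vale.Agent.P037
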