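import Vale.Agent.P037.Drift
import Vale.Agent.P037.Conflict
import Vale.Agent.P037.Fill

/-!
# P037: the parametrised removal statement for the `2 × 2` identity pattern
-/

namespace Vale.Agent.P037

open Finset

variable {n : ℕ}

/-- rounded degree of a column in a strip -/
def qf (A : Fin n → Fin n → Bool) (s L : ℕ) (o : ℕ → ℕ) (l : ℕ) (c : Fin n) : ℕ :=
  (deg A s l c + o l) / L

/-- rounded rank of a row -/
def jf (A : Fin n → Fin n → Bool) (s L : ℕ) (o : ℕ → ℕ) (r : Fin n) : ℕ :=
  (rnk A s r + o (r.val / s) + L - 1) / L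

/-- the repaired matrix -/
def Bmat (A : Fin n → Fin n → Bool) (s L : ℕ) (o : ℕ → ℕ) (f : Fin n → Fin n) :
    Fin n → Fin n → Bool :=
  fun r c => decide (jf A s L o r ≤ qf A s L o (r.val / s) (f c))

theorem false_free : IsFree I2 (fun _ _ => false : Fin n → Fin n → Bool) := by
  apply isFree_I2_of
  intro r1 r2 c1 c2 _ _ h
  simp at h

theorem numDiff_le_sq (A B : Fin n → Fin n → Bool) : numDiff A B ≤ n * n := by
  unfold numDiff
  calc _ ≤ (Finset.univ : Finset (Fin n × Fin n)).card := Finset.card_le_card (Finset.filter_subset _ _)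
    _ = n * n := by simp

/-- closeness of the repaired matrix -/
theorem numDiff_Bmat (A : Fin n → Fin n → Bool) (s L g1 : ℕ) (hL : 0 < L) (o : ℕ → ℕ)
    (f : Fin n → Fin n) (D : Finset (Fin n)) (hf : ∀ x, x ∉ D → f x = x) :
    numDiff A (Bmat A s L o f) ≤ D.card * n + n * (n / s + 1) * L + 2 * (n * (n / s + 1) * g1)
      + ((X1 A s g1).card + (X2 A s g1).card) := by
  classical
  have hsub : (Finset.univ.filter (fun x : Fin n × Fin n => A x.1 x.2 ≠ Bmat A s L o f x.1 x.2)) ⊆
      ((((((Finset.univ : Finset (Fin n)) ×ˢ D) ∪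
      (Finset.univ.filter (fun x : Fin n × Fin n =>
        rnk A s x.1 ≤ deg A s (x.1.val / s) x.2 ∧ deg A s (x.1.val / s) x.2 < rnk A s x.1 + L))) ∪
      (Finset.univ.filter (fun x : Fin n × Fin n =>
        rnk A s x.1 ≤ deg A s (x.1.val / s) x.2 ∧ deg A s (x.1.val / s) x.2 < rnk A s x.1 + g1))) ∪
      (Finset.univ.filter (fun x : Fin n × Fin n =>
        deg A s (x.1.val / s) x.2 < rnk A s x.1 ∧ rnk A s x.1 ≤ deg A s (x.1.val / s) x.2 + g1))) ∪
      X1 A s g1) ∪ X2 A s g1 := by
    intro x hx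
    have hx' : A x.1 x.2 ≠ Bmat A s L o f x.1 x.2 := (Finset.mem_filter.mp hx).2
    simp only [Finset.mem_union, Finset.mem_product, Finset.mem_univ, true_and, Finset.mem_filter,
      X1, X2]
    by_cases hD : x.2 ∈ D
    · tauto
    · have hfx := hf x.2 hD
      cases hA : A x.1 x.2 with
      | true =>
        have hB : ¬ (jf A s L o x.1 ≤ qf A s L o (x.1.val / s) x.2) := by
          intro hle
          apply hx'
          rw [hA]
          simp only [Bmat, hfx]
          exact (decide_eq_true hle).symm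
        have h1 := lt_of_not_round (rnk A s x.1) (deg A s (x.1.val / s) x.2) (o (x.1.val / s)) L hL hB
        by_cases h2 : rnk A s x.1 ≤ deg A s (x.1.val / s) x.2
        · tauto
        · by_cases h3 : rnk A s x.1 ≤ deg A s (x.1.val / s) x.2 + g1
          · have h4 : deg A s (x.1.val / s) x.2 < rnk A s x.1 := not_le.mp h2
            tauto
          · have h4 : deg A s (x.1.val / s) x.2 + g1 < rnk A s x.1 := not_le.mp h3
            tauto
      | false =>
        have hB : jf A s L o x.1 ≤ qf A s L o (x.1.val / s) x.2 := by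
          by_contra hle
          apply hx'
          rw [hA]
          simp only [Bmat, hfx]
          exact (decide_eq_false hle).symm
        have h1 := le_of_round (rnk A s x.1) (deg A s (x.1.val / s) x.2) (o (x.1.val / s)) L hL hB
        by_cases h2 : deg A s (x.1.val / s) x.2 < rnk A s x.1 + g1
        · tauto
        · have h4 : rnk A s x.1 + g1 ≤ deg A s (x.1.val / s) x.2 := not_lt.mp h2
          tauto
  have hcard := Finset.card_le_card hsub
  have e0 : (((Finset.univ : Finset (Fin n)) ×ˢ D)).card = n * D.card := by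
    simp [Finset.card_product]
  have e1 := band_card_le A s L
  have e2 := band_card_le A s g1
  have e3 := band_card_le' A s g1
  have u1 := Finset.card_union_le ((((((Finset.univ : Finset (Fin n)) ×ˢ D) ∪
      (Finset.univ.filter (fun x : Fin n × Fin n =>
        rnk A s x.1 ≤ deg A s (x.1.val / s) x.2 ∧ deg A s (x.1.val / s) x.2 < rnk A s x.1 + L))) ∪
      (Finset.univ.filter (fun x : Fin n × Fin n =>
        rnk A s x.1 ≤ deg A s (x.1.val / s) x.2 ∧ deg A s (x.1.val / s) x.2 < rnk A s x.1 + g1))) ∪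
      (Finset.univ.filter (fun x : Fin n × Fin n =>
        deg A s (x.1.val / s) x.2 < rnk A s x.1 ∧ rnk A s x.1 ≤ deg A s (x.1.val / s) x.2 + g1))) ∪
      X1 A s g1) (X2 A s g1)
  have u2 := Finset.card_union_le (((((Finset.univ : Finset (Fin n)) ×ˢ D) ∪
      (Finset.univ.filter (fun x : Fin n × Fin n =>
        rnk A s x.1 ≤ deg A s (x.1.val / s) x.2 ∧ deg A s (x.1.val / s) x.2 < rnk A s x.1 + L))) ∪
      (Finset.univ.filter (fun x : Fin n × Fin n =>
        rnk A s x.1 ≤ deg A s (x.1.val / s) x.2 ∧ deg A s (x.1.val / s) x.2 < rnk A s x.1 + g1))) ∪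
      (Finset.univ.filter (fun x : Fin n × Fin n =>
        deg A s (x.1.val / s) x.2 < rnk A s x.1 ∧ rnk A s x.1 ≤ deg A s (x.1.val / s) x.2 + g1)))
      (X1 A s g1)
  have u3 := Finset.card_union_le ((((Finset.univ : Finset (Fin n)) ×ˢ D) ∪
      (Finset.univ.filter (fun x : Fin n × Fin n =>
        rnk A s x.1 ≤ deg A s (x.1.val / s) x.2 ∧ deg A s (x.1.val / s) x.2 < rnk A s x.1 + L))) ∪
      (Finset.univ.filter (fun x : Fin n × Fin n =>
        rnk A s x.1 ≤ deg A s (x.1.val / s) x.2 ∧ deg A s (x.1.val / s) x.2 < rnk A s x.1 + g1)))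
      (Finset.univ.filter (fun x : Fin n × Fin n =>
        deg A s (x.1.val / s) x.2 < rnk A s x.1 ∧ rnk A s x.1 ≤ deg A s (x.1.val / s) x.2 + g1))
  have u4 := Finset.card_union_le (((Finset.univ : Finset (Fin n)) ×ˢ D) ∪
      (Finset.univ.filter (fun x : Fin n × Fin n =>
        rnk A s x.1 ≤ deg A s (x.1.val / s) x.2 ∧ deg A s (x.1.val / s) x.2 < rnk A s x.1 + L)))
      (Finset.univ.filter (fun x : Fin n × Fin n =>
        rnk A s x.1 ≤ deg A s (x.1.val / s) x.2 ∧ deg A s (x.1.val / s) x.2 < rnk A s x.1 + g1))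
  have u5 := Finset.card_union_le ((Finset.univ : Finset (Fin n)) ×ˢ D)
      (Finset.univ.filter (fun x : Fin n × Fin n =>
        rnk A s x.1 ≤ deg A s (x.1.val / s) x.2 ∧ deg A s (x.1.val / s) x.2 < rnk A s x.1 + L))
  have e0' : D.card * n = n * D.card := Nat.mul_comm _ _
  unfold numDiff
  omega

/-- freeness of the repaired matrix -/
theorem Bmat_free (A : Fin n → Fin n → Bool) (s L : ℕ) (o : ℕ → ℕ)
    (f : Fin n → Fin n) (hfm : Monotone f)
    (hkill : ∀ c1 c2 : Fin n, c1 ≤ c2 → ∀ l1 l2, l1 < l2 → l2 < n / s + 1 →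
      ¬ (qf A s L o l1 (f c2) < qf A s L o l1 (f c1) ∧ qf A s L o l2 (f c1) < qf A s L o l2 (f c2))) :
    IsFree I2 (Bmat A s L o f) := by
  apply isFree_I2_of
  intro r1 r2 c1 c2 hr hc h11 h12 h21 h22
  simp only [Bmat, decide_eq_true_eq, decide_eq_false_iff_not, not_le] at h11 h12 h21 h22
  have hle : r1.val / s ≤ r2.val / s := Nat.div_le_div_right (le_of_lt hr)
  rcases Nat.lt_or_ge (r1.val / s) (r2.val / s) with hlt | hge
  · exact hkill c1 c2 (le_of_lt hc) _ _ hlt (strip_lt r2) ⟨by omega, by omega⟩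
  · have heq : r1.val / s = r2.val / s := le_antisymm hle hge
    rw [heq] at h11 h12
    omega

theorem I2_param (A : Fin n → Fin n → Bool) (s L w g g1 ga : ℕ) (hs : 0 < s) (hL : 0 < L)
    (hw : w ≤ L) :
    g ^ 2 * (w + 1) ^ 2 ≤ (quads A).card ∨
    ∃ B : Fin n → Fin n → Bool, IsFree I2 B ∧ ∃ d0 d1 x : ℕ,
      L * d0 ≤ (n / s + 1) * (w * n) ∧ d1 ≤ (n / s + 1) ^ 2 * (s / L + 2) ^ 4 * (2 * g) ∧
      x * (g1 + 1) * ga ≤ 2 * (n * s * ga ^ 2 + 2 * s ^ 2 * n ^ 2 + (quads A).card) ∧
      numDiff A B ≤ (d0 + d1) * n + n * (n / s + 1) * L + 2 * (n * (n / s + 1) * g1) + x := by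
  classical
  -- offsets
  have hoff : ∀ l : ℕ, ∃ o, o < L ∧
      L * (Finset.univ.filter (fun c : Fin n => (deg A s l c + o) % L < w)).card ≤ w * n :=
    fun l => exists_offset (fun c => deg A s l c) L w hL hw
  choose o ho1 ho2 using hoff
  set T := n / s + 1 with hT
  -- columns with a small residue in some strip
  set D0 : Finset (Fin n) := (Finset.range T).biUnion
    (fun l => Finset.univ.filter (fun c : Fin n => (deg A s l c + o l) % L < w)) with hD0
  have hD0card : L * D0.card ≤ T * (w * n) := by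
    calc L * D0.card ≤ L * ∑ l ∈ Finset.range T,
          (Finset.univ.filter (fun c : Fin n => (deg A s l c + o l) % L < w)).card :=
          Nat.mul_le_mul_left _ Finset.card_biUnion_le
      _ = ∑ l ∈ Finset.range T,
          L * (Finset.univ.filter (fun c : Fin n => (deg A s l c + o l) % L < w)).card :=
          Finset.mul_sum _ _ _
      _ ≤ ∑ _l ∈ Finset.range T, w * n := Finset.sum_le_sum (fun l _ => ho2 l)
      _ = T * (w * n) := by simp
  have hD0mem : ∀ c : Fin n, c ∉ D0 → ∀ l, l < T → w ≤ (deg A s l c + o l) % L := by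
    intro c hc l hl
    by_contra hcon
    apply hc
    rw [hD0, Finset.mem_biUnion]
    exact ⟨l, Finset.mem_range.mpr hl, by simpa using hcon⟩
  have hQ : ∀ l c, qf A s L o l c < s / L + 2 := by
    intro l c
    unfold qf
    have h1 := deg_le A s l hs c
    have h2 := ho1 l
    have h3 : (deg A s l c + o l) / L ≤ (s + L) / L := Nat.div_le_div_right (by omega)
    have h4 : (s + L) / L = s / L + 1 := Nat.add_div_right s hL
    omega
  have hx : ((X1 A s g1).card + (X2 A s g1).card) * (g1 + 1) * ga ≤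
      2 * (n * s * ga ^ 2 + 2 * s ^ 2 * n ^ 2 + (quads A).card) := by
    have h1 := X1_card A s g1
    have h2 := X2_card A s g1
    have h3 := W_le A s ga hs
    have h4 := P_le A s hs
    calc ((X1 A s g1).card + (X2 A s g1).card) * (g1 + 1) * ga
        = ((X1 A s g1).card * (g1 + 1) + (X2 A s g1).card * (g1 + 1)) * ga := by ring
      _ ≤ ((Wset A s).card + (Wset A s).card) * ga := Nat.mul_le_mul_right _ (by omega)
      _ = 2 * ((Wset A s).card * ga) := by ring
      _ ≤ 2 * (n * s * ga ^ 2 + 2 * s ^ 2 * n ^ 2 + (quads A).card) := by omega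
  rcases conflict_dichotomy T (s / L + 2) g (qf A s L o) hQ D0 with hrob | hkill
  · left
    obtain ⟨l1, l2, hl, hl2, C1, C2, hC1, hC2, hC⟩ := hrob
    apply quads_of_conflict A s l1 l2 C1 C2 g (w + 1) hl hC1 hC2
    intro c1 hc1 c2 hc2
    obtain ⟨hlt, hd1, hd2, hq1, hq2⟩ := hC c1 hc1 c2 hc2
    refine ⟨hlt, ?_, ?_⟩
    · exact gap _ _ (o l1) L w hL (hD0mem c1 hd1 l1 (by omega)) hq1
    · exact gap _ _ (o l2) L w hL (hD0mem c2 hd2 l2 hl2) hq2
  · right
    obtain ⟨D1, hD1card, hD1⟩ := hkill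
    by_cases hDn : (D0 ∪ D1).card < n
    · obtain ⟨f, hfm, hfD, hfx⟩ := exists_fill (D0 ∪ D1) hDn
      refine ⟨Bmat A s L o f, ?_, D0.card, D1.card, (X1 A s g1).card + (X2 A s g1).card,
        hD0card, hD1card, hx, ?_⟩
      · apply Bmat_free A s L o f hfm
        intro c1 c2 hc l1 l2 hl hl2
        have h1 := hfD c1
        have h2 := hfD c2
        simp only [Finset.mem_union, not_or] at h1 h2
        exact hD1 (f c1) (f c2) (hfm hc) h1.1 h2.1 h1.2 h2.2 l1 l2 hl hl2
      · have h := numDiff_Bmat A s L g1 hL o f (D0 ∪ D1) hfx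
        rw [← hT] at h
        have h2 : (D0 ∪ D1).card * n ≤ (D0.card + D1.card) * n :=
          Nat.mul_le_mul_right _ (Finset.card_union_le _ _)
        omega
    · refine ⟨fun _ _ => false, false_free, D0.card, D1.card,
        (X1 A s g1).card + (X2 A s g1).card, hD0card, hD1card, hx, ?_⟩
      have h := numDiff_le_sq A (fun _ _ => false)
      have h2 : n * n ≤ (D0.card + D1.card) * n := by
        apply Nat.mul_le_mul_right
        have := Finset.card_union_le D0 D1
        omega
      omega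

end Vale.Agent.P037
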