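import Vale.Agent.P037.Defs

/-!
# P037: the polynomial removal property and its symmetries
-/

namespace Vale.Agent.P037

open Finset

/-- The pattern `H` satisfies the polynomial removal bound of the question:
there are `c > 0` and `C` with `N_H(A) ≥ c ε^C n^(2k)` whenever `dist_H(A) ≥ ε`. -/
def PolyRemoval {k : ℕ} (H : Fin k → Fin k → Bool) : Prop :=
  ∃ c : ℝ, 0 < c ∧ ∃ C : ℕ, ∀ (n : ℕ) (ε : ℝ) (A : Fin n → Fin n → Bool), 0 < ε → ε < 1 →
    IsFar H A ε → c * ε ^ C * (n : ℝ) ^ (2 * k) ≤ (numCopies H A : ℝ)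

/-- entrywise complement -/
def mcompl {k : ℕ} (H : Fin k → Fin k → Bool) : Fin k → Fin k → Bool := fun i j => !(H i j)

/-- transpose -/
def mtransp {k : ℕ} (H : Fin k → Fin k → Bool) : Fin k → Fin k → Bool := fun i j => H j i

/-- reversal of the order of the rows -/
def mrevR {k : ℕ} (H : Fin k → Fin k → Bool) : Fin k → Fin k → Bool := fun i j => H (Fin.rev i) j

/-- reversal of the order of the columns -/
def mrevC {k : ℕ} (H : Fin k → Fin k → Bool) : Fin k → Fin k → Bool := fun i j => H i (Fin.rev j)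

theorem mem_copies {k n : ℕ} {H : Fin k → Fin k → Bool} {A : Fin n → Fin n → Bool}
    {x : (Fin k → Fin n) × (Fin k → Fin n)} :
    x ∈ copies H A ↔ StrictMono x.1 ∧ StrictMono x.2 ∧ ∀ i j, A (x.1 i) (x.2 j) = H i j := by
  classical
  simp only [copies, Finset.mem_filter, Finset.mem_univ, true_and]

theorem isFree_of_numCopies_eq_zero {k n : ℕ} {H : Fin k → Fin k → Bool}
    {B : Fin n → Fin n → Bool} (h : numCopies H B = 0) : IsFree H B := by
  intro p q hp hq hpq
  have hmem : (p, q) ∈ copies H B := mem_copies.mpr ⟨hp, hq, hpq⟩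
  have : 0 < numCopies H B := Finset.card_pos.mpr ⟨_, hmem⟩
  omega

theorem numCopies_eq_zero_of_isFree {k n : ℕ} {H : Fin k → Fin k → Bool}
    {B : Fin n → Fin n → Bool} (h : IsFree H B) : numCopies H B = 0 := by
  unfold numCopies
  rw [Finset.card_eq_zero, Finset.eq_empty_iff_forall_notMem]
  intro x hx
  obtain ⟨h1, h2, h3⟩ := mem_copies.mp hx
  exact h x.1 x.2 h1 h2 h3

/-- transfer of the removal property along an involutive operation on matrices of all sizes -/
theorem PolyRemoval.of_op (op : ∀ m : ℕ, (Fin m → Fin m → Bool) → (Fin m → Fin m → Bool))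
    (hinv : ∀ m A, op m (op m A) = A)
    (hcop : ∀ (k n : ℕ) (H : Fin k → Fin k → Bool) (A : Fin n → Fin n → Bool),
      numCopies (op k H) (op n A) ≤ numCopies H A)
    (hdiff : ∀ (n : ℕ) (A B : Fin n → Fin n → Bool), numDiff (op n A) (op n B) ≤ numDiff A B)
    {k : ℕ} {H : Fin k → Fin k → Bool} (h : PolyRemoval H) : PolyRemoval (op k H) := by
  obtain ⟨c, hc, C, hC⟩ := h
  refine ⟨c, hc, C, fun n ε A hε0 hε1 hfar => ?_⟩
  have hfar' : IsFar H (op n A) ε := by
    intro B hB
    have h0 : numCopies (op k H) (op n B) = 0 := by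
      have := hcop k n H B
      rw [numCopies_eq_zero_of_isFree hB] at this
      omega
    have h1 := hfar (op n B) (isFree_of_numCopies_eq_zero h0)
    have h2 : numDiff A (op n B) ≤ numDiff (op n A) B := by
      have := hdiff n (op n A) B
      rwa [hinv] at this
    have h3 : (numDiff A (op n B) : ℝ) ≤ (numDiff (op n A) B : ℝ) := by exact_mod_cast h2
    linarith
  have h1 := hC n ε (op n A) hε0 hε1 hfar'
  have h2 : numCopies H (op n A) ≤ numCopies (op k H) A := by
    have := hcop k n (op k H) A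
    rwa [hinv] at this
  have h3 : (numCopies H (op n A) : ℝ) ≤ (numCopies (op k H) A : ℝ) := by exact_mod_cast h2
  linarith

theorem PolyRemoval.compl {k : ℕ} {H : Fin k → Fin k → Bool} (h : PolyRemoval H) :
    PolyRemoval (mcompl H) := by
  refine PolyRemoval.of_op (fun _ A => mcompl A) ?_ ?_ ?_ h
  · intro m A
    funext i j
    simp [mcompl]
  · intro k n H A
    apply Finset.card_le_card
    intro x hx
    obtain ⟨h1, h2, h3⟩ := mem_copies.mp hx
    refine mem_copies.mpr ⟨h1, h2, fun i j => ?_⟩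
    have := h3 i j
    simpa [mcompl] using this
  · intro n A B
    apply Finset.card_le_card
    intro x hx
    have hx' : mcompl A x.1 x.2 ≠ mcompl B x.1 x.2 := (Finset.mem_filter.mp hx).2
    refine Finset.mem_filter.mpr ⟨Finset.mem_univ _, fun hcon => hx' ?_⟩
    simp only [mcompl, hcon]

theorem PolyRemoval.transp {k : ℕ} {H : Fin k → Fin k → Bool} (h : PolyRemoval H) :
    PolyRemoval (mtransp H) := by
  refine PolyRemoval.of_op (fun _ A => mtransp A) ?_ ?_ ?_ h
  · intro m A
    rfl
  · intro k n H A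
    apply Finset.card_le_card_of_injOn (fun x => (x.2, x.1))
    · intro x hx
      obtain ⟨h1, h2, h3⟩ := mem_copies.mp (Finset.mem_coe.mp hx)
      exact Finset.mem_coe.mpr (mem_copies.mpr ⟨h2, h1, fun i j => h3 j i⟩)
    · intro x _ y _ hxy
      simp only [Prod.mk.injEq] at hxy
      exact Prod.ext hxy.2 hxy.1
  · intro n A B
    apply Finset.card_le_card_of_injOn (fun x => (x.2, x.1))
    · intro x hx
      have hx' : mtransp A x.1 x.2 ≠ mtransp B x.1 x.2 :=
        (Finset.mem_filter.mp (Finset.mem_coe.mp hx)).2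
      exact Finset.mem_coe.mpr (Finset.mem_filter.mpr ⟨Finset.mem_univ _, hx'⟩)
    · intro x _ y _ hxy
      simp only [Prod.mk.injEq] at hxy
      exact Prod.ext hxy.2 hxy.1

theorem PolyRemoval.revR {k : ℕ} {H : Fin k → Fin k → Bool} (h : PolyRemoval H) :
    PolyRemoval (mrevR H) := by
  refine PolyRemoval.of_op (fun _ A => mrevR A) ?_ ?_ ?_ h
  · intro m A
    funext i j
    simp [mrevR]
  · intro k n H A
    apply Finset.card_le_card_of_injOn (fun x => (fun i => Fin.rev (x.1 (Fin.rev i)), x.2))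
    · intro x hx
      obtain ⟨h1, h2, h3⟩ := mem_copies.mp (Finset.mem_coe.mp hx)
      refine Finset.mem_coe.mpr (mem_copies.mpr ⟨?_, h2, fun i j => ?_⟩)
      · intro i j hij
        exact Fin.rev_lt_rev.mpr (h1 (Fin.rev_lt_rev.mpr hij))
      · have := h3 (Fin.rev i) j
        simpa [mrevR] using this
    · intro x _ y _ hxy
      simp only [Prod.mk.injEq] at hxy
      refine Prod.ext ?_ hxy.2
      funext i
      have := congrFun hxy.1 (Fin.rev i)
      simpa using this
  · intro n A B
    apply Finset.card_le_card_of_injOn (fun x => (Fin.rev x.1, x.2))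
    · intro x hx
      have hx' : mrevR A x.1 x.2 ≠ mrevR B x.1 x.2 :=
        (Finset.mem_filter.mp (Finset.mem_coe.mp hx)).2
      exact Finset.mem_coe.mpr (Finset.mem_filter.mpr ⟨Finset.mem_univ _, hx'⟩)
    · intro x _ y _ hxy
      simp only [Prod.mk.injEq] at hxy
      exact Prod.ext (Fin.rev_injective hxy.1) hxy.2

theorem PolyRemoval.revC {k : ℕ} {H : Fin k → Fin k → Bool} (h : PolyRemoval H) :
    PolyRemoval (mrevC H) :=
  h.transp.revR.transp

end Vale.Agent.P037
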