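import Vale.Agent.P037.Chain
import Vale.Agent.P037.Count

/-!
# P037: entries far from the rank/degree rule have many witnesses
-/

namespace Vale.Agent.P037

open Finset

variable {n : ℕ}

/-- ones lying far below the degree rule -/
def X1 (A : Fin n → Fin n → Bool) (s g1 : ℕ) : Finset (Fin n × Fin n) :=
  Finset.univ.filter (fun x => A x.1 x.2 = true ∧ deg A s (x.1.val / s) x.2 + g1 < rnk A s x.1)

/-- zeros lying far above the degree rule -/
def X2 (A : Fin n → Fin n → Bool) (s g1 : ℕ) : Finset (Fin n × Fin n) :=
  Finset.univ.filter (fun x => A x.1 x.2 = false ∧ rnk A s x.1 + g1 ≤ deg A s (x.1.val / s) x.2)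

/-- triples `((r, c), r')`: rows `r, r'` of one strip, `r` has the smaller key, and column `c`
has a one in row `r` and a zero in row `r'` -/
def Wset (A : Fin n → Fin n → Bool) (s : ℕ) : Finset ((Fin n × Fin n) × Fin n) :=
  Finset.univ.filter (fun x => x.1.1.val / s = x.2.val / s ∧ key A x.1.1 < key A x.2 ∧
    A x.1.1 x.1.2 = true ∧ A x.2 x.1.2 = false)

theorem X1_card (A : Fin n → Fin n → Bool) (s g1 : ℕ) :
    (X1 A s g1).card * (g1 + 1) ≤ (Wset A s).card := by
  classical
  unfold X1 Wset
  apply card_mul_le_of_fibres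
  rintro ⟨r, c⟩ ⟨hA, hlt⟩
  simp only at hA hlt ⊢
  -- the set of rows of the strip with a larger key
  set S : Finset (Fin n) :=
    Finset.univ.filter (fun r' : Fin n => r'.val / s = r.val / s ∧ key A r < key A r') with hS
  have hScard : 1 + S.card = rnk A s r := rfl
  have hsplit := Finset.card_filter_add_card_filter_not (s := S) (fun r' => A r' c = true)
  -- the ones of the column in S, together with r, lie in the degree set
  have h1 : (S.filter (fun r' => A r' c = true)).card + 1 ≤ deg A s (r.val / s) c := by
    unfold deg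
    have hnot : r ∉ S.filter (fun r' => A r' c = true) := by
      simp [hS]
    rw [← Finset.card_insert_of_notMem hnot]
    apply Finset.card_le_card
    intro x hx
    rw [Finset.mem_insert] at hx
    rcases hx with rfl | hx
    · simp [hA]
    · simp only [hS, Finset.mem_filter, Finset.mem_univ, true_and] at hx ⊢
      exact ⟨hx.1.1, hx.2⟩
  have h2 : (S.filter (fun r' => ¬ A r' c = true)).card ≤
      (Finset.univ.filter (fun b : Fin n => r.val / s = b.val / s ∧ key A r < key A b ∧
        A r c = true ∧ A b c = false)).card := by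
    apply Finset.card_le_card
    intro x hx
    simp only [hS, Finset.mem_filter, Finset.mem_univ, true_and] at hx ⊢
    refine ⟨hx.1.1.symm, hx.1.2, hA, ?_⟩
    simpa using hx.2
  omega

theorem X2_card (A : Fin n → Fin n → Bool) (s g1 : ℕ) :
    (X2 A s g1).card * (g1 + 1) ≤ (Wset A s).card := by
  classical
  have hW : (Wset A s).card = (Finset.univ.filter (fun y : (Fin n × Fin n) × Fin n =>
      y.2.val / s = y.1.1.val / s ∧ key A y.2 < key A y.1.1 ∧
      A y.2 y.1.2 = true ∧ A y.1.1 y.1.2 = false)).card := by
    unfold Wset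
    apply Finset.card_bij (fun x _ => ((x.2, x.1.2), x.1.1))
    · intro x hx
      simp only [Finset.mem_filter, Finset.mem_univ, true_and] at hx ⊢
      exact hx
    · rintro ⟨⟨a, b⟩, c⟩ _ ⟨⟨a', b'⟩, c'⟩ _ h
      simp only [Prod.mk.injEq] at h ⊢
      exact ⟨⟨h.2, h.1.2⟩, h.1.1⟩
    · rintro ⟨⟨a, b⟩, c⟩ hy
      refine ⟨((c, b), a), ?_, rfl⟩
      simp only [Finset.mem_filter, Finset.mem_univ, true_and] at hy ⊢
      exact hy
  rw [hW]
  unfold X2
  apply card_mul_le_of_fibres
  rintro ⟨r', c⟩ ⟨hA, hle⟩
  simp only at hA hle ⊢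
  set D : Finset (Fin n) :=
    Finset.univ.filter (fun r : Fin n => r.val / s = r'.val / s ∧ A r c = true) with hD
  have hDcard : D.card = deg A s (r'.val / s) c := rfl
  set S : Finset (Fin n) :=
    Finset.univ.filter (fun r : Fin n => r.val / s = r'.val / s ∧ key A r' < key A r) with hS
  have hScard : 1 + S.card = rnk A s r' := rfl
  have hsplit := Finset.card_filter_add_card_filter_not (s := D) (fun r => key A r' < key A r)
  have h1 : (D.filter (fun r => key A r' < key A r)).card ≤ S.card := by
    apply Finset.card_le_card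
    intro x hx
    simp only [hD, hS, Finset.mem_filter, Finset.mem_univ, true_and] at hx ⊢
    exact ⟨hx.1.1, hx.2⟩
  have h2 : (D.filter (fun r => ¬ key A r' < key A r)).card ≤
      (Finset.univ.filter (fun b : Fin n => b.val / s = r'.val / s ∧ key A b < key A r' ∧
        A b c = true ∧ A r' c = false)).card := by
    apply Finset.card_le_card
    intro x hx
    simp only [hD, Finset.mem_filter, Finset.mem_univ, true_and] at hx ⊢
    refine ⟨hx.1.1, ?_, hx.1.2, hA⟩
    have hne : key A x ≠ key A r' := by
      intro h
      have := key_inj A h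
      rw [this, hA] at hx
      exact absurd hx.1.2 (by simp)
    omega
  omega

end Vale.Agent.P037
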